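import Vale.Agent.P072G.Proj

/-!
The barrier: while the species outside a subset stay in a box, the species of the subset cannot all
become small.
-/

namespace Vale.Agent.P072G

open Finset Vale.Agent.P072 Filter Topology

noncomputable section

variable {d n : ℕ} {ι : Type}

/-- The last time a continuous function is above a level. -/
lemma last_time {φ : ℝ → ℝ} {s t ρ : ℝ} (hst : s ≤ t) (hc : ContinuousOn φ (Set.Icc s t))
    (h0 : ρ ≤ φ s) (h1 : φ t < ρ) :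
    ∃ t₁ ∈ Set.Ico s t, φ t₁ = ρ ∧ ∀ τ ∈ Set.Ioc t₁ t, φ τ < ρ := by
  have hclosed : IsClosed (Set.Icc s t ∩ φ ⁻¹' Set.Ici ρ) :=
    hc.preimage_isClosed_of_isClosed isClosed_Icc isClosed_Ici
  have hAcpt : IsCompact (Set.Icc s t ∩ φ ⁻¹' Set.Ici ρ) :=
    isCompact_Icc.of_isClosed_subset hclosed Set.inter_subset_left
  have hAne : (Set.Icc s t ∩ φ ⁻¹' Set.Ici ρ).Nonempty := ⟨s, ⟨⟨le_rfl, hst⟩, h0⟩⟩
  set t₁ := sSup (Set.Icc s t ∩ φ ⁻¹' Set.Ici ρ) with ht₁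
  have hmem := hAcpt.sSup_mem hAne
  rw [← ht₁] at hmem
  have hge : ρ ≤ φ t₁ := hmem.2
  have hlt : t₁ < t := lt_of_le_of_ne hmem.1.2 (fun e => by
    rw [e] at hge
    linarith)
  have hafter : ∀ τ ∈ Set.Ioc t₁ t, φ τ < ρ := by
    intro τ hτ
    by_contra hn
    push Not at hn
    have hm : τ ∈ Set.Icc s t ∩ φ ⁻¹' Set.Ici ρ := ⟨⟨hmem.1.1.trans hτ.1.le, hτ.2⟩, hn⟩
    have := le_csSup hAcpt.bddAbove hm
    rw [← ht₁] at this
    linarith [hτ.1]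
  refine ⟨t₁, ⟨hmem.1.1, hlt⟩, le_antisymm ?_ hge, hafter⟩
  have hsub : Set.Ioc t₁ t ⊆ Set.Icc s t := fun τ hτ => ⟨hmem.1.1.trans hτ.1.le, hτ.2⟩
  have h2 : Tendsto φ (𝓝[Set.Ioc t₁ t] t₁) (𝓝 (φ t₁)) :=
    (hc t₁ hmem.1).mono hsub
  haveI : (𝓝[Set.Ioc t₁ t] t₁).NeBot := left_nhdsWithin_Ioc_neBot hlt
  refine le_of_tendsto h2 ?_
  filter_upwards [self_mem_nhdsWithin] with τ hτ
  exact (hafter τ hτ).le

/-- The barrier lemma. -/
theorem barrier [Fintype ι] (hn : 0 < n) {e : Fin n → Fin d} (he : Function.Injective e)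
    {src tgt : ι → Fin d → ℕ} (WR : WeaklyRev src tgt) {ε M η' : ℝ} (hε : 0 < ε) (hη' : 0 < η')
    {S' : Scheme n} (hG : Good (pj e src) S' (epsP src ε M η')) {ρ : ℝ} (hρ : 0 < ρ)
    (hρ₂ : ρ ≤ Real.exp (-(1 + S'.Gam 0)) / 2) (hρη : ρ < η') :
    ∃ η : ℝ, 0 < η ∧ η ≤ ρ ∧ ∀ (k : ι → ℝ → ℝ) (x : ℝ → Fin d → ℝ) (s T : ℝ),
      (∀ r, ∀ t ∈ Set.Ico s T, ε ≤ k r t ∧ k r t ≤ 1 / ε) →
      (∀ t ∈ Set.Ico s T, (∀ i, 0 < x t i) ∧
        HasDerivWithinAt x (∑ r, (k r t * ∏ i, x t i ^ src r i) • vec src tgt r) (Set.Ico s T) t) →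
      (∀ t ∈ Set.Ico s T, ∀ l, x t l ≤ M) →
      (∀ t ∈ Set.Ico s T, ∀ l, l ∉ Set.range e → ∑ b, x t (e b) < η' → η' ≤ x t l) →
      ρ ≤ ∑ b, x s (e b) →
      ∀ t ∈ Set.Ico s T, η ≤ ∑ b, x t (e b) := by
  set h := min (ρ / (n : ℝ)) (S'.del (n - 1) * Real.exp (-(3 + S'.GamT)) / 2) with hh
  have hnR : (0 : ℝ) < (n : ℝ) := by exact_mod_cast hn
  have hh0 : 0 < h := by
    apply lt_min (by positivity)
    have := S'.del_pos (n - 1)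
    positivity
  -- the choice of the low lattice point
  obtain ⟨L, hL⟩ := exists_nat_gt (S'.GamT - Real.log (h / (6 * (n : ℝ))))
  have hLexp : 2 * (n : ℝ) * Real.exp (S'.GamT - L) ≤ h / 3 := by
    have h1 : Real.exp (S'.GamT - L) ≤ h / (6 * (n : ℝ)) := by
      have h2 : S'.GamT - (L : ℝ) ≤ Real.log (h / (6 * (n : ℝ))) := by linarith
      have h3 := Real.exp_le_exp.mpr h2
      rwa [Real.exp_log (by positivity)] at h3
    have h2 : 2 * (n : ℝ) * Real.exp (S'.GamT - L) ≤ 2 * (n : ℝ) * (h / (6 * (n : ℝ))) :=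
      mul_le_mul_of_nonneg_left h1 (by positivity)
    have e1 : 2 * (n : ℝ) * (h / (6 * (n : ℝ))) = h / 3 := by
      field_simp
      ring
    linarith
  have hL1 : (0 : ℝ) < (L : ℝ) + 1 := by positivity
  refine ⟨min ρ (h / (3 * ((L : ℝ) + 1))), lt_min hρ (by positivity), min_le_left _ _, ?_⟩
  set η := min ρ (h / (3 * ((L : ℝ) + 1))) with hη
  intro k x s T hk hsol hup hcomp hstart t₂ ht₂
  by_contra hcon
  push Not at hcon
  -- continuity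
  have hxc : ∀ t ∈ Set.Ico s T, ContinuousWithinAt x (Set.Ico s T) t :=
    fun t ht => (hsol t ht).2.continuousWithinAt
  set φ : ℝ → ℝ := fun τ => ∑ b, x τ (e b) with hφ
  have hφc : ∀ t ∈ Set.Ico s T, ContinuousWithinAt φ (Set.Ico s T) t := by
    intro t ht
    have h1 : Tendsto x (𝓝[Set.Ico s T] t) (𝓝 (x t)) := hxc t ht
    have h2 : Tendsto φ (𝓝[Set.Ico s T] t) (𝓝 (∑ b, x t (e b))) := by
      apply tendsto_finset_sum
      intro b _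
      exact (tendsto_pi_nhds.mp h1) (e b)
    exact h2
  have hηρ : η ≤ ρ := min_le_left _ _
  have hIcc : Set.Icc s t₂ ⊆ Set.Ico s T := fun τ hτ => ⟨hτ.1, lt_of_le_of_lt hτ.2 ht₂.2⟩
  obtain ⟨t₁, ht₁, hφt₁, hafter⟩ := last_time (φ := φ) ht₂.1
    (fun τ hτ => (hφc τ (hIcc hτ)).mono hIcc) hstart (lt_of_lt_of_le hcon hηρ)
  -- a little after t₂
  have hev : ∀ᶠ τ in 𝓝[Set.Ico s T] t₂, φ τ < ρ :=
    (hφc t₂ ht₂).eventually (gt_mem_nhds (lt_of_lt_of_le hcon hηρ))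
  have hle : 𝓝[Set.Ici t₂] t₂ ≤ 𝓝[Set.Ico s T] t₂ := by
    apply nhdsWithin_le_of_mem
    have h1 : Set.Ico t₂ T ∈ 𝓝[Set.Ici t₂] t₂ := Ico_mem_nhdsGE ht₂.2
    refine Filter.mem_of_superset h1 ?_
    intro τ hτ
    exact ⟨ht₂.1.trans hτ.1, hτ.2⟩
  have hev2 : {τ | φ τ < ρ} ∈ 𝓝[Set.Ici t₂] t₂ := hle hev
  obtain ⟨u, hu, hIco⟩ := (mem_nhdsGE_iff_exists_Ico_subset' (lt_add_one t₂)).mp hev2
  set T' := min u T with hT'
  have ht₂T' : t₂ < T' := lt_min hu ht₂.2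
  have hT'T : T' ≤ T := min_le_right _ _
  have hsubI : Set.Ico t₁ T' ⊆ Set.Ico s T := fun τ hτ =>
    ⟨ht₁.1.trans hτ.1, lt_of_lt_of_le hτ.2 hT'T⟩
  -- the region
  have hreg : ∀ τ ∈ Set.Ico t₁ T', φ τ ≤ ρ := by
    intro τ hτ
    rcases eq_or_lt_of_le hτ.1 with rfl | h1
    · exact hφt₁.le
    · by_cases h2 : τ ≤ t₂
      · exact (hafter τ ⟨h1, h2⟩).le
      · push Not at h2
        have : τ ∈ Set.Ico t₂ u := ⟨h2.le, lt_of_lt_of_le hτ.2 (min_le_left _ _)⟩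
        exact (hIco this).le
  have hbox : ∀ τ ∈ Set.Ico t₁ T', ∀ l, l ∉ Set.range e → η' ≤ x τ l ∧ x τ l ≤ M := by
    intro τ hτ l hl
    exact ⟨hcomp τ (hsubI hτ) l hl (lt_of_le_of_lt (hreg τ hτ) hρη), hup τ (hsubI hτ) l⟩
  set y : ℝ → Fin n → ℝ := fun τ b => x τ (e b) with hy
  have hmono := traj_mono (wr_pj e WR) hn (epsP_pos src hε hη') hG (a := t₁) (T := T') y
    (kP e src k x)
    (fun τ hτ => ⟨fun b => (hsol τ (hsubI hτ)).1 (e b),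
      proj_sol he ((hsol τ (hsubI hτ)).2.mono hsubI)⟩)
    (fun τ hτ r => kP_box hε hη' (fun r => hk r τ (hsubI hτ)) (hbox τ hτ) r)
    t₁ ⟨le_rfl, ht₁.2.trans ht₂T'⟩ t₂ ⟨ht₁.2.le, ht₂T'⟩ ht₁.2.le
  -- upper bound at t₁
  have hy₁ : ∀ b, 0 < y t₁ b := fun b => (hsol t₁ (hsubI ⟨le_rfl, ht₁.2.trans ht₂T'⟩)).1 (e b)
  have hy₂ : ∀ b, 0 < y t₂ b := fun b => (hsol t₂ ht₂).1 (e b)
  have hU : S'.WW (y t₁) ≤ -h := by
    apply Scheme.WW_le hn hy₁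
    intro σ K hK
    exact Scheme.val_neg hn hy₁ hρ₂ hφt₁.ge hφt₁.le σ hK
  -- lower bound at t₂
  have hLow : -h < S'.WW (y t₂) := by
    have h1 := Scheme.val_le_WW (S := S') hn hy₂ 1 (Scheme.kLow_sorted L) (Scheme.kLow_canon L)
    have h2 := Scheme.val_kLow (S := S') L (y t₂)
    have h3 : ∑ b, y t₂ b < h / (3 * ((L : ℝ) + 1)) := lt_of_lt_of_le hcon (min_le_right _ _)
    have h4 : (L : ℝ) * ∑ b, y t₂ b ≤ ((L : ℝ) + 1) * (h / (3 * ((L : ℝ) + 1))) := by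
      have h5 : 0 ≤ ∑ b, y t₂ b := Finset.sum_nonneg fun b _ => (hy₂ b).le
      have h6 : (L : ℝ) ≤ (L : ℝ) + 1 := by linarith
      exact mul_le_mul h6 h3.le h5 hL1.le
    have e1 : ((L : ℝ) + 1) * (h / (3 * ((L : ℝ) + 1))) = h / 3 := by
      field_simp
    rw [e1] at h4
    have e2 : -(L : ℝ) * ∑ i, y t₂ i = -((L : ℝ) * ∑ b, y t₂ b) := by ring
    rw [e2] at h2
    linarith
  linarith

end

end Vale.Agent.P072G
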