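import Vale.Agent.P072G.Lower

/-!
Existence of the scheme: the tower of families and the choice of all constants.
-/

namespace Vale.Agent.P072G

open Finset

noncomputable section

open Classical in
/-- One elimination step on a family of vectors. -/
def stepF (r : ℕ) (Fs : Finset (ℕ → ℤ)) : Finset (ℕ → ℤ) :=
  Fs.filter (fun v => v r = 0) ∪
    ((Fs.filter (fun v => 0 < v r)) ×ˢ (Fs.filter (fun v => 0 < v r))).image
      (fun p => elimv r p.1 p.2)

/-- The tower of families, from the top down. -/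
def towerG (d : ℕ) (Top : Finset (ℕ → ℤ)) : ℕ → Finset (ℕ → ℤ)
  | 0 => Top
  | j + 1 => stepF (d - 1 - j) (towerG d Top j)

lemma mem_stepF {r : ℕ} {Fs : Finset (ℕ → ℤ)} {v : ℕ → ℤ} :
    v ∈ stepF r Fs ↔ (v ∈ Fs ∧ v r = 0) ∨
      ∃ a ∈ Fs, ∃ b ∈ Fs, 0 < a r ∧ 0 < b r ∧ elimv r a b = v := by
  classical
  unfold stepF
  simp only [Finset.mem_union, Finset.mem_filter, Finset.mem_image, Finset.mem_product, Prod.exists]
  constructor
  · rintro (h | ⟨a, b, ⟨⟨h1, h2⟩, h3, h4⟩, h5⟩)
    · exact Or.inl h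
    · exact Or.inr ⟨a, h1, b, h3, h2, h4, h5⟩
  · rintro (h | ⟨a, h1, b, h3, h2, h4, h5⟩)
    · exact Or.inl h
    · exact Or.inr ⟨a, b, ⟨⟨h1, h2⟩, h3, h4⟩, h5⟩

lemma towerG_neg {d : ℕ} {Top : Finset (ℕ → ℤ)} (hT : ∀ v ∈ Top, -v ∈ Top) :
    ∀ j, ∀ v ∈ towerG d Top j, -v ∈ towerG d Top j := by
  intro j
  induction j with
  | zero => exact hT
  | succ j ih =>
    intro v hv
    simp only [towerG] at hv ⊢
    rw [mem_stepF] at hv ⊢
    rcases hv with ⟨h1, h2⟩ | ⟨a, ha, b, hb, h1, h2, rfl⟩
    · exact Or.inl ⟨ih v h1, by simp [h2]⟩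
    · refine Or.inr ⟨b, hb, a, ha, h2, h1, ?_⟩
      funext s
      simp [elimv]

lemma towerG_support {d : ℕ} {Top : Finset (ℕ → ℤ)} (hT : ∀ v ∈ Top, ∀ s, d ≤ s → v s = 0) :
    ∀ j, ∀ v ∈ towerG d Top j, ∀ s, d ≤ s → v s = 0 := by
  intro j
  induction j with
  | zero => exact hT
  | succ j ih =>
    intro v hv s hs
    simp only [towerG] at hv
    rw [mem_stepF] at hv
    rcases hv with ⟨h1, _⟩ | ⟨a, ha, b, hb, _, _, rfl⟩
    · exact ih v h1 s hs
    · simp [elimv, ih a ha s hs, ih b hb s hs]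

/-- The first auxiliary sequence. -/
def aaS (X : ℝ) (bbj : ℕ → ℝ) : ℕ → ℝ
  | 0 => 1
  | j + 1 => X ^ 2 * ((1 + 4 * bbj j + 4 * bbj j ^ 2) + 2 * aaS X bbj j * (1 + bbj j))

/-- The second auxiliary sequence. -/
def bbS (X : ℝ) : ℕ → ℝ
  | 0 => 0
  | j + 1 => X ^ 2 * (X + 2 * bbS X j + 2 * X * bbS X j + 2 * bbS X j ^ 2)

lemma bbS_nonneg {X : ℝ} (hX : 1 ≤ X) : ∀ j, 0 ≤ bbS X j := by
  intro j
  induction j with
  | zero => simp [bbS]
  | succ j ih =>
    simp only [bbS]
    have : 0 ≤ X := by linarith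
    positivity

lemma aaS_ge_one {X : ℝ} (hX : 1 ≤ X) : ∀ j, 1 ≤ aaS X (bbS X) j := by
  intro j
  induction j with
  | zero => simp [aaS]
  | succ j ih =>
    simp only [aaS]
    have hb := bbS_nonneg hX j
    have hX2 : 1 ≤ X ^ 2 := by nlinarith
    have h1 : 1 ≤ (1 + 4 * bbS X j + 4 * bbS X j ^ 2) + 2 * aaS X (bbS X) j * (1 + bbS X j) := by
      nlinarith [sq_nonneg (bbS X j), mul_nonneg hb (by linarith : (0 : ℝ) ≤ aaS X (bbS X) j)]
    nlinarith

/-- Partial sums of the normalized widths. -/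
def SomS (a b : ℕ → ℝ) (X : ℝ) : ℕ → ℝ
  | 0 => 0
  | r + 1 => SomS a b X r + (2 + 2 * X * SomS a b X r + 2 * (a r + b r * SomS a b X r + b r * 2))

/-- Normalized widths. -/
def omS (a b : ℕ → ℝ) (X : ℝ) (r : ℕ) : ℝ :=
  2 + 2 * X * SomS a b X r + 2 * (a r + b r * SomS a b X r + b r * 2)

lemma sum_omS (a b : ℕ → ℝ) (X : ℝ) (r : ℕ) : ∑ s ∈ range r, omS a b X s = SomS a b X r := by
  induction r with
  | zero => simp [SomS]
  | succ r ih =>
    rw [Finset.sum_range_succ, ih]
    simp [SomS, omS]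

lemma SomS_nonneg {a b : ℕ → ℝ} {X : ℝ} (ha : ∀ r, 0 ≤ a r) (hb : ∀ r, 0 ≤ b r) (hX : 0 ≤ X) :
    ∀ r, 0 ≤ SomS a b X r := by
  intro r
  induction r with
  | zero => simp [SomS]
  | succ r ih =>
    simp only [SomS]
    have := ha r
    have := hb r
    positivity

/-- Partial sums of the normalized bounds. -/
def SgS (a b : ℕ → ℝ) (X : ℝ) : ℕ → ℝ
  | 0 => 0
  | r + 1 => SgS a b X r +
      ((X * SgS a b X r + 1 + (a r + b r * SomS a b X r + b r * 2)) + 1)

/-- Normalized bounds. -/
def ggS (a b : ℕ → ℝ) (X : ℝ) (r : ℕ) : ℝ :=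
  X * SgS a b X r + 1 + (a r + b r * SomS a b X r + b r * 2)

lemma sum_ggS (a b : ℕ → ℝ) (X : ℝ) (r : ℕ) : ∑ s ∈ range r, (ggS a b X s + 1) = SgS a b X r := by
  induction r with
  | zero => simp [SgS]
  | succ r ih =>
    rw [Finset.sum_range_succ, ih]
    simp [SgS, ggS]

lemma SgS_nonneg {a b : ℕ → ℝ} {X : ℝ} (ha : ∀ r, 0 ≤ a r) (hb : ∀ r, 0 ≤ b r) (hX : 0 ≤ X) :
    ∀ r, 0 ≤ SgS a b X r := by
  intro r
  induction r with
  | zero => simp [SgS]
  | succ r ih =>
    simp only [SgS]
    have := ha r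
    have := hb r
    have := SomS_nonneg ha hb hX r
    positivity

/-- Existence of a scheme. -/
theorem exists_scheme {d : ℕ} (hd : 0 < d) (Ws : Finset (Fin d → ℤ)) (hneg : ∀ w ∈ Ws, -w ∈ Ws)
    (hunit : ∀ i j : Fin d, i ≠ j → (fun l => if l = i then (1 : ℤ) else if l = j then -1 else 0) ∈ Ws)
    (target : ℝ) :
    ∃ (S : Scheme d) (mp : ℝ), S.Sharp mp ∧ target ≤ mp ∧
      ∀ f : Fin d → Fin d, ∀ w ∈ Ws, Scheme.Tf f w ∈ S.F (d - 1) := by
  classical
  -- the top family
  set Top : Finset (ℕ → ℤ) := (Finset.univ ×ˢ Ws).image (fun p => Scheme.Tf p.1 p.2) with hTop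
  have hTopneg : ∀ v ∈ Top, -v ∈ Top := by
    intro v hv
    obtain ⟨⟨f, w⟩, hp, rfl⟩ := Finset.mem_image.mp hv
    have hw : w ∈ Ws := (Finset.mem_product.mp hp).2
    refine Finset.mem_image.mpr ⟨(f, -w), Finset.mem_product.mpr ⟨Finset.mem_univ _, hneg w hw⟩, ?_⟩
    funext s
    simp only [Scheme.Tf, Pi.neg_apply]
    rw [← Finset.sum_neg_distrib]
    apply Finset.sum_congr rfl
    intro i _
    split_ifs <;> simp
  have hTopsupp : ∀ v ∈ Top, ∀ s, d ≤ s → v s = 0 := by
    intro v hv s hs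
    obtain ⟨⟨f, w⟩, _, rfl⟩ := Finset.mem_image.mp hv
    simp only [Scheme.Tf]
    apply Finset.sum_eq_zero
    intro i _
    have : (f i : ℕ) ≠ s := by
      have := (f i).isLt
      omega
    simp [this]
  set F : ℕ → Finset (ℕ → ℤ) := fun r => towerG d Top (d - 1 - r) with hF
  have hFneg : ∀ r, ∀ v ∈ F r, -v ∈ F r := fun r => towerG_neg hTopneg _
  have hFsupp : ∀ r, ∀ v ∈ F r, ∀ s, d ≤ s → v s = 0 := fun r => towerG_support hTopsupp _
  have hFstep : ∀ r, r + 1 < d → F r = stepF (r + 1) (F (r + 1)) := by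
    intro r hr
    have e : d - 1 - r = (d - 1 - (r + 1)) + 1 := by omega
    have e2 : d - 1 - (d - 1 - (r + 1)) = r + 1 := by omega
    simp only [hF]
    rw [e]
    simp only [towerG, e2]
  -- the constant Xi
  set X : ℝ := 1 + ∑ r ∈ range d, ∑ v ∈ F r, ∑ s ∈ range d, |(v s : ℝ)| with hX
  have hsum0 : 0 ≤ ∑ r ∈ range d, ∑ v ∈ F r, ∑ s ∈ range d, |(v s : ℝ)| :=
    Finset.sum_nonneg fun _ _ => Finset.sum_nonneg fun _ _ => Finset.sum_nonneg fun _ _ => abs_nonneg _
  have hX1 : 1 ≤ X := by rw [hX]; linarith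
  have hX0 : 0 ≤ X := by linarith
  have hXbd : ∀ r, r < d → ∀ v ∈ F r, ∀ s, |(v s : ℝ)| ≤ X := by
    intro r hr v hv s
    by_cases hs : s < d
    · have h1 : |(v s : ℝ)| ≤ ∑ s ∈ range d, |(v s : ℝ)| :=
        Finset.single_le_sum (f := fun s => |(v s : ℝ)|) (fun _ _ => abs_nonneg _)
          (Finset.mem_range.mpr hs)
      have h2 : ∑ s ∈ range d, |(v s : ℝ)| ≤ ∑ v ∈ F r, ∑ s ∈ range d, |(v s : ℝ)| :=
        Finset.single_le_sum (f := fun v : ℕ → ℤ => ∑ s ∈ range d, |(v s : ℝ)|)
          (fun _ _ => Finset.sum_nonneg fun _ _ => abs_nonneg _) hv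
      have h3 : ∑ v ∈ F r, ∑ s ∈ range d, |(v s : ℝ)|
          ≤ ∑ r ∈ range d, ∑ v ∈ F r, ∑ s ∈ range d, |(v s : ℝ)| :=
        Finset.single_le_sum (f := fun r => ∑ v ∈ F r, ∑ s ∈ range d, |(v s : ℝ)|)
          (fun _ _ => Finset.sum_nonneg fun _ _ => Finset.sum_nonneg fun _ _ => abs_nonneg _)
          (Finset.mem_range.mpr hr)
      rw [hX]
      linarith
    · rw [hFsupp r v hv s (by omega)]
      simp only [Int.cast_zero, abs_zero]
      exact hX0
  -- the common multiple
  set D : ℕ := ∏ r ∈ range d, ∏ v ∈ F r, (if 0 < v r then (v r).natAbs else 1) with hD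
  have hD1 : 1 ≤ D := by
    apply Nat.succ_le_of_lt
    apply Finset.prod_pos
    intro r _
    apply Finset.prod_pos
    intro v _
    split_ifs with h
    · exact Int.natAbs_pos.mpr h.ne'
    · exact Nat.one_pos
  have hDdvd : ∀ r, r < d → ∀ v ∈ F r, 0 < v r → v r ∣ (D : ℤ) := by
    intro r hr v hv hp
    have h1 : (if 0 < v r then (v r).natAbs else 1) ∣ ∏ v ∈ F r, (if 0 < v r then (v r).natAbs else 1) :=
      Finset.dvd_prod_of_mem (fun v : ℕ → ℤ => if 0 < v r then (v r).natAbs else 1) hv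
    have h2 : (∏ v ∈ F r, (if 0 < v r then (v r).natAbs else 1)) ∣ D :=
      Finset.dvd_prod_of_mem (fun r => ∏ v ∈ F r, (if 0 < v r then (v r).natAbs else 1))
        (Finset.mem_range.mpr hr)
    have h3 : (v r).natAbs ∣ D := by
      have := h1.trans h2
      simpa [hp] using this
    have h4 : ((v r).natAbs : ℤ) ∣ (D : ℤ) := by exact_mod_cast h3
    exact Int.natAbs_dvd.mp h4
  -- the sequences
  set a : ℕ → ℝ := fun r => aaS X (bbS X) (d - 1 - r) with ha
  set b : ℕ → ℝ := fun r => bbS X (d - 1 - r) with hb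
  have ha1 : ∀ r, 1 ≤ a r := fun r => aaS_ge_one hX1 _
  have ha0 : ∀ r, 0 ≤ a r := fun r => by linarith [ha1 r]
  have hb0 : ∀ r, 0 ≤ b r := fun r => bbS_nonneg hX1 _
  have hSom0 := SomS_nonneg ha0 hb0 hX0
  have hSg0 := SgS_nonneg ha0 hb0 hX0
  set om := omS a b X with hom
  set gg := ggS a b X with hgg
  have hom0 : ∀ r, 0 ≤ om r := by
    intro r
    simp only [hom, omS]
    have := ha0 r
    have := hb0 r
    have := hSom0 r
    positivity
  have hgg0 : ∀ r, 0 ≤ gg r := by
    intro r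
    simp only [hgg, ggS]
    have := ha0 r
    have := hb0 r
    have := hSom0 r
    have := hSg0 r
    positivity
  set ell : ℕ := 1 + ⌈2 * ∑ r ∈ range d, gg r⌉₊ with hell
  have hell1 : 1 ≤ ell := by omega
  have hellg : ∀ r, r < d → 2 * gg r ≤ (ell : ℝ) - 1 := by
    intro r hr
    have h1 : gg r ≤ ∑ r ∈ range d, gg r :=
      Finset.single_le_sum (f := gg) (fun s _ => hgg0 s) (Finset.mem_range.mpr hr)
    have h2 : 2 * ∑ r ∈ range d, gg r ≤ (⌈2 * ∑ r ∈ range d, gg r⌉₊ : ℝ) := Nat.le_ceil _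
    rw [hell]
    push_cast
    linarith
  -- the scale
  set K : ℝ := (D : ℝ) * (ell : ℝ) with hK
  have hK1 : 1 ≤ K := by
    have h1 : (1 : ℝ) ≤ (D : ℝ) := by exact_mod_cast hD1
    have h2 : (1 : ℝ) ≤ (ell : ℝ) := by exact_mod_cast hell1
    nlinarith
  set μ : ℝ := 1 + |target| + 8 * (d : ℝ) * K ^ (d - 1) with hμ
  have hKpow : 0 < K ^ (d - 1) := by positivity
  have hdR : (0 : ℝ) ≤ (d : ℝ) := by positivity
  have hμ1 : 1 ≤ μ := by
    have : 0 ≤ 8 * (d : ℝ) * K ^ (d - 1) := by positivity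
    rw [hμ]
    linarith [abs_nonneg target]
  have hμ0 : 0 < μ := by linarith
  -- the scheme
  let S : Scheme d :=
    { F := F
      neg_mem := hFneg
      down := by
        intro r hr v hv h0
        rw [hFstep r hr, mem_stepF]
        exact Or.inl ⟨hv, h0⟩
      elim := by
        intro r hr v hv v' hv' h1 h2
        rw [hFstep r hr, mem_stepF]
        exact Or.inr ⟨v, hv, v', hv', h1, h2, rfl⟩
      Xi := X
      Xi_one := hX1
      Xi_bd := hXbd
      ell := ell
      ell_pos := hell1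
      D := D
      D_pos := hD1
      D_dvd := hDdvd
      eta := μ
      eta_one := hμ1
      A := fun r => μ * a r
      B := b
      Om := fun r => μ * om r
      Gam := fun r => μ * gg r
      A_nonneg := fun r => mul_nonneg hμ0.le (ha0 r)
      B_nonneg := hb0
      Om_nonneg := fun r => mul_nonneg hμ0.le (hom0 r)
      Gam_nonneg := fun r => mul_nonneg hμ0.le (hgg0 r)
      hrec := by
        intro r hr W _
        have e : d - 1 - r = (d - 1 - (r + 1)) + 1 := by omega
        have e1 : a r = X ^ 2 * ((1 + 4 * b (r + 1) + 4 * b (r + 1) ^ 2)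
            + 2 * a (r + 1) * (1 + b (r + 1))) := by
          simp only [ha, hb]
          rw [e]
          rfl
        have e2 : b r = X ^ 2 * (X + 2 * b (r + 1) + 2 * X * b (r + 1) + 2 * b (r + 1) ^ 2) := by
          simp only [hb]
          rw [e]
          rfl
        rw [e1, e2]
        apply le_of_eq
        ring
      hOm := by
        intro r _
        have e : ∑ s ∈ range r, μ * om s = μ * SomS a b X r := by
          rw [← Finset.mul_sum, hom, sum_omS]
        rw [e]
        apply le_of_eq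
        simp only [hom, omS]
        ring
      hGam := by
        intro r _
        have e : ∑ s ∈ range r, μ * om s = μ * SomS a b X r := by
          rw [← Finset.mul_sum, hom, sum_omS]
        rw [e]
        have h1 : ∑ s ∈ range r, (μ * gg s + 1) ≤ μ * SgS a b X r := by
          rw [← sum_ggS, hgg, Finset.mul_sum]
          apply Finset.sum_le_sum
          intro s _
          nlinarith
        have h2 := mul_le_mul_of_nonneg_left h1 hX0
        have e3 : gg r = X * SgS a b X r + 1 + (a r + b r * SomS a b X r + b r * 2) := rfl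
        rw [e3]
        have e4 : μ * (X * SgS a b X r + 1 + (a r + b r * SomS a b X r + b r * 2))
            = X * (μ * SgS a b X r) + μ + (μ * a r + b r * (μ * SomS a b X r) + b r * (2 * μ)) := by
          ring
        rw [e4]
        linarith
      hclimb := by
        intro r hr
        have := hellg r hr
        nlinarith }
  have hKK : ((S.KK : ℕ) : ℝ) = K := by
    show ((D * ell : ℕ) : ℝ) = K
    push_cast
    rfl
  have hSharp : S.Sharp μ := by
    refine ⟨hμ0.le, ?_, ?_, ?_⟩
    · intro r _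
      show μ ≤ μ * a r
      have := ha1 r
      nlinarith
    · -- the unit difference vectors
      intro r hr
      have hbase : evec r ∈ F (d - 1) := by
        have e : d - 1 - (d - 1) = 0 := by omega
        simp only [hF, e]
        show evec r ∈ towerG d Top 0
        simp only [towerG]
        have hne : (⟨r, by omega⟩ : Fin d) ≠ ⟨r + 1, hr⟩ := by
          intro h
          have := congrArg Fin.val h
          simp at this
        refine Finset.mem_image.mpr ⟨(id, _), Finset.mem_product.mpr ⟨Finset.mem_univ _,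
          hunit _ _ hne⟩, ?_⟩
        funext s
        simp only [Scheme.Tf, id]
        by_cases hs : s < d
        · rw [Finset.sum_eq_single (⟨s, hs⟩ : Fin d)]
          · have e3 : ((⟨s, hs⟩ : Fin d) : ℕ) = s := rfl
            rw [if_pos e3]
            show (if (⟨s, hs⟩ : Fin d) = ⟨r, by omega⟩ then (1 : ℤ)
              else if (⟨s, hs⟩ : Fin d) = ⟨r + 1, hr⟩ then -1 else 0) = evec r s
            by_cases h1 : s = r
            · have h3 : (⟨s, hs⟩ : Fin d) = ⟨r, by omega⟩ := Fin.ext h1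
              rw [if_pos h3]
              simp [evec, h1]
            · have h3 : (⟨s, hs⟩ : Fin d) ≠ ⟨r, by omega⟩ := fun e => h1 (congrArg Fin.val e)
              rw [if_neg h3]
              by_cases h2 : s = r + 1
              · have h4 : (⟨s, hs⟩ : Fin d) = ⟨r + 1, hr⟩ := Fin.ext h2
                rw [if_pos h4]
                simp [evec, h2]
              · have h4 : (⟨s, hs⟩ : Fin d) ≠ ⟨r + 1, hr⟩ := fun e => h2 (congrArg Fin.val e)
                rw [if_neg h4]
                simp [evec, h1, h2]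
          · intro i _ hi
            have : (i : ℕ) ≠ s := fun e => hi (Fin.ext e)
            simp [this]
          · simp
        · have h1 : s ≠ r := by omega
          have h2 : s ≠ r + 1 := by omega
          have h3 : evec r s = 0 := by simp [evec, h1, h2]
          rw [h3]
          apply Finset.sum_eq_zero
          intro i _
          have : (i : ℕ) ≠ s := by
            have := i.isLt
            omega
          simp [this]
      have hdown : ∀ n t, t + n + 1 = d → r + 1 ≤ t → evec r ∈ F t := by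
        intro n
        induction n with
        | zero =>
          intro t ht _
          have : t = d - 1 := by omega
          rw [this]
          exact hbase
        | succ n ih =>
          intro t ht hrt
          have h1 := ih (t + 1) (by omega) (by omega)
          rw [hFstep t (by omega), mem_stepF]
          refine Or.inl ⟨h1, ?_⟩
          have h2 : t + 1 ≠ r := by omega
          have h3 : t ≠ r := by omega
          simp [evec, h2, h3]
      exact hdown (d - 1 - (r + 1)) (r + 1) (by omega) le_rfl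
    · -- smallness
      have e : S.del (d - 1) = 1 / K ^ (d - 1) := by
        unfold Scheme.del
        rw [hKK]
      rw [e, Real.exp_neg]
      have h1 : μ + 1 ≤ Real.exp μ := Real.add_one_le_exp μ
      have h2 : 8 * (d : ℝ) * K ^ (d - 1) ≤ Real.exp μ := by
        have : 8 * (d : ℝ) * K ^ (d - 1) ≤ μ := by
          rw [hμ]
          linarith [abs_nonneg target]
        linarith
      have hE := Real.exp_pos μ
      rw [le_div_iff₀ hKpow, mul_assoc, mul_assoc, mul_comm (Real.exp μ)⁻¹, ← mul_assoc, ← mul_assoc]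
      rw [← div_eq_mul_inv, div_le_one hE]
      linarith
  refine ⟨S, μ, hSharp, ?_, ?_⟩
  · have : 0 ≤ 8 * (d : ℝ) * K ^ (d - 1) := by positivity
    rw [hμ]
    linarith [le_abs_self target]
  · intro f w hw
    show Scheme.Tf f w ∈ F (d - 1)
    have e : d - 1 - (d - 1) = 0 := by omega
    simp only [hF, e]
    show Scheme.Tf f w ∈ towerG d Top 0
    simp only [towerG]
    exact Finset.mem_image.mpr ⟨(f, w), Finset.mem_product.mpr ⟨Finset.mem_univ _, hw⟩, rfl⟩

end

end Vale.Agent.P072G
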