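import Vale.Agent.P072.Network

/-!
The level-cut estimate: on a strongly connected class, if the weights on the different levels of
the potential are strongly ordered, the weighted sum of the increments is nonpositive.
-/

namespace Vale.Agent.P072G

open Finset

noncomputable section

/-- One layer of the cut estimate. -/
lemma cut_layer {ι : Type*} [DecidableEq ι] (C : Finset ι) (L L' h : ι → ℝ) (v : ℝ)
    (hh : ∀ r ∈ C, 0 ≤ h r)
    (hLv : ∀ r ∈ C, L r ≤ v) (hLv' : ∀ r ∈ C, L' r ≤ v)
    (hexit : ∀ θ : ℝ, ∀ r ∈ C, L r < θ → θ ≤ L' r → ∃ r'' ∈ C, θ ≤ L r'' ∧ L' r'' < θ)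
    (hdom : ∀ r ∈ C, ∀ r'' ∈ C, L r < L r'' → (C.card : ℝ) * h r ≤ h r'') :
    ∑ r ∈ C, h r * ((if L' r = v then 1 else 0) - (if L r = v then 1 else 0)) ≤ 0 := by
  by_cases hup : ∃ r₀ ∈ C, L r₀ < v ∧ L' r₀ = v
  · obtain ⟨r₀, hr₀, h1, h2⟩ := hup
    obtain ⟨r'', hr'', h3, h4⟩ := hexit v r₀ hr₀ h1 h2.ge
    have hLr : L r'' = v := le_antisymm (hLv _ hr'') h3
    have hne : L' r'' ≠ v := h4.ne
    have hcpos : (0 : ℝ) < (C.card : ℝ) := by
      exact_mod_cast Finset.card_pos.mpr ⟨r₀, hr₀⟩
    have hterm : ∀ r ∈ C, (C.card : ℝ) *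
        (h r * ((if L' r = v then 1 else 0) - (if L r = v then 1 else 0))) ≤ h r'' := by
      intro r hr
      have hh'' := hh _ hr''
      by_cases hrL : L r = v
      · rw [if_pos hrL]
        split_ifs
        · simpa using hh''
        · have := hh r hr
          have : (C.card : ℝ) * (h r * (0 - 1)) = -((C.card : ℝ) * h r) := by ring
          rw [this]
          have : 0 ≤ (C.card : ℝ) * h r := mul_nonneg hcpos.le (hh r hr)
          linarith
      · rw [if_neg hrL]
        split_ifs with hr'
        · have hlt : L r < L r'' := by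
            rw [hLr]
            exact lt_of_le_of_ne (hLv r hr) hrL
          have := hdom r hr r'' hr'' hlt
          simpa using this
        · simpa using hh''
    have hmain : (C.card : ℝ) *
        ∑ r ∈ C, h r * ((if L' r = v then 1 else 0) - (if L r = v then 1 else 0)) ≤ 0 := by
      rw [Finset.mul_sum, ← Finset.add_sum_erase C _ hr'']
      have hr''t : h r'' * ((if L' r'' = v then (1 : ℝ) else 0) - (if L r'' = v then 1 else 0))
          = - h r'' := by
        rw [if_neg hne, if_pos hLr]
        ring
      rw [hr''t]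
      have h5 : ∑ r ∈ C.erase r'', (C.card : ℝ) *
          (h r * ((if L' r = v then 1 else 0) - (if L r = v then 1 else 0)))
          ≤ ∑ _r ∈ C.erase r'', h r'' :=
        Finset.sum_le_sum fun r hr => hterm r (Finset.mem_of_mem_erase hr)
      rw [Finset.sum_const, Finset.card_erase_of_mem hr'', nsmul_eq_mul] at h5
      have hcard : 1 ≤ C.card := Finset.card_pos.mpr ⟨r₀, hr₀⟩
      have h6 : ((C.card - 1 : ℕ) : ℝ) = (C.card : ℝ) - 1 := by
        rw [Nat.cast_sub hcard]
        simp
      rw [h6] at h5
      have := hh r'' hr''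
      nlinarith
    by_contra hcon
    push Not at hcon
    have := mul_pos hcpos hcon
    linarith
  · push Not at hup
    apply Finset.sum_nonpos
    intro r hr
    have hhr := hh r hr
    by_cases hrL : L r = v
    · rw [if_pos hrL]
      split_ifs
      · simp
      · nlinarith
    · rw [if_neg hrL]
      have hlt : L r < v := lt_of_le_of_ne (hLv r hr) hrL
      have := hup r hr hlt
      rw [if_neg this]
      simp

/-- The cut estimate, by induction on the set of values. -/
theorem cut_aux {ι : Type*} [DecidableEq ι] (C : Finset ι) (h : ι → ℝ) (hh : ∀ r ∈ C, 0 ≤ h r)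
    (A : Finset ℝ) :
    ∀ L L' : ι → ℝ, (∀ r ∈ C, L r ∈ A ∧ L' r ∈ A) →
      (∀ θ : ℝ, ∀ r ∈ C, L r < θ → θ ≤ L' r → ∃ r'' ∈ C, θ ≤ L r'' ∧ L' r'' < θ) →
      (∀ r ∈ C, ∀ r'' ∈ C, L r < L r'' → (C.card : ℝ) * h r ≤ h r'') →
      ∑ r ∈ C, h r * (L' r - L r) ≤ 0 := by
  induction A using Finset.induction_on_max with
  | empty =>
    intro L L' hA _ _
    apply Finset.sum_nonpos
    intro r hr
    exact absurd (hA r hr).1 (Finset.notMem_empty _)
  | insert v A₀ hv ih =>
    intro L L' hA hexit hdom
    by_cases hA₀ : A₀.Nonempty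
    · set v' := A₀.max' hA₀ with hv'
      have hv'mem : v' ∈ A₀ := Finset.max'_mem _ _
      have hvv' : v' < v := hv _ hv'mem
      have hle : ∀ t ∈ A₀, t ≤ v' := fun t ht => Finset.le_max' _ _ ht
      have hmem : ∀ t ∈ insert v A₀, min t v' ∈ A₀ := by
        intro t ht
        rcases Finset.mem_insert.mp ht with rfl | ht
        · rw [min_eq_right hvv'.le]
          exact hv'mem
        · rw [min_eq_left (hle t ht)]
          exact ht
      have hdiff : ∀ t ∈ insert v A₀, t - min t v' = (v - v') * (if t = v then 1 else 0) := by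
        intro t ht
        rcases Finset.mem_insert.mp ht with rfl | ht
        · rw [min_eq_right hvv'.le]
          simp
        · have : t ≠ v := (hv t ht).ne
          rw [min_eq_left (hle t ht), if_neg this]
          ring
      have hleV : ∀ t ∈ insert v A₀, t ≤ v := by
        intro t ht
        rcases Finset.mem_insert.mp ht with rfl | ht
        · exact le_rfl
        · exact (hv t ht).le
      have h1 := ih (fun r => min (L r) v') (fun r => min (L' r) v')
        (fun r hr => ⟨hmem _ (hA r hr).1, hmem _ (hA r hr).2⟩) ?_ ?_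
      · have h2 := cut_layer C L L' h v hh (fun r hr => hleV _ (hA r hr).1)
          (fun r hr => hleV _ (hA r hr).2) hexit hdom
        have e : ∑ r ∈ C, h r * (L' r - L r) =
            ∑ r ∈ C, h r * (min (L' r) v' - min (L r) v') + (v - v') *
              ∑ r ∈ C, h r * ((if L' r = v then 1 else 0) - (if L r = v then 1 else 0)) := by
          rw [Finset.mul_sum, ← Finset.sum_add_distrib]
          apply Finset.sum_congr rfl
          intro r hr
          have e1 := hdiff _ (hA r hr).1
          have e2 := hdiff _ (hA r hr).2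
          have e3 : L' r - L r = (min (L' r) v' - min (L r) v')
              + ((L' r - min (L' r) v') - (L r - min (L r) v')) := by ring
          rw [e3, e1, e2]
          ring
        rw [e]
        have := mul_nonpos_of_nonneg_of_nonpos (a := v - v') (by linarith) h2
        linarith
      · intro θ r hr h3 h4
        have hθ : θ ≤ v' := h4.trans (min_le_right _ _)
        have hLlt : L r < θ := by
          by_contra hcon
          push Not at hcon
          exact absurd h3 (not_lt.mpr (le_min hcon hθ))
        have hL'ge : θ ≤ L' r := h4.trans (min_le_left _ _)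
        obtain ⟨r'', hr'', h5, h6⟩ := hexit θ r hr hLlt hL'ge
        exact ⟨r'', hr'', le_min h5 hθ, lt_of_le_of_lt (min_le_left _ _) h6⟩
      · intro r hr r'' hr'' h3
        apply hdom r hr r'' hr''
        have h4 : min (L r'') v' ≤ L r'' := min_le_left _ _
        have h5 : L r < min (L r'') v' := by
          by_contra hcon
          push Not at hcon
          have h6 : min (L r'') v' ≤ v' := min_le_right _ _
          have : min (L r'') v' ≤ min (L r) v' := le_min hcon h6
          linarith
        linarith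
    · have hemp : A₀ = ∅ := Finset.not_nonempty_iff_eq_empty.mp hA₀
      apply Finset.sum_nonpos
      intro r hr
      have h1 := (hA r hr).1
      have h2 := (hA r hr).2
      rw [hemp] at h1 h2
      simp only [insert_empty_eq, Finset.mem_singleton] at h1 h2
      rw [h1, h2]
      simp

/-- The cut estimate. -/
theorem cut {ι : Type*} [DecidableEq ι] (C : Finset ι) (h L L' : ι → ℝ) (hh : ∀ r ∈ C, 0 ≤ h r)
    (hexit : ∀ θ : ℝ, ∀ r ∈ C, L r < θ → θ ≤ L' r → ∃ r'' ∈ C, θ ≤ L r'' ∧ L' r'' < θ)
    (hdom : ∀ r ∈ C, ∀ r'' ∈ C, L r < L r'' → (C.card : ℝ) * h r ≤ h r'') :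
    ∑ r ∈ C, h r * (L' r - L r) ≤ 0 := by
  classical
  refine cut_aux C h hh (C.image L ∪ C.image L') L L' ?_ hexit hdom
  intro r hr
  exact ⟨Finset.mem_union_left _ (Finset.mem_image_of_mem _ hr),
    Finset.mem_union_right _ (Finset.mem_image_of_mem _ hr)⟩

open Vale.Agent.P072

/-- The cut estimate for a weakly reversible network. -/
theorem cut_net {d : ℕ} {ι : Type} [Fintype ι] {src tgt : ι → Fin d → ℕ}
    (WR : WeaklyRev src tgt) (l q : Fin d → ℝ) (κ : ι → ℝ) (ε m : ℝ) (hε : 0 < ε)
    (hκ : ∀ r, ε ≤ κ r ∧ κ r ≤ 1 / ε)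
    (hm : (Fintype.card ι : ℝ) / ε ^ 2 ≤ Real.exp m)
    (hstar : ∀ r r', ipN q (src r') < ipN q (src r) → ipN l (src r') + m ≤ ipN l (src r)) :
    ∑ r, κ r * Real.exp (ipN l (src r)) * ip q (vec src tgt r) ≤ 0 := by
  classical
  apply sum_nonpos_of_classes WR
  intro r0
  have h := cut (classOf src tgt r0) (fun r => κ r * Real.exp (ipN l (src r)))
    (fun r => ipN q (src r)) (fun r => ipN q (tgt r)) ?_ ?_ ?_
  · simpa only [ipN_vec] using h
  · intro r _
    have h0 : 0 < κ r := lt_of_lt_of_le hε (hκ r).1
    positivity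
  · intro θ r hr h1 h2
    rw [mem_classOf] at hr
    obtain ⟨r'', h3, h4, h5⟩ := exit_of_reach (fun y => ipN q y) θ (WR r) h2 h1
    refine ⟨r'', ?_, h4, h5⟩
    rw [mem_classOf]
    exact (hr.tail ⟨r, rfl, rfl⟩).trans h3
  · intro r _ r'' _ hlt
    have hs := hstar r'' r hlt
    have hcard : ((classOf src tgt r0).card : ℝ) ≤ (Fintype.card ι : ℝ) := by
      exact_mod_cast Finset.card_le_univ _
    have hk1 := (hκ r).2
    have hk2 := (hκ r'').1
    have he : Real.exp (ipN l (src r)) * Real.exp m ≤ Real.exp (ipN l (src r'')) := by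
      rw [← Real.exp_add]
      exact Real.exp_le_exp.mpr hs
    have hpos := Real.exp_pos (ipN l (src r))
    have hc0 : (0 : ℝ) ≤ ((classOf src tgt r0).card : ℝ) := by positivity
    have hk0 : 0 < κ r := lt_of_lt_of_le hε (hκ r).1
    have h5 : (Fintype.card ι : ℝ) ≤ ε ^ 2 * Real.exp m := by
      rw [div_le_iff₀ (by positivity)] at hm
      linarith
    calc ((classOf src tgt r0).card : ℝ) * (κ r * Real.exp (ipN l (src r)))
        ≤ (Fintype.card ι : ℝ) * ((1 / ε) * Real.exp (ipN l (src r))) := by
          apply mul_le_mul hcard _ (by positivity) (by positivity)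
          exact mul_le_mul_of_nonneg_right hk1 hpos.le
      _ ≤ (ε ^ 2 * Real.exp m) * ((1 / ε) * Real.exp (ipN l (src r))) := by
          apply mul_le_mul_of_nonneg_right h5
          positivity
      _ = ε * (Real.exp (ipN l (src r)) * Real.exp m) := by
          field_simp
      _ ≤ κ r'' * Real.exp (ipN l (src r'')) := by
          exact mul_le_mul hk2 he (by positivity) (lt_of_lt_of_le hε hk2).le

end

end Vale.Agent.P072G
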