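import Vale.Agent.P072G.Cut

/-!
The strict form of the level-cut estimate.
-/

namespace Vale.Agent.P072G

open Finset

noncomputable section

/-- One layer of the strict cut estimate. -/
lemma cutS_layer {ι : Type*} [DecidableEq ι] (C : Finset ι) (L L' h : ι → ℝ) (v : ℝ)
    (hh : ∀ r ∈ C, 0 ≤ h r)
    (hLv : ∀ r ∈ C, L r ≤ v) (hLv' : ∀ r ∈ C, L' r ≤ v)
    (hexit : ∀ θ : ℝ, ∀ r ∈ C, L r < θ → θ ≤ L' r → ∃ r'' ∈ C, θ ≤ L r'' ∧ L' r'' < θ)
    (hdom : ∀ r ∈ C, ∀ r'' ∈ C, L r < L r'' → (C.card : ℝ) * h r ≤ h r'') :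
    (C.card : ℝ) * ∑ r ∈ C, h r * ((if L' r = v then 1 else 0) - (if L r = v then 1 else 0))
      + ∑ r ∈ C, h r * ((if L r = v then 1 else 0) * (1 - (if L' r = v then 1 else 0))) ≤ 0 := by
  set χ : ι → ℝ := fun r => if L r = v then 1 else 0 with hχ
  set χ' : ι → ℝ := fun r => if L' r = v then 1 else 0 with hχ'
  set D := ∑ r ∈ C, h r * (χ r * (1 - χ' r)) with hD
  set U := ∑ r ∈ C, h r * (χ' r * (1 - χ r)) with hU
  have hχ01 : ∀ r, χ r = 0 ∨ χ r = 1 := fun r => by
    simp only [hχ]
    split_ifs <;> simp
  have hχ'01 : ∀ r, χ' r = 0 ∨ χ' r = 1 := fun r => by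
    simp only [hχ']
    split_ifs <;> simp
  have hDterm : ∀ r ∈ C, 0 ≤ h r * (χ r * (1 - χ' r)) := by
    intro r hr
    apply mul_nonneg (hh r hr)
    rcases hχ01 r with e | e <;> rcases hχ'01 r with e' | e' <;> rw [e, e'] <;> norm_num
  have hUterm : ∀ r ∈ C, 0 ≤ h r * (χ' r * (1 - χ r)) := by
    intro r hr
    apply mul_nonneg (hh r hr)
    rcases hχ01 r with e | e <;> rcases hχ'01 r with e' | e' <;> rw [e, e'] <;> norm_num
  have hD0 : 0 ≤ D := Finset.sum_nonneg hDterm
  have hU0 : 0 ≤ U := Finset.sum_nonneg hUterm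
  have e1 : ∑ r ∈ C, h r * (χ' r - χ r) = U - D := by
    rw [hU, hD, ← Finset.sum_sub_distrib]
    apply Finset.sum_congr rfl
    intro r _
    ring
  rw [e1]
  by_cases hup : ∃ r₀ ∈ C, L r₀ < v ∧ L' r₀ = v
  · obtain ⟨r₀, hr₀, h1, h2⟩ := hup
    obtain ⟨r'', hr'', h3, h4⟩ := hexit v r₀ hr₀ h1 h2.ge
    have hLr : L r'' = v := le_antisymm (hLv _ hr'') h3
    have hne : L' r'' ≠ v := h4.ne
    have hcard : 1 ≤ C.card := Finset.card_pos.mpr ⟨r₀, hr₀⟩
    have hcR : (1 : ℝ) ≤ (C.card : ℝ) := by exact_mod_cast hcard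
    have hχr'' : χ r'' = 1 := by simp [hχ, hLr]
    have hχ'r'' : χ' r'' = 0 := by simp [hχ', hne]
    have hh'' := hh r'' hr''
    -- the mass of the down crossing
    have hDge : h r'' ≤ D := by
      have := Finset.single_le_sum hDterm hr''
      simp only [hχr'', hχ'r''] at this
      simpa using this
    have hterm : ∀ r ∈ C, (C.card : ℝ) * (h r * (χ' r * (1 - χ r))) ≤ h r'' := by
      intro r hr
      by_cases hrL : L r = v
      · have : χ r = 1 := by simp [hχ, hrL]
        rw [this]
        simpa using hh''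
      · have hχ0 : χ r = 0 := by simp [hχ, hrL]
        rw [hχ0]
        by_cases hrL' : L' r = v
        · have : χ' r = 1 := by simp [hχ', hrL']
          rw [this]
          have hlt : L r < L r'' := by
            rw [hLr]
            exact lt_of_le_of_ne (hLv r hr) hrL
          simpa using hdom r hr r'' hr'' hlt
        · have : χ' r = 0 := by simp [hχ', hrL']
          rw [this]
          simpa using hh''
    have hUle : (C.card : ℝ) * U ≤ ((C.card : ℝ) - 1) * h r'' := by
      rw [hU, Finset.mul_sum, ← Finset.add_sum_erase C _ hr'']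
      have hz : (C.card : ℝ) * (h r'' * (χ' r'' * (1 - χ r''))) = 0 := by
        rw [hχ'r'']
        ring
      rw [hz, zero_add]
      have h5 : ∑ r ∈ C.erase r'', (C.card : ℝ) * (h r * (χ' r * (1 - χ r)))
          ≤ ∑ _r ∈ C.erase r'', h r'' :=
        Finset.sum_le_sum fun r hr => hterm r (Finset.mem_of_mem_erase hr)
      rw [Finset.sum_const, Finset.card_erase_of_mem hr'', nsmul_eq_mul] at h5
      have h6 : ((C.card - 1 : ℕ) : ℝ) = (C.card : ℝ) - 1 := by
        rw [Nat.cast_sub hcard]
        simp
      rwa [h6] at h5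
    have : ((C.card : ℝ) - 1) * h r'' ≤ ((C.card : ℝ) - 1) * D :=
      mul_le_mul_of_nonneg_left hDge (by linarith)
    nlinarith
  · push Not at hup
    have hU00 : U = 0 := by
      apply Finset.sum_eq_zero
      intro r hr
      by_cases hrL : L r = v
      · have : χ r = 1 := by simp [hχ, hrL]
        rw [this]
        ring
      · have hlt : L r < v := lt_of_le_of_ne (hLv r hr) hrL
        have h1 := hup r hr hlt
        have : χ' r = 0 := by simp [hχ', h1]
        rw [this]
        ring
    rw [hU00]
    by_cases hC : C.Nonempty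
    · have hcR : (1 : ℝ) ≤ (C.card : ℝ) := by exact_mod_cast Finset.card_pos.mpr hC
      nlinarith
    · have hCe : C = ∅ := Finset.not_nonempty_iff_eq_empty.mp hC
      simp [hD, hCe]

/-- The strict cut estimate, by induction on the set of values. -/
theorem cutS_aux {ι : Type*} [DecidableEq ι] (C : Finset ι) (h : ι → ℝ) (hh : ∀ r ∈ C, 0 ≤ h r)
    (A : Finset ℝ) :
    ∀ L L' : ι → ℝ, (∀ r ∈ C, L r ∈ A ∧ L' r ∈ A) →
      (∀ θ : ℝ, ∀ r ∈ C, L r < θ → θ ≤ L' r → ∃ r'' ∈ C, θ ≤ L r'' ∧ L' r'' < θ) →
      (∀ r ∈ C, ∀ r'' ∈ C, L r < L r'' → (C.card : ℝ) * h r ≤ h r'') →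
      (C.card : ℝ) * ∑ r ∈ C, h r * (L' r - L r) + ∑ r ∈ C, h r * max (L r - L' r) 0 ≤ 0 := by
  induction A using Finset.induction_on_max with
  | empty =>
    intro L L' hA _ _
    by_cases hC : C.Nonempty
    · obtain ⟨r, hr⟩ := hC
      exact absurd (hA r hr).1 (Finset.notMem_empty _)
    · have hCe : C = ∅ := Finset.not_nonempty_iff_eq_empty.mp hC
      simp [hCe]
  | insert v A₀ hv ih =>
    intro L L' hA hexit hdom
    by_cases hA₀ : A₀.Nonempty
    · set v' := A₀.max' hA₀ with hv'
      have hv'mem : v' ∈ A₀ := Finset.max'_mem _ _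
      have hvv' : v' < v := hv _ hv'mem
      have hle : ∀ t ∈ A₀, t ≤ v' := fun t ht => Finset.le_max' _ _ ht
      have hmem : ∀ t ∈ insert v A₀, min t v' ∈ A₀ := by
        intro t ht
        rcases Finset.mem_insert.mp ht with rfl | ht
        · rw [min_eq_right hvv'.le]
          exact hv'mem
        · rw [min_eq_left (hle t ht)]
          exact ht
      have hdiff : ∀ t ∈ insert v A₀, t - min t v' = (v - v') * (if t = v then 1 else 0) := by
        intro t ht
        rcases Finset.mem_insert.mp ht with rfl | ht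
        · rw [min_eq_right hvv'.le]
          simp
        · have : t ≠ v := (hv t ht).ne
          rw [min_eq_left (hle t ht), if_neg this]
          ring
      have hmaxd : ∀ t ∈ insert v A₀, ∀ t' ∈ insert v A₀,
          max (t - t') 0 = max (min t v' - min t' v') 0 +
            (v - v') * ((if t = v then 1 else 0) * (1 - (if t' = v then 1 else 0))) := by
        intro t ht t' ht'
        rcases Finset.mem_insert.mp ht with rfl | ht1
        · rcases Finset.mem_insert.mp ht' with rfl | ht1'
          · simp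
          · have hne : t' ≠ t := (hv t' ht1').ne
            have h1 := hle t' ht1'
            rw [min_eq_right hvv'.le, min_eq_left h1, if_pos rfl, if_neg hne,
              max_eq_left (by linarith), max_eq_left (by linarith)]
            ring
        · have hne : t ≠ v := (hv t ht1).ne
          have h1 := hle t ht1
          rcases Finset.mem_insert.mp ht' with rfl | ht1'
          · rw [min_eq_left h1, min_eq_right hvv'.le, if_neg hne,
              max_eq_right (by linarith), max_eq_right (by linarith)]
            ring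
          · have hne' : t' ≠ v := (hv t' ht1').ne
            rw [min_eq_left h1, min_eq_left (hle t' ht1'), if_neg hne]
            ring
      have hleV : ∀ t ∈ insert v A₀, t ≤ v := by
        intro t ht
        rcases Finset.mem_insert.mp ht with rfl | ht
        · exact le_rfl
        · exact (hv t ht).le
      have h1 := ih (fun r => min (L r) v') (fun r => min (L' r) v')
        (fun r hr => ⟨hmem _ (hA r hr).1, hmem _ (hA r hr).2⟩) ?_ ?_
      · have h2 := cutS_layer C L L' h v hh (fun r hr => hleV _ (hA r hr).1)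
          (fun r hr => hleV _ (hA r hr).2) hexit hdom
        have e : ∑ r ∈ C, h r * (L' r - L r) =
            ∑ r ∈ C, h r * (min (L' r) v' - min (L r) v') + (v - v') *
              ∑ r ∈ C, h r * ((if L' r = v then 1 else 0) - (if L r = v then 1 else 0)) := by
          rw [Finset.mul_sum, ← Finset.sum_add_distrib]
          apply Finset.sum_congr rfl
          intro r hr
          have e1 := hdiff _ (hA r hr).1
          have e2 := hdiff _ (hA r hr).2
          have e3 : L' r - L r = (min (L' r) v' - min (L r) v')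
              + ((L' r - min (L' r) v') - (L r - min (L r) v')) := by ring
          rw [e3, e1, e2]
          ring
        have e' : ∑ r ∈ C, h r * max (L r - L' r) 0 =
            ∑ r ∈ C, h r * max (min (L r) v' - min (L' r) v') 0 + (v - v') *
              ∑ r ∈ C, h r * ((if L r = v then 1 else 0) * (1 - (if L' r = v then 1 else 0))) := by
          rw [Finset.mul_sum, ← Finset.sum_add_distrib]
          apply Finset.sum_congr rfl
          intro r hr
          rw [hmaxd _ (hA r hr).1 _ (hA r hr).2]
          ring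
        rw [e, e']
        have h3 := mul_nonpos_of_nonneg_of_nonpos (a := v - v') (by linarith) h2
        have e4 : (v - v') * ((C.card : ℝ) *
              ∑ r ∈ C, h r * ((if L' r = v then 1 else 0) - (if L r = v then 1 else 0)) +
            ∑ r ∈ C, h r * ((if L r = v then 1 else 0) * (1 - (if L' r = v then 1 else 0))))
            = (C.card : ℝ) * ((v - v') *
              ∑ r ∈ C, h r * ((if L' r = v then 1 else 0) - (if L r = v then 1 else 0))) +
              (v - v') *
            ∑ r ∈ C, h r * ((if L r = v then 1 else 0) * (1 - (if L' r = v then 1 else 0))) := by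
          ring
        rw [e4] at h3
        have e5 : ∀ a b c d : ℝ, (C.card : ℝ) * (a + b) + (c + d) =
            ((C.card : ℝ) * a + c) + ((C.card : ℝ) * b + d) := by
          intro a b c d
          ring
        rw [e5]
        exact add_nonpos h1 h3
      · intro θ r hr h3 h4
        have hθ : θ ≤ v' := h4.trans (min_le_right _ _)
        have hLlt : L r < θ := by
          by_contra hcon
          push Not at hcon
          exact absurd h3 (not_lt.mpr (le_min hcon hθ))
        have hL'ge : θ ≤ L' r := h4.trans (min_le_left _ _)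
        obtain ⟨r'', hr'', h5, h6⟩ := hexit θ r hr hLlt hL'ge
        exact ⟨r'', hr'', le_min h5 hθ, lt_of_le_of_lt (min_le_left _ _) h6⟩
      · intro r hr r'' hr'' h3
        apply hdom r hr r'' hr''
        have h4 : min (L r'') v' ≤ L r'' := min_le_left _ _
        have h5 : L r < min (L r'') v' := by
          by_contra hcon
          push Not at hcon
          have h6 : min (L r'') v' ≤ v' := min_le_right _ _
          have : min (L r'') v' ≤ min (L r) v' := le_min hcon h6
          linarith
        linarith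
    · have hemp : A₀ = ∅ := Finset.not_nonempty_iff_eq_empty.mp hA₀
      have : ∀ r ∈ C, L' r - L r = 0 := by
        intro r hr
        have h1 := (hA r hr).1
        have h2 := (hA r hr).2
        rw [hemp] at h1 h2
        simp only [insert_empty_eq, Finset.mem_singleton] at h1 h2
        rw [h1, h2]
        simp
      have e1 : ∑ r ∈ C, h r * (L' r - L r) = 0 :=
        Finset.sum_eq_zero fun r hr => by rw [this r hr, mul_zero]
      have e2 : ∑ r ∈ C, h r * max (L r - L' r) 0 = 0 :=
        Finset.sum_eq_zero fun r hr => by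
          have h3 : L r - L' r = 0 := by linarith [this r hr]
          rw [h3]
          simp
      rw [e1, e2]
      simp

/-- The strict cut estimate. -/
theorem cutS {ι : Type*} [DecidableEq ι] (C : Finset ι) (h L L' : ι → ℝ) (hh : ∀ r ∈ C, 0 ≤ h r)
    (hexit : ∀ θ : ℝ, ∀ r ∈ C, L r < θ → θ ≤ L' r → ∃ r'' ∈ C, θ ≤ L r'' ∧ L' r'' < θ)
    (hdom : ∀ r ∈ C, ∀ r'' ∈ C, L r < L r'' → (C.card : ℝ) * h r ≤ h r'') :
    (C.card : ℝ) * ∑ r ∈ C, h r * (L' r - L r) + ∑ r ∈ C, h r * max (L r - L' r) 0 ≤ 0 := by
  classical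
  refine cutS_aux C h hh (C.image L ∪ C.image L') L L' ?_ hexit hdom
  intro r hr
  exact ⟨Finset.mem_union_left _ (Finset.mem_image_of_mem _ hr),
    Finset.mem_union_right _ (Finset.mem_image_of_mem _ hr)⟩

open Vale.Agent.P072

/-- The strict cut estimate for a weakly reversible network. -/
theorem cutS_net {d : ℕ} {ι : Type} [Fintype ι] {src tgt : ι → Fin d → ℕ}
    (WR : WeaklyRev src tgt) (l q : Fin d → ℝ) (κ : ι → ℝ) (ε m : ℝ) (hε : 0 < ε)
    (hκ : ∀ r, ε ≤ κ r ∧ κ r ≤ 1 / ε)
    (hm : (Fintype.card ι : ℝ) / ε ^ 2 ≤ Real.exp m)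
    (hstar : ∀ r r', ipN q (src r') < ipN q (src r) → ipN l (src r') + m ≤ ipN l (src r)) :
    (Fintype.card ι : ℝ) * ∑ r, κ r * Real.exp (ipN l (src r)) * ip q (vec src tgt r)
      + ∑ r, κ r * Real.exp (ipN l (src r)) * max (-ip q (vec src tgt r)) 0 ≤ 0 := by
  classical
  have hsum := sum_nonpos_of_classes WR
    (fun r => (Fintype.card ι : ℝ) * (κ r * Real.exp (ipN l (src r)) * ip q (vec src tgt r))
      + κ r * Real.exp (ipN l (src r)) * max (-ip q (vec src tgt r)) 0) ?_
  · rw [Finset.sum_add_distrib, ← Finset.mul_sum] at hsum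
    exact hsum
  intro r0
  have h := cutS (classOf src tgt r0) (fun r => κ r * Real.exp (ipN l (src r)))
    (fun r => ipN q (src r)) (fun r => ipN q (tgt r)) ?_ ?_ ?_
  · rw [Finset.sum_add_distrib, ← Finset.mul_sum]
    have e1 : ∀ r, ipN q (tgt r) - ipN q (src r) = ip q (vec src tgt r) := ipN_vec src tgt q
    have e2 : ∀ r, ipN q (src r) - ipN q (tgt r) = -ip q (vec src tgt r) := fun r => by
      rw [← e1]
      ring
    simp only [e1, e2] at h
    have hcard : ((classOf src tgt r0).card : ℝ) ≤ (Fintype.card ι : ℝ) := by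
      exact_mod_cast Finset.card_le_univ _
    have hB : 0 ≤ ∑ r ∈ classOf src tgt r0,
        κ r * Real.exp (ipN l (src r)) * max (-ip q (vec src tgt r)) 0 := by
      apply Finset.sum_nonneg
      intro r _
      have h0 : 0 < κ r := lt_of_lt_of_le hε (hκ r).1
      have h1 : 0 ≤ max (-ip q (vec src tgt r)) 0 := le_max_right _ _
      positivity
    have hpos : (0 : ℝ) < ((classOf src tgt r0).card : ℝ) := by
      have : r0 ∈ classOf src tgt r0 := by
        rw [mem_classOf]
      exact_mod_cast Finset.card_pos.mpr ⟨r0, this⟩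
    set A := ∑ r ∈ classOf src tgt r0, κ r * Real.exp (ipN l (src r)) * ip q (vec src tgt r)
    have hA : A ≤ 0 := by
      by_contra hcon
      push Not at hcon
      have := mul_pos hpos hcon
      linarith
    have : (Fintype.card ι : ℝ) * A ≤ ((classOf src tgt r0).card : ℝ) * A :=
      mul_le_mul_of_nonpos_right hcard hA
    linarith
  · intro r _
    have h0 : 0 < κ r := lt_of_lt_of_le hε (hκ r).1
    positivity
  · intro θ r hr h1 h2
    rw [mem_classOf] at hr
    obtain ⟨r'', h3, h4, h5⟩ := exit_of_reach (fun y => ipN q y) θ (WR r) h2 h1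
    refine ⟨r'', ?_, h4, h5⟩
    rw [mem_classOf]
    exact (hr.tail ⟨r, rfl, rfl⟩).trans h3
  · intro r _ r'' _ hlt
    have hs := hstar r'' r hlt
    have hcard : ((classOf src tgt r0).card : ℝ) ≤ (Fintype.card ι : ℝ) := by
      exact_mod_cast Finset.card_le_univ _
    have hk1 := (hκ r).2
    have hk2 := (hκ r'').1
    have he : Real.exp (ipN l (src r)) * Real.exp m ≤ Real.exp (ipN l (src r'')) := by
      rw [← Real.exp_add]
      exact Real.exp_le_exp.mpr hs
    have hpos := Real.exp_pos (ipN l (src r))
    have hc0 : (0 : ℝ) ≤ ((classOf src tgt r0).card : ℝ) := by positivity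
    have hk0 : 0 < κ r := lt_of_lt_of_le hε (hκ r).1
    have h5 : (Fintype.card ι : ℝ) ≤ ε ^ 2 * Real.exp m := by
      rw [div_le_iff₀ (by positivity)] at hm
      linarith
    calc ((classOf src tgt r0).card : ℝ) * (κ r * Real.exp (ipN l (src r)))
        ≤ (Fintype.card ι : ℝ) * ((1 / ε) * Real.exp (ipN l (src r))) := by
          apply mul_le_mul hcard _ (by positivity) (by positivity)
          exact mul_le_mul_of_nonneg_right hk1 hpos.le
      _ ≤ (ε ^ 2 * Real.exp m) * ((1 / ε) * Real.exp (ipN l (src r))) := by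
          apply mul_le_mul_of_nonneg_right h5
          positivity
      _ = ε * (Real.exp (ipN l (src r)) * Real.exp m) := by
          field_simp
      _ ≤ κ r'' * Real.exp (ipN l (src r'')) := by
          exact mul_le_mul hk2 he (by positivity) (lt_of_lt_of_le hε hk2).le

/-- If a reaction moves the pairing, some reaction lowers it. -/
lemma exists_neg_of_ne {d : ℕ} {ι : Type} {src tgt : ι → Fin d → ℕ} (WR : WeaklyRev src tgt)
    (q : Fin d → ℝ) {r : ι} (hr : ip q (vec src tgt r) ≠ 0) :
    ∃ r'', ip q (vec src tgt r'') < 0 := by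
  rcases lt_or_gt_of_ne hr with h | h
  · exact ⟨r, h⟩
  · rw [← ipN_vec] at h
    obtain ⟨r'', _, h4, h5⟩ := exit_of_reach (fun y => ipN q y) (ipN q (tgt r)) (WR r) le_rfl
      (by linarith)
    refine ⟨r'', ?_⟩
    rw [← ipN_vec]
    linarith

end

end Vale.Agent.P072G
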