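import Mathlib

/-!
A function with a subgradient inequality along a curve, whose subgradients are nonpositive in the
direction of the velocity, decreases along the curve.
-/

namespace Vale.Agent.P072G

open Set Filter Topology

noncomputable section

theorem antitone_of_sub {d : ℕ} {T : ℝ} (x : ℝ → Fin d → ℝ) (g : ℝ → ℝ) (q v : ℝ → Fin d → ℝ)
    (w : ℝ → ℝ → Fin d → ℝ)
    (hsub : ∀ s ∈ Ico 0 T, ∀ t ∈ Ico 0 T, g s - g t ≤ ∑ i, q s i * (x s i - x t i))
    (hbdd : ∀ t ∈ Ico 0 T, ∃ C : ℝ, ∀ᶠ z in 𝓝[Ico 0 T] t, ∀ i, |q z i| ≤ C)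
    (hder : ∀ t ∈ Ico 0 T, HasDerivWithinAt x (v t) (Ico 0 T) t)
    (hw : ∀ t ∈ Ico 0 T, ∀ i, Tendsto (fun z => w t z i) (𝓝[Ico 0 T] t) (𝓝 (v t i)))
    (hneg : ∀ t ∈ Ico 0 T, ∀ᶠ z in 𝓝[Ico 0 T] t, ∑ i, q z i * w t z i ≤ 0) :
    ∀ s ∈ Ico 0 T, ∀ t ∈ Ico 0 T, s ≤ t → g t ≤ g s := by
  -- continuity of the components
  have hxc : ∀ t ∈ Ico 0 T, ∀ i, Tendsto (fun z => x z i) (𝓝[Ico 0 T] t) (𝓝 (x t i)) := by
    intro t ht i
    have h1 := (hder t ht).continuousWithinAt
    exact (tendsto_pi_nhds.mp h1) i
  -- continuity of g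
  have hgc : ContinuousOn g (Ico 0 T) := by
    intro t ht
    obtain ⟨C, hC⟩ := hbdd t ht
    set C' := |C| + ∑ i, |q t i| with hC'
    have hC'0 : 0 ≤ C' := by positivity
    have hD : Tendsto (fun z => C' * ∑ i, |x z i - x t i|) (𝓝[Ico 0 T] t) (𝓝 0) := by
      have h1 : Tendsto (fun z => ∑ i, |x z i - x t i|) (𝓝[Ico 0 T] t)
          (𝓝 (∑ i : Fin d, |x t i - x t i|)) := by
        apply tendsto_finset_sum
        intro i _
        exact ((hxc t ht i).sub tendsto_const_nhds).abs
      simp only [sub_self, abs_zero, Finset.sum_const_zero] at h1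
      simpa using h1.const_mul C'
    have hl : Tendsto (fun z => g t - C' * ∑ i, |x z i - x t i|) (𝓝[Ico 0 T] t) (𝓝 (g t)) := by
      simpa using tendsto_const_nhds.sub hD
    have hu : Tendsto (fun z => g t + C' * ∑ i, |x z i - x t i|) (𝓝[Ico 0 T] t) (𝓝 (g t)) := by
      simpa using tendsto_const_nhds.add hD
    have hmem : ∀ᶠ z in 𝓝[Ico 0 T] t, z ∈ Ico (0 : ℝ) T := self_mem_nhdsWithin
    have hbound : ∀ᶠ z in 𝓝[Ico 0 T] t, |g z - g t| ≤ C' * ∑ i, |x z i - x t i| := by
      filter_upwards [hC, hmem] with z hz hzI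
      have hD0 : 0 ≤ ∑ i, |x z i - x t i| := by positivity
      rw [abs_le]
      constructor
      · have h1 := hsub t ht z hzI
        have h2 : ∑ i, q t i * (x t i - x z i) ≤ (∑ i, |q t i|) * ∑ i, |x z i - x t i| := by
          calc ∑ i, q t i * (x t i - x z i) ≤ ∑ i, |q t i| * |x z i - x t i| := by
                apply Finset.sum_le_sum
                intro i _
                have : q t i * (x t i - x z i) ≤ |q t i * (x t i - x z i)| := le_abs_self _
                rw [abs_mul, abs_sub_comm (x t i)] at this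
                exact this
            _ ≤ ∑ i, |q t i| * ∑ j, |x z j - x t j| := by
                apply Finset.sum_le_sum
                intro i _
                apply mul_le_mul_of_nonneg_left _ (abs_nonneg _)
                exact Finset.single_le_sum (f := fun j => |x z j - x t j|)
                  (fun j _ => abs_nonneg _) (Finset.mem_univ i)
            _ = _ := by rw [Finset.sum_mul]
        have h3 : (∑ i, |q t i|) * ∑ i, |x z i - x t i| ≤ C' * ∑ i, |x z i - x t i| := by
          apply mul_le_mul_of_nonneg_right _ hD0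
          rw [hC']
          have := abs_nonneg C
          linarith
        linarith
      · have h1 := hsub z hzI t ht
        have h2 : ∑ i, q z i * (x z i - x t i) ≤ |C| * ∑ i, |x z i - x t i| := by
          calc ∑ i, q z i * (x z i - x t i) ≤ ∑ i, |C| * |x z i - x t i| := by
                apply Finset.sum_le_sum
                intro i _
                have : q z i * (x z i - x t i) ≤ |q z i * (x z i - x t i)| := le_abs_self _
                rw [abs_mul] at this
                refine this.trans ?_
                apply mul_le_mul_of_nonneg_right _ (abs_nonneg _)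
                exact (hz i).trans (le_abs_self C)
            _ = _ := by rw [Finset.mul_sum]
        have h3 : |C| * ∑ i, |x z i - x t i| ≤ C' * ∑ i, |x z i - x t i| := by
          apply mul_le_mul_of_nonneg_right _ hD0
          rw [hC']
          have : 0 ≤ ∑ i, |q t i| := by positivity
          linarith
        linarith
    have hfinal : Tendsto g (𝓝[Ico 0 T] t) (𝓝 (g t)) := by
      refine tendsto_of_tendsto_of_tendsto_of_le_of_le' hl hu ?_ ?_
      · filter_upwards [hbound] with z hz
        have := (abs_le.mp hz).1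
        linarith
      · filter_upwards [hbound] with z hz
        have := (abs_le.mp hz).2
        linarith
    exact hfinal
  -- right slopes
  have hslope : ∀ t ∈ Ico 0 T, ∀ η : ℝ, 0 < η → ∀ᶠ z in 𝓝[>] t, slope g t z < η := by
    intro t ht η hη
    have hle : 𝓝[>] t ≤ 𝓝[Ico 0 T] t := by
      apply nhdsWithin_le_of_mem
      have : Ioo t T ∈ 𝓝[>] t := Ioo_mem_nhdsGT ht.2
      refine Filter.mem_of_superset this ?_
      intro z hz
      exact ⟨ht.1.trans hz.1.le, hz.2⟩
    have hle' : 𝓝[>] t ≤ 𝓝[Ico 0 T \ {t}] t := by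
      apply nhdsWithin_le_of_mem
      have : Ioo t T ∈ 𝓝[>] t := Ioo_mem_nhdsGT ht.2
      refine Filter.mem_of_superset this ?_
      intro z hz
      exact ⟨⟨ht.1.trans hz.1.le, hz.2⟩, fun h => hz.1.ne (by simpa using h.symm)⟩
    obtain ⟨C, hC⟩ := hbdd t ht
    have hsl : ∀ i, Tendsto (fun z => (x z i - x t i) / (z - t)) (𝓝[>] t) (𝓝 (v t i)) := by
      intro i
      have h1 := (hasDerivWithinAt_pi.mp (hder t ht)) i
      have h2 := (hasDerivWithinAt_iff_tendsto_slope.mp h1).mono_left hle'
      refine h2.congr ?_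
      intro z
      rw [slope_def_field]
    have hE : Tendsto (fun z => ∑ i, |(x z i - x t i) / (z - t) - w t z i|) (𝓝[>] t) (𝓝 0) := by
      have h1 : Tendsto (fun z => ∑ i, |(x z i - x t i) / (z - t) - w t z i|) (𝓝[>] t)
          (𝓝 (∑ i : Fin d, |v t i - v t i|)) := by
        apply tendsto_finset_sum
        intro i _
        exact ((hsl i).sub ((hw t ht i).mono_left hle)).abs
      simpa using h1
    have hE2 : ∀ᶠ z in 𝓝[>] t, |C| * ∑ i, |(x z i - x t i) / (z - t) - w t z i| < η := by
      have h1 := hE.const_mul |C|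
      rw [mul_zero] at h1
      exact h1.eventually (gt_mem_nhds hη)
    have hmem : ∀ᶠ z in 𝓝[>] t, z ∈ Ioo t T := Ioo_mem_nhdsGT ht.2
    filter_upwards [hE2, hC.filter_mono hle, (hneg t ht).filter_mono hle, hmem]
      with z hz1 hz2 hz3 hz4
    have hzI : z ∈ Ico (0 : ℝ) T := ⟨ht.1.trans hz4.1.le, hz4.2⟩
    have hpos : 0 < z - t := by linarith [hz4.1]
    rw [slope_def_field, div_lt_iff₀ hpos]
    have h1 := hsub z hzI t ht
    have h2 : ∑ i, q z i * ((x z i - x t i) / (z - t))
        ≤ |C| * ∑ i, |(x z i - x t i) / (z - t) - w t z i| := by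
      have h3 : ∑ i, q z i * ((x z i - x t i) / (z - t))
          = ∑ i, q z i * w t z i + ∑ i, q z i * ((x z i - x t i) / (z - t) - w t z i) := by
        rw [← Finset.sum_add_distrib]
        apply Finset.sum_congr rfl
        intro i _
        ring
      rw [h3]
      have h4 : ∑ i, q z i * ((x z i - x t i) / (z - t) - w t z i)
          ≤ |C| * ∑ i, |(x z i - x t i) / (z - t) - w t z i| := by
        rw [Finset.mul_sum]
        apply Finset.sum_le_sum
        intro i _
        have : q z i * ((x z i - x t i) / (z - t) - w t z i)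
            ≤ |q z i * ((x z i - x t i) / (z - t) - w t z i)| := le_abs_self _
        rw [abs_mul] at this
        refine this.trans ?_
        apply mul_le_mul_of_nonneg_right _ (abs_nonneg _)
        exact (hz2 i).trans (le_abs_self C)
      linarith
    have h5 : ∑ i, q z i * (x z i - x t i)
        = (∑ i, q z i * ((x z i - x t i) / (z - t))) * (z - t) := by
      rw [Finset.sum_mul]
      apply Finset.sum_congr rfl
      intro i _
      field_simp
    rw [h5] at h1
    have h6 : (∑ i, q z i * ((x z i - x t i) / (z - t))) * (z - t) < η * (z - t) :=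
      mul_lt_mul_of_pos_right (lt_of_le_of_lt h2 hz1) hpos
    linarith
  -- conclusion
  intro s hs t ht hst
  have hsub' : Icc s t ⊆ Ico 0 T := by
    intro u hu
    exact ⟨hs.1.trans hu.1, lt_of_le_of_lt hu.2 ht.2⟩
  have hcon : ContinuousOn g (Icc s t) := hgc.mono hsub'
  by_contra hcontra
  push Not at hcontra
  by_cases hst' : s = t
  · subst hst'
    exact lt_irrefl _ hcontra
  have hlt : s < t := lt_of_le_of_ne hst hst'
  set η := (g t - g s) / (2 * (t - s)) with hη
  have hpos : 0 < t - s := by linarith
  have hη0 : 0 < η := by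
    rw [hη]
    apply div_pos <;> linarith
  have hkey := image_le_of_liminf_slope_right_lt_deriv_boundary' (f := g) (f' := fun _ => (0 : ℝ))
    (a := s) (b := t) hcon ?_ (B := fun u => g s + η * (u - s)) (B' := fun _ => η) (by simp) ?_ ?_ ?_
    (right_mem_Icc.mpr hst)
  · have : η * (t - s) = (g t - g s) / 2 := by
      rw [hη]
      field_simp
    rw [this] at hkey
    linarith
  · intro u hu r hr
    have : Ico s t ⊆ Ico 0 T := fun v hv => hsub' ⟨hv.1, hv.2.le⟩
    exact (hslope u (this hu) r hr).frequently
  · apply Continuous.continuousOn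
    fun_prop
  · intro u _
    have h1 : HasDerivAt (fun u => g s + η * (u - s)) (η * (1 - 0)) u :=
      ((hasDerivAt_id u).sub_const s).const_mul η |>.const_add (g s) |>.congr_deriv (by simp)
    simpa using h1.hasDerivWithinAt
  · intro u _ _
    exact hη0

end

end Vale.Agent.P072G
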