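import Mathlib

/-!
The one dimensional design: a monotone function on the integers with prescribed windows
around a finite set of kinks.
-/

namespace Vale.Agent.P072G

open Finset

noncomputable section

variable {ι : Type*}

/-- Upper envelope of the windows. -/
def bF (K : Finset ι) (p : ι → ℤ) (tm : ι → ℝ) (Rg cap : ℝ) (i : ℤ) : ℝ :=
  K.fold min cap (fun a => if i < p a then tm a - Rg else cap)

/-- Lower envelope of the windows. -/
def aF (K : Finset ι) (p : ι → ℤ) (tp : ι → ℝ) (δ Rg cap : ℝ) (i : ℤ) : ℝ :=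
  K.fold max (-cap) (fun a => if p a ≤ i then tp a + δ + Rg else -cap)

open Classical in
/-- The designed function. -/
def dz (K : Finset ι) (p : ι → ℤ) (tm tp : ι → ℝ) (ℓ : ℕ) (δ η Rg cap : ℝ) (i : ℤ) : ℝ :=
  if ∃ a ∈ K, p a = (i / (ℓ : ℤ)) * (ℓ : ℤ) then
    min (bF K p tm Rg cap i) (aF K p tp δ Rg cap i + ((i % (ℓ : ℤ) : ℤ) : ℝ) * η)
  else bF K p tm Rg cap i

section fold

variable {K : Finset ι} {p : ι → ℤ} {tm tp : ι → ℝ} {δ Rg cap : ℝ} {i : ℤ}

lemma bF_le_cap : bF K p tm Rg cap i ≤ cap := by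
  unfold bF
  rw [Finset.fold_min_le]
  exact Or.inl le_rfl

lemma bF_le {a : ι} (ha : a ∈ K) (h : i < p a) : bF K p tm Rg cap i ≤ tm a - Rg := by
  unfold bF
  rw [Finset.fold_min_le]
  exact Or.inr ⟨a, ha, by simp [h]⟩

lemma le_bF {c : ℝ} (h0 : c ≤ cap) (h : ∀ a ∈ K, i < p a → c ≤ tm a - Rg) :
    c ≤ bF K p tm Rg cap i := by
  unfold bF
  rw [Finset.le_fold_min]
  refine ⟨h0, fun a ha => ?_⟩
  by_cases hi : i < p a
  · simpa [hi] using h a ha hi
  · simpa [hi] using h0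

lemma le_aF {a : ι} (ha : a ∈ K) (h : p a ≤ i) : tp a + δ + Rg ≤ aF K p tp δ Rg cap i := by
  unfold aF
  rw [Finset.le_fold_max]
  exact Or.inr ⟨a, ha, by simp [h]⟩

lemma neg_le_aF : -cap ≤ aF K p tp δ Rg cap i := by
  unfold aF
  rw [Finset.le_fold_max]
  exact Or.inl le_rfl

lemma aF_le {c : ℝ} (h0 : -cap ≤ c) (h : ∀ a ∈ K, p a ≤ i → tp a + δ + Rg ≤ c) :
    aF K p tp δ Rg cap i ≤ c := by
  unfold aF
  rw [Finset.fold_max_le]
  refine ⟨h0, fun a ha => ?_⟩
  by_cases hi : p a ≤ i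
  · simpa [hi] using h a ha hi
  · simpa [hi] using h0

lemma bF_stat (h : ∀ a ∈ K, p a ≠ i) :
    bF K p tm Rg cap i = bF K p tm Rg cap (i - 1) := by
  unfold bF
  apply Finset.fold_congr
  intro a ha
  have := h a ha
  by_cases h1 : i < p a
  · have h2 : i - 1 < p a := by omega
    simp [h1, h2]
  · have h2 : ¬ i - 1 < p a := by omega
    simp [h1, h2]

lemma aF_stat (h : ∀ a ∈ K, p a ≠ i) :
    aF K p tp δ Rg cap i = aF K p tp δ Rg cap (i - 1) := by
  unfold aF
  apply Finset.fold_congr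
  intro a ha
  have := h a ha
  by_cases h1 : p a ≤ i
  · have h2 : p a ≤ i - 1 := by omega
    simp [h1, h2]
  · have h2 : ¬ p a ≤ i - 1 := by omega
    simp [h1, h2]

end fold

/-- Data and hypotheses of the design. -/
structure DesignHyp (K : Finset ι) (p : ι → ℤ) (tm tp : ι → ℝ) (ℓ : ℕ)
    (δ η At Bt σ cap : ℝ) : Prop where
  hℓ : 1 ≤ ℓ
  hp : ∀ a ∈ K, (ℓ : ℤ) ∣ p a
  hδ : 0 < δ
  hδη : δ ≤ η
  hAt : 0 ≤ At
  hBt : 0 ≤ Bt
  hσ : 0 ≤ σ
  htm : ∀ a ∈ K, tm a ≤ tp a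
  hgap : ∀ a ∈ K, ∀ c ∈ K, p a < p c →
    tp a + δ + (At + Bt * (2 * η)) + At + Bt * (2 * η + σ + 2 * (At + Bt * (2 * η))) ≤ tm c
  hspread : ∀ a ∈ K, ∀ c ∈ K, p a = p c → tp a - tm c ≤ σ
  hcap0 : 0 ≤ cap
  hcap : ∀ a ∈ K, tp a + δ + (At + Bt * (2 * η)) ≤ cap
  hcap' : ∀ a ∈ K, -cap ≤ tm a - (At + Bt * (2 * η))
  hclimb : 2 * cap ≤ ((ℓ : ℝ) - 1) * η

section main

variable {K : Finset ι} {p : ι → ℤ} {tm tp : ι → ℝ} {ℓ : ℕ} {δ η At Bt σ cap : ℝ}

/-- Shorthand for the designed function with the standard parameters. -/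
def dzz (K : Finset ι) (p : ι → ℤ) (tm tp : ι → ℝ) (ℓ : ℕ) (δ η At Bt cap : ℝ) : ℤ → ℝ :=
  dz K p tm tp ℓ δ η (At + Bt * (2 * η)) cap

variable (H : DesignHyp K p tm tp ℓ δ η At Bt σ cap)

include H

lemma D_Rg0 : 0 ≤ At + Bt * (2 * η) := by
  have hη : 0 < η := lt_of_lt_of_le H.hδ H.hδη
  have := H.hAt
  have := H.hBt
  positivity

lemma D_J_ge : 2 * η ≤ 2 * η + σ + 2 * (At + Bt * (2 * η)) := by
  have := D_Rg0 H
  have := H.hσ
  linarith

lemma D_gapR {a c : ι} (ha : a ∈ K) (hc : c ∈ K) (h : p a < p c) :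
    tp a + δ + 2 * (At + Bt * (2 * η)) ≤ tm c := by
  have h1 := H.hgap a ha c hc h
  have hJ := D_J_ge H
  have hBt := H.hBt
  have : Bt * (2 * η) ≤ Bt * (2 * η + σ + 2 * (At + Bt * (2 * η))) :=
    mul_le_mul_of_nonneg_left hJ hBt
  linarith

lemma D_aF_le_cap (i : ℤ) : aF K p tp δ (At + Bt * (2 * η)) cap i ≤ cap := by
  apply aF_le
  · linarith [H.hcap0]
  · intro a ha _
    exact H.hcap a ha

lemma D_aF_le_bF (i : ℤ) :
    aF K p tp δ (At + Bt * (2 * η)) cap i ≤ bF K p tm (At + Bt * (2 * η)) cap i := by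
  apply le_bF (D_aF_le_cap H i)
  intro c hc hic
  apply aF_le (H.hcap' c hc)
  intro a ha hai
  have := D_gapR H ha hc (by omega : p a < p c)
  linarith

lemma D_neg_le_bF (i : ℤ) : -cap ≤ bF K p tm (At + Bt * (2 * η)) cap i := by
  apply le_bF
  · linarith [H.hcap0]
  · intro a ha _
    exact H.hcap' a ha

lemma D_dz_le_bF (i : ℤ) :
    dzz K p tm tp ℓ δ η At Bt cap i ≤ bF K p tm (At + Bt * (2 * η)) cap i := by
  classical
  unfold dzz dz
  split_ifs
  · exact min_le_left _ _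
  · exact le_rfl

lemma D_emod_nonneg (i : ℤ) : (0 : ℝ) ≤ ((i % (ℓ : ℤ) : ℤ) : ℝ) := by
  have h : (ℓ : ℤ) ≠ 0 := by
    have := H.hℓ
    omega
  exact_mod_cast Int.emod_nonneg i h

lemma D_aF_le_dz (i : ℤ) :
    aF K p tp δ (At + Bt * (2 * η)) cap i ≤ dzz K p tm tp ℓ δ η At Bt cap i := by
  classical
  have hη : 0 < η := lt_of_lt_of_le H.hδ H.hδη
  have h1 := D_aF_le_bF H i
  unfold dzz dz
  split_ifs
  · apply le_min h1
    have := D_emod_nonneg H i
    have : 0 ≤ ((i % (ℓ : ℤ) : ℤ) : ℝ) * η := mul_nonneg this hη.le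
    linarith
  · exact h1

/-- Nonstationary step in the cell. -/
lemma D_step_mod {i : ℤ} (hs : i % (ℓ : ℤ) ≠ 0) :
    0 ≤ dzz K p tm tp ℓ δ η At Bt cap i - dzz K p tm tp ℓ δ η At Bt cap (i - 1) ∧
    dzz K p tm tp ℓ δ η At Bt cap i - dzz K p tm tp ℓ δ η At Bt cap (i - 1) ≤ η := by
  classical
  have hη : 0 < η := lt_of_lt_of_le H.hδ H.hδη
  have hℓ : (0 : ℤ) < (ℓ : ℤ) := by
    have := H.hℓ
    omega
  have hnn := Int.emod_nonneg i hℓ.ne'
  have hlt := Int.emod_lt_of_pos i hℓ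
  have hdiv := Int.emod_add_mul_ediv i (ℓ : ℤ)
  have hpos : 0 < i % (ℓ : ℤ) := by omega
  have e1 : (i - 1) % (ℓ : ℤ) = i % (ℓ : ℤ) - 1 := by
    have : (i - 1) = (i % (ℓ : ℤ) - 1) + (ℓ : ℤ) * (i / (ℓ : ℤ)) := by linarith
    rw [this, Int.add_mul_emod_self_left]
    exact Int.emod_eq_of_lt (by omega) (by omega)
  have e2 : (i - 1) / (ℓ : ℤ) = i / (ℓ : ℤ) := by
    have : (i - 1) = (i % (ℓ : ℤ) - 1) + (ℓ : ℤ) * (i / (ℓ : ℤ)) := by linarith
    rw [this, Int.add_mul_ediv_left _ _ hℓ.ne']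
    rw [Int.ediv_eq_zero_of_lt (by omega) (by omega)]
    simp
  have hnk : ∀ a ∈ K, p a ≠ i := by
    intro a ha h
    apply hs
    rw [← h]
    exact Int.emod_eq_zero_of_dvd (H.hp a ha)
  have hb : bF K p tm (At + Bt * (2 * η)) cap i = bF K p tm (At + Bt * (2 * η)) cap (i - 1) :=
    bF_stat hnk
  have ha : aF K p tp δ (At + Bt * (2 * η)) cap i = aF K p tp δ (At + Bt * (2 * η)) cap (i - 1) :=
    aF_stat hnk
  unfold dzz dz
  rw [e2, e1, ← hb, ← ha]
  split_ifs
  · push_cast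
    set b := bF K p tm (At + Bt * (2 * η)) cap i
    set x := aF K p tp δ (At + Bt * (2 * η)) cap i + ((i % (ℓ : ℤ) : ℤ) : ℝ) * η with hx
    have e3 : aF K p tp δ (At + Bt * (2 * η)) cap i + (((i % (ℓ : ℤ) : ℤ) : ℝ) - 1) * η = x - η := by
      rw [hx]; ring
    rw [e3]
    constructor
    · have : min b (x - η) ≤ min b x := min_le_min le_rfl (by linarith)
      linarith
    · have h2 : min b x ≤ min b (x - η) + η := by
        rcases le_total b (x - η) with h | h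
        · rw [min_eq_left h]
          have := min_le_left b x
          linarith
        · rw [min_eq_right h]
          have := min_le_right b x
          linarith
      linarith
  · constructor
    · simp
    · simp [hη.le]

/-- At the end of a cell the function has reached its upper envelope. -/
lemma D_end_cell {i : ℤ} (hs : i % (ℓ : ℤ) = 0) :
    dzz K p tm tp ℓ δ η At Bt cap (i - 1) = bF K p tm (At + Bt * (2 * η)) cap (i - 1) := by
  classical
  have hη : 0 < η := lt_of_lt_of_le H.hδ H.hδη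
  have hℓ : (0 : ℤ) < (ℓ : ℤ) := by
    have := H.hℓ
    omega
  have hdiv := Int.emod_add_mul_ediv i (ℓ : ℤ)
  have e1 : (i - 1) % (ℓ : ℤ) = (ℓ : ℤ) - 1 := by
    have : (i - 1) = ((ℓ : ℤ) - 1) + (ℓ : ℤ) * (i / (ℓ : ℤ) - 1) := by
      rw [hs] at hdiv
      linarith
    rw [this, Int.add_mul_emod_self_left]
    exact Int.emod_eq_of_lt (by omega) (by omega)
  unfold dzz dz
  split_ifs
  · apply min_eq_left
    rw [e1]
    push_cast
    have h1 : bF K p tm (At + Bt * (2 * η)) cap (i - 1) ≤ cap := bF_le_cap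
    have h2 : -cap ≤ aF K p tp δ (At + Bt * (2 * η)) cap (i - 1) := neg_le_aF
    have h3 := H.hclimb
    linarith
  · rfl

lemma D_no_kink_multiple {i : ℤ} (hs : i % (ℓ : ℤ) = 0) (hk : ∀ a ∈ K, p a ≠ i) :
    dzz K p tm tp ℓ δ η At Bt cap i = dzz K p tm tp ℓ δ η At Bt cap (i - 1) := by
  classical
  rw [D_end_cell H hs]
  have hdiv := Int.emod_add_mul_ediv i (ℓ : ℤ)
  rw [hs] at hdiv
  have hc : ¬ ∃ a ∈ K, p a = (i / (ℓ : ℤ)) * (ℓ : ℤ) := by
    rintro ⟨a, ha, h⟩
    apply hk a ha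
    rw [h]
    linarith
  unfold dzz dz
  rw [if_neg hc]
  exact bF_stat hk

lemma D_at_kink {i : ℤ} {c : ι} (hc : c ∈ K) (hci : p c = i) :
    dzz K p tm tp ℓ δ η At Bt cap i = aF K p tp δ (At + Bt * (2 * η)) cap i := by
  classical
  have hℓ : (0 : ℤ) < (ℓ : ℤ) := by
    have := H.hℓ
    omega
  have hs : i % (ℓ : ℤ) = 0 := by
    rw [← hci]
    exact Int.emod_eq_zero_of_dvd (H.hp c hc)
  have hdiv := Int.emod_add_mul_ediv i (ℓ : ℤ)
  rw [hs] at hdiv
  have hex : ∃ a ∈ K, p a = (i / (ℓ : ℤ)) * (ℓ : ℤ) := ⟨c, hc, by rw [hci]; linarith⟩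
  unfold dzz dz
  rw [if_pos hex, hs]
  simp only [Int.cast_zero, zero_mul, add_zero]
  exact min_eq_right (D_aF_le_bF H i)

/-- Monotonicity of the design. -/
lemma D_mono (i : ℤ) :
    dzz K p tm tp ℓ δ η At Bt cap (i - 1) ≤ dzz K p tm tp ℓ δ η At Bt cap i := by
  by_cases hs : i % (ℓ : ℤ) = 0
  · by_cases hk : ∀ a ∈ K, p a ≠ i
    · exact (D_no_kink_multiple H hs hk).ge
    · push Not at hk
      obtain ⟨c, hc, hci⟩ := hk
      rw [D_at_kink H hc hci, D_end_cell H hs]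
      have h1 : bF K p tm (At + Bt * (2 * η)) cap (i - 1) ≤ tm c - (At + Bt * (2 * η)) :=
        bF_le hc (by omega)
      have h2 : tp c + δ + (At + Bt * (2 * η)) ≤ aF K p tp δ (At + Bt * (2 * η)) cap i :=
        le_aF hc (by omega)
      have h3 := H.htm c hc
      have h4 := D_Rg0 H
      have h5 := H.hδ
      linarith
  · have := (D_step_mod H hs).1
    linarith

/-- Away from a kink the step is bounded by `η`. -/
lemma D_generic_step {i : ℤ} (hk : ∀ a ∈ K, p a ≠ i) :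
    dzz K p tm tp ℓ δ η At Bt cap i - dzz K p tm tp ℓ δ η At Bt cap (i - 1) ≤ η := by
  have hη : 0 < η := lt_of_lt_of_le H.hδ H.hδη
  by_cases hs : i % (ℓ : ℤ) = 0
  · rw [D_no_kink_multiple H hs hk]
    simp [hη.le]
  · exact (D_step_mod H hs).2

/-- The width bound. -/
lemma D_wid (i : ℤ) :
    δ + dzz K p tm tp ℓ δ η At Bt cap i - dzz K p tm tp ℓ δ η At Bt cap (i - 1)
      ≤ 2 * η + σ + 2 * (At + Bt * (2 * η)) := by
  have hJ := D_J_ge H
  have hδη := H.hδη
  by_cases hk : ∀ a ∈ K, p a ≠ i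
  · have := D_generic_step H hk
    linarith
  · push Not at hk
    obtain ⟨c, hc, hci⟩ := hk
    have hs : i % (ℓ : ℤ) = 0 := by
      rw [← hci]
      exact Int.emod_eq_zero_of_dvd (H.hp c hc)
    rw [D_at_kink H hc hci, D_end_cell H hs]
    set Rg := At + Bt * (2 * η) with hRg
    have hRg0 : 0 ≤ Rg := D_Rg0 H
    have hσ := H.hσ
    suffices h : aF K p tp δ Rg cap i + δ - (2 * η + σ + 2 * Rg) ≤ bF K p tm Rg cap (i - 1) by
      linarith
    apply le_bF
    · have := D_aF_le_cap H i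
      linarith [H.hδ]
    · intro c' hc' hic'
      have h1 : aF K p tp δ Rg cap i ≤ tm c' - Rg + (2 * η + σ + 2 * Rg) - δ := by
        apply aF_le
        · have := H.hcap' c' hc'
          rw [← hRg] at this
          linarith [H.hδ]
        · intro a ha hai
          rcases lt_or_eq_of_le (show p a ≤ p c' by omega) with h | h
          · have := D_gapR H ha hc' h
            rw [← hRg] at this
            linarith [H.hδ]
          · have := H.hspread a ha c' hc' h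
            linarith
      linarith

/-- The upper window. -/
lemma D_upper {a : ι} (ha : a ∈ K) {i : ℤ} (hi : i < p a) :
    dzz K p tm tp ℓ δ η At Bt cap i ≤
      tm a - At - Bt * (δ + dzz K p tm tp ℓ δ η At Bt cap i
        - dzz K p tm tp ℓ δ η At Bt cap (i - 1)) := by
  have hBt := H.hBt
  have hδη := H.hδη
  by_cases hk : ∀ b ∈ K, p b ≠ i
  · have h1 := D_generic_step H hk
    have h2 := D_dz_le_bF H i
    have h3 : bF K p tm (At + Bt * (2 * η)) cap i ≤ tm a - (At + Bt * (2 * η)) := bF_le ha hi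
    have h4 : Bt * (δ + dzz K p tm tp ℓ δ η At Bt cap i - dzz K p tm tp ℓ δ η At Bt cap (i - 1))
        ≤ Bt * (2 * η) := mul_le_mul_of_nonneg_left (by linarith) hBt
    linarith
  · push Not at hk
    obtain ⟨c, hc, hci⟩ := hk
    have hw := D_wid H i
    have h4 : Bt * (δ + dzz K p tm tp ℓ δ η At Bt cap i - dzz K p tm tp ℓ δ η At Bt cap (i - 1))
        ≤ Bt * (2 * η + σ + 2 * (At + Bt * (2 * η))) := mul_le_mul_of_nonneg_left hw hBt
    suffices h : dzz K p tm tp ℓ δ η At Bt cap i ≤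
        tm a - At - Bt * (2 * η + σ + 2 * (At + Bt * (2 * η))) by linarith
    rw [D_at_kink H hc hci]
    apply aF_le
    · have h5 := H.hgap c hc a ha (by omega)
      have h6 := H.htm c hc
      have h7 := H.hcap' c hc
      have h8 := D_Rg0 H
      have h9 := H.hδ
      linarith
    · intro b hb hbi
      have h5 := H.hgap b hb a ha (by omega)
      linarith

/-- The lower window. -/
lemma D_lower {a : ι} (ha : a ∈ K) {i : ℤ} (hi : p a < i) :
    tp a + At + Bt * (δ + dzz K p tm tp ℓ δ η At Bt cap i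
        - dzz K p tm tp ℓ δ η At Bt cap (i - 1)) ≤
      dzz K p tm tp ℓ δ η At Bt cap (i - 1) - δ := by
  have hBt := H.hBt
  have hδη := H.hδη
  by_cases hk : ∀ b ∈ K, p b ≠ i
  · have h1 := D_generic_step H hk
    have h2 := D_aF_le_dz H (i - 1)
    have h3 : tp a + δ + (At + Bt * (2 * η)) ≤ aF K p tp δ (At + Bt * (2 * η)) cap (i - 1) :=
      le_aF ha (by omega)
    have h4 : Bt * (δ + dzz K p tm tp ℓ δ η At Bt cap i - dzz K p tm tp ℓ δ η At Bt cap (i - 1))
        ≤ Bt * (2 * η) := mul_le_mul_of_nonneg_left (by linarith) hBt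
    linarith
  · push Not at hk
    obtain ⟨c, hc, hci⟩ := hk
    have hw := D_wid H i
    have h4 : Bt * (δ + dzz K p tm tp ℓ δ η At Bt cap i - dzz K p tm tp ℓ δ η At Bt cap (i - 1))
        ≤ Bt * (2 * η + σ + 2 * (At + Bt * (2 * η))) := mul_le_mul_of_nonneg_left hw hBt
    have hs : i % (ℓ : ℤ) = 0 := by
      rw [← hci]
      exact Int.emod_eq_zero_of_dvd (H.hp c hc)
    suffices h : tp a + At + Bt * (2 * η + σ + 2 * (At + Bt * (2 * η))) + δ ≤
        dzz K p tm tp ℓ δ η At Bt cap (i - 1) by linarith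
    rw [D_end_cell H hs]
    have hRg := D_Rg0 H
    apply le_bF
    · have h5 := H.hgap a ha c hc (by omega)
      have h6 := H.htm c hc
      have h7 := H.hcap c hc
      have h9 := H.hδ
      linarith
    · intro c' hc' hic'
      have h5 := H.hgap a ha c' hc' (by omega)
      linarith

/-- The box contains the upper value at a kink. -/
lemma D_box_up {a : ι} (ha : a ∈ K) : tp a ≤ dzz K p tm tp ℓ δ η At Bt cap (p a) := by
  have h1 := D_aF_le_dz H (p a)
  have h2 : tp a + δ + (At + Bt * (2 * η)) ≤ aF K p tp δ (At + Bt * (2 * η)) cap (p a) :=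
    le_aF ha le_rfl
  have h3 := D_Rg0 H
  have h4 := H.hδ
  linarith

/-- The box contains the lower value at a kink. -/
lemma D_box_down {a : ι} (ha : a ∈ K) : dzz K p tm tp ℓ δ η At Bt cap (p a - 1) - δ ≤ tm a := by
  have h1 := D_dz_le_bF H (p a - 1)
  have h2 : bF K p tm (At + Bt * (2 * η)) cap (p a - 1) ≤ tm a - (At + Bt * (2 * η)) :=
    bF_le ha (by omega)
  have h3 := D_Rg0 H
  have h4 := H.hδ
  linarith

/-- Bounds. -/
lemma D_bound (i : ℤ) :
    -cap ≤ dzz K p tm tp ℓ δ η At Bt cap i ∧ dzz K p tm tp ℓ δ η At Bt cap i ≤ cap := by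
  constructor
  · have h1 := D_aF_le_dz H i
    have h2 : -cap ≤ aF K p tp δ (At + Bt * (2 * η)) cap i := neg_le_aF
    linarith
  · have h1 := D_dz_le_bF H i
    have h2 : bF K p tm (At + Bt * (2 * η)) cap i ≤ cap := bF_le_cap
    linarith

end main

end

end Vale.Agent.P072G
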