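import Vale.Agent.P072G.Build

/-!
Existence of maximizers, and the relation between a maximizer and the logarithm of the point.
-/

namespace Vale.Agent.P072G

open Finset

noncomputable section

namespace Scheme

variable {d : ℕ} {S : Scheme d}

lemma del_zero : S.del 0 = 1 := by
  simp [del]

lemma nn_zero_eq (k : ℕ → ℤ) : S.nn k 0 = (k 0 : ℝ) := by
  simp [nn, del_zero]

lemma fS_nonneg (k : ℕ → ℤ) : 0 ≤ S.fS k := by
  unfold fS
  exact Finset.sum_nonneg fun r _ => S.PsiAt_nonneg k (k r)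

/-- The potential controls the top position. -/
lemma fS_ge (hd : 0 < d) (k : ℕ → ℤ) : Real.exp (S.nn k 0 - 1 - S.Gam 0) ≤ S.fS k := by
  have h1 : S.PsiAt 0 k (k 0) ≤ S.fS k := by
    unfold fS
    exact Finset.single_le_sum (f := fun r => S.PsiAt r k (k r))
      (fun r _ => S.PsiAt_nonneg k (k r)) (Finset.mem_range.mpr hd)
  have h2 := S.le_PsiAt hd k (k 0)
  rw [del_zero, one_mul] at h2
  have hL := S.level_all 1 hd
  have h3 := hL.bd k 0 (by norm_num) (k 0 - 1)
  have h4 : S.nn k 0 - 1 - S.Gam 0 ≤ S.th 0 k (k 0 - 1) := by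
    unfold th
    rw [del_zero, nn_zero_eq]
    push_cast
    have := (abs_le.mp h3).1
    linarith
  exact (Real.exp_le_exp.mpr h4).trans (h2.trans h1)

/-- Coercivity: the sublevel sets contain only finitely many lattice points. -/
lemma coercive (hd : 0 < d) {x : Fin d → ℝ} (hx : ∀ i, 0 < x i) (F₀ : ℝ) :
    ∃ Bd : ℝ, ∀ (σ : Equiv.Perm (Fin d)) (k : ℕ → ℤ), S.Sorted k → F₀ ≤ S.val x σ k →
      ∀ s, s < d → |S.nn k s| ≤ Bd := by
  set X := ∑ i, x i with hX
  have hX0 : 0 ≤ X := Finset.sum_nonneg fun i _ => (hx i).le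
  set Λ := ∑ i, (x i)⁻¹ with hΛ
  have hΛ0 : 0 ≤ Λ := Finset.sum_nonneg fun i _ => (_root_.inv_pos.mpr (hx i)).le
  have hGam := S.Gam_nonneg 0
  set c := 1 + S.Gam 0 with hc
  have hc1 : 1 ≤ c := by linarith
  set y₀ := 2 * X + 2 * (|c * X| + |F₀| + 1) with hy₀
  have hy₀2 : 2 ≤ y₀ := by
    have := abs_nonneg (c * X)
    have := abs_nonneg F₀
    rw [hy₀]
    linarith
  set Z := c + y₀ with hZ
  have hZ0 : 0 ≤ Z := by linarith
  refine ⟨Z + (|F₀| + Z * X) * Λ, ?_⟩
  intro σ k hk hval s hs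
  have hsumx : ∀ g : ℝ, ∑ t : Fin d, g * x (σ t) = g * X := by
    intro g
    rw [← Finset.mul_sum, hX]
    congr 1
    exact Equiv.sum_comp σ x
  have hfs := S.fS_nonneg (k := k)
  have htop : ∀ t : Fin d, S.nn k t ≤ S.nn k 0 := fun t =>
    nn_sorted_le hk (Nat.zero_le _) t.isLt
  have hZtop : S.nn k 0 ≤ Z := by
    by_contra hcon
    push Not at hcon
    have hy : y₀ < S.nn k 0 - c := by rw [hZ] at hcon; linarith
    set y := S.nn k 0 - c with hydef
    have hy0 : 0 ≤ y := by linarith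
    have h1 := Real.quadratic_le_exp_of_nonneg hy0
    have h2 := S.fS_ge hd k
    have h3 : S.nn k 0 - 1 - S.Gam 0 = y := by rw [hydef, hc]; ring
    rw [h3] at h2
    have h4 : ∑ t : Fin d, S.nn k t * x (σ t) ≤ S.nn k 0 * X := by
      rw [← hsumx]
      exact Finset.sum_le_sum fun t _ => mul_le_mul_of_nonneg_right (htop t) (hx _).le
    unfold val at hval
    have h5 : F₀ ≤ S.nn k 0 * X - y ^ 2 / 2 := by nlinarith
    have e : S.nn k 0 = y + c := by rw [hydef]; ring
    rw [e] at h5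
    have hA : 0 ≤ |c * X| + |F₀| + 1 := by positivity
    have h6 : y * y₀ ≤ y * y := mul_le_mul_of_nonneg_left hy.le hy0
    have h7 : y₀ * (|c * X| + |F₀| + 1) ≤ y * (|c * X| + |F₀| + 1) :=
      mul_le_mul_of_nonneg_right hy.le hA
    have h8 : 1 * (|c * X| + |F₀| + 1) ≤ y₀ * (|c * X| + |F₀| + 1) :=
      mul_le_mul_of_nonneg_right (by linarith) hA
    have h9 := le_abs_self (c * X)
    have h10 := neg_abs_le F₀
    rw [hy₀] at h6
    nlinarith
  have hle : S.nn k s ≤ Z := (nn_sorted_le hk (Nat.zero_le s) hs).trans hZtop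
  -- lower bound
  have hlow : F₀ ≤ ∑ t : Fin d, S.nn k t * x (σ t) := by
    unfold val at hval
    linarith
  set s' : Fin d := ⟨s, hs⟩ with hs'
  have h1 : ∑ t : Fin d, S.nn k t * x (σ t) ≤ S.nn k s * x (σ s') + Z * X := by
    have h2 : ∑ t : Fin d, S.nn k t * x (σ t)
        ≤ ∑ t : Fin d, ((if t = s' then S.nn k s * x (σ s') else 0) + Z * x (σ t)) := by
      apply Finset.sum_le_sum
      intro t _
      have hZt : S.nn k t ≤ Z := (htop t).trans hZtop
      have hxt := hx (σ t)
      by_cases ht : t = s'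
      · subst ht
        simp only [if_true]
        have : 0 ≤ Z * x (σ s') := by positivity
        simpa [hs'] using this
      · rw [if_neg ht, zero_add]
        exact mul_le_mul_of_nonneg_right hZt hxt.le
    refine h2.trans (le_of_eq ?_)
    rw [Finset.sum_add_distrib, Finset.sum_ite_eq' Finset.univ s', hsumx]
    simp
  set ξ := x (σ s') with hξ
  have hξ0 : 0 < ξ := hx _
  have h2 : F₀ - Z * X ≤ S.nn k s * ξ := by linarith
  have h3 : ξ⁻¹ ≤ Λ := by
    have := Finset.single_le_sum (f := fun i => (x i)⁻¹)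
      (fun i _ => (_root_.inv_pos.mpr (hx i)).le) (Finset.mem_univ (σ s'))
    simpa [hΛ, hξ] using this
  have hM0 : 0 ≤ |F₀| + Z * X := by positivity
  have h4 : -(|F₀| + Z * X) * ξ⁻¹ ≤ S.nn k s := by
    have h5 : -(|F₀| + Z * X) ≤ S.nn k s * ξ := by
      have := neg_abs_le F₀
      linarith
    have h6 := mul_le_mul_of_nonneg_right h5 (_root_.inv_pos.mpr hξ0).le
    rwa [mul_assoc, mul_inv_cancel₀ hξ0.ne', mul_one] at h6
  have h5 : (|F₀| + Z * X) * ξ⁻¹ ≤ (|F₀| + Z * X) * Λ := mul_le_mul_of_nonneg_left h3 hM0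
  rw [abs_le]
  constructor
  · have : 0 ≤ (|F₀| + Z * X) * Λ := mul_nonneg hM0 hΛ0
    nlinarith
  · have : 0 ≤ (|F₀| + Z * X) * Λ := mul_nonneg hM0 hΛ0
    linarith

/-- Extension of a vector on `Fin d` by zero. -/
def extZ (g : Fin d → ℤ) : ℕ → ℤ := fun s => if h : s < d then g ⟨s, h⟩ else 0

/-- Existence of a maximizer. -/
theorem exists_max (hd : 0 < d) {x : Fin d → ℝ} (hx : ∀ i, 0 < x i) :
    ∃ (σ : Equiv.Perm (Fin d)) (k : ℕ → ℤ), S.IsMax x σ k := by
  classical
  set k0 : ℕ → ℤ := fun _ => 0 with hk0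
  set F₀ := S.val x 1 k0 with hF₀
  obtain ⟨Bd, hBd⟩ := S.coercive (d := d) hd hx F₀
  have hK1 : (1 : ℝ) ≤ (S.KK : ℝ) := by exact_mod_cast S.KK_pos
  set Q : ℤ := (⌈Bd * (S.KK : ℝ) ^ d⌉₊ : ℤ) with hQ
  have hsort0 : S.Sorted k0 := by
    intro s _
    simp [nn, hk0]
  have hbound : ∀ (σ : Equiv.Perm (Fin d)) (k : ℕ → ℤ), S.Sorted k → F₀ ≤ S.val x σ k →
      ∀ s, s < d → |k s| ≤ Q := by
    intro σ k hk hval s hs
    have h1 := hBd σ k hk hval s hs
    have hdel : (k s : ℝ) = S.nn k s * (S.KK : ℝ) ^ s := by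
      unfold nn del
      have : (S.KK : ℝ) ^ s ≠ 0 := by positivity
      field_simp
    have h2 : |(k s : ℝ)| ≤ Bd * (S.KK : ℝ) ^ d := by
      rw [hdel, abs_mul, abs_of_pos (by positivity : (0 : ℝ) < (S.KK : ℝ) ^ s)]
      have h3 : (S.KK : ℝ) ^ s ≤ (S.KK : ℝ) ^ d := pow_le_pow_right₀ hK1 hs.le
      have h4 : 0 ≤ Bd := (abs_nonneg _).trans h1
      exact mul_le_mul h1 h3 (by positivity) h4
    have h3 : Bd * (S.KK : ℝ) ^ d ≤ (Q : ℝ) := by
      rw [hQ]
      push_cast
      exact Nat.le_ceil _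
    have h4 : |(k s : ℝ)| ≤ (Q : ℝ) := h2.trans h3
    have h5 : ((|k s| : ℤ) : ℝ) ≤ (Q : ℝ) := by
      rw [Int.cast_abs]
      exact h4
    exact_mod_cast h5
  set G : Finset (Fin d → ℤ) := Fintype.piFinset (fun _ => Finset.Icc (-Q) Q) with hG
  set C := ((Finset.univ : Finset (Equiv.Perm (Fin d))) ×ˢ G).filter
    (fun p => S.Sorted (extZ p.2)) with hC
  have hQ0 : 0 ≤ Q := by rw [hQ]; positivity
  have hzero : extZ (fun _ : Fin d => (0 : ℤ)) = k0 := by
    funext s
    simp [extZ, hk0]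
  have hne : C.Nonempty := by
    refine ⟨(1, fun _ => 0), ?_⟩
    simp only [hC, Finset.mem_filter, Finset.mem_product, Finset.mem_univ, true_and]
    refine ⟨?_, ?_⟩
    · rw [hG, Fintype.mem_piFinset]
      intro _
      rw [Finset.mem_Icc]
      constructor <;> omega
    · rw [hzero]
      exact hsort0
  obtain ⟨p, hp, hpmax⟩ := Finset.exists_max_image C (fun p => S.val x p.1 (extZ p.2)) hne
  refine ⟨p.1, extZ p.2, (Finset.mem_filter.mp hp).2, ?_, ?_⟩
  · intro s hs
    have : ¬ s < d := by omega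
    simp [extZ, this]
  · intro σ' k' hk' hcanon
    have hbase : F₀ ≤ S.val x p.1 (extZ p.2) := by
      have hmem : ((1 : Equiv.Perm (Fin d)), (fun _ => 0 : Fin d → ℤ)) ∈ C := by
        simp only [hC, Finset.mem_filter, Finset.mem_product, Finset.mem_univ, true_and]
        refine ⟨?_, ?_⟩
        · rw [hG, Fintype.mem_piFinset]
          intro _
          rw [Finset.mem_Icc]
          constructor <;> omega
        · rw [hzero]
          exact hsort0
      have := hpmax _ hmem
      simp only [hzero] at this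
      exact this
    by_cases hlow : F₀ ≤ S.val x σ' k'
    · set g' : Fin d → ℤ := fun s => k' s with hg'
      have hext : extZ g' = k' := by
        funext s
        by_cases hs : s < d
        · simp [extZ, hs, hg']
        · simp only [extZ, hs, dif_neg, not_false_eq_true]
          exact (hcanon s (by omega)).symm
      have hmem : (σ', g') ∈ C := by
        simp only [hC, Finset.mem_filter, Finset.mem_product, Finset.mem_univ, true_and]
        refine ⟨?_, ?_⟩
        · rw [hG, Fintype.mem_piFinset]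
          intro s
          rw [Finset.mem_Icc]
          have := hbound σ' k' hk' hlow s s.isLt
          exact abs_le.mp this
        · rw [hext]
          exact hk'
      have := hpmax _ hmem
      simp only [hext] at this
      exact this
    · push Not at hlow
      linarith

/-- A maximizer is close to the logarithm of the point. -/
theorem max_near_log {mp : ℝ} (hS : S.Sharp mp) {x : Fin d → ℝ} (hx : ∀ i, 0 < x i)
    {σ : Equiv.Perm (Fin d)} {k : ℕ → ℤ} (hM : S.IsMax x σ k) (i : Fin d) :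
    |S.nn k (σ.symm i) - Real.log (x i)| ≤ Real.log 2 + 1 + ∑ r ∈ range d, S.Gam r := by
  have hk := hM.sorted
  set s := σ.symm i with hs
  have hsp : σ s = i := by simp [hs]
  have hxi := hx i
  have hG : ∀ r, r < d → S.Gam r ≤ ∑ r ∈ range d, S.Gam r := by
    intro r hr
    exact Finset.single_le_sum (f := S.Gam) (fun t _ => S.Gam_nonneg t) (Finset.mem_range.mpr hr)
  have hl2 : 0 < Real.log 2 := Real.log_pos (by norm_num)
  obtain ⟨a, ha1, ha2, ha3⟩ := exists_top hk (s : ℕ) s.isLt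
  have had : a < d := by have := s.isLt; omega
  obtain ⟨b, hb1, hb2, hb3, hb4⟩ := exists_bot hk (d - 1 - s) (s : ℕ) (by have := s.isLt; omega)
  have h1 := box_upper hS hM s ⟨a, had⟩ ha2 ha3
  have h2 := box_lower hS hx hM s ⟨b, hb2⟩ hb3 hb4
  rw [hsp] at h1 h2
  simp only at h1 h2
  have h3 : Real.log (x i) ≤ Real.log 2 + S.Up a k := by
    have h4 := Real.log_le_log hxi h1
    rwa [Real.log_mul (by norm_num) (Real.exp_pos _).ne', Real.log_exp] at h4
  have h4 : S.Um b k - Real.log 2 ≤ Real.log (x i) := by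
    have h5 := Real.log_le_log (by positivity) h2
    rwa [Real.log_div (Real.exp_pos _).ne' (by norm_num), Real.log_exp] at h5
  rw [S.Up_eq, ha2] at h3
  rw [S.Um_eq, hb3] at h4
  have hLa := (S.level_all (a + 1) had).bd k a (Nat.lt_succ_self a) (k a)
  have hLb := (S.level_all (b + 1) hb2).bd k b (Nat.lt_succ_self b) (k b - 1)
  have h5 : S.bpf k a ≤ S.Gam a := (le_abs_self _).trans hLa
  have h6 : - S.Gam b - 1 ≤ S.bmf k b := by
    unfold bmf
    have := (abs_le.mp hLb).1
    have := S.del_le_one b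
    linarith
  have h7 := hG a had
  have h8 := hG b hb2
  rw [abs_le]
  constructor <;> linarith

end Scheme

end

end Vale.Agent.P072G
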