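import Vale.Agent.P072G.Stage2

/-!
Permanence of all weakly reversible mass-action systems.
-/

namespace Vale.Agent.P072G

open Finset Vale.Agent.P072 Set

noncomputable section

variable {d : ℕ} {ι : Type}

/-- The descending induction for the eventual lower bounds. -/
lemma eventual_ind [Fintype ι] {src tgt : ι → Fin d → ℕ} (WR : WeaklyRev src tgt) {ε : ℝ}
    (hε : 0 < ε) {c : Fin d → ℝ} (hc : ∀ i, 0 < c i) (M : ℝ)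
    (hM : ∀ (k : ι → ℝ → ℝ) (x : ℝ → Fin d → ℝ),
      (∀ r, ∀ t, 0 ≤ t → ε ≤ k r t ∧ k r t ≤ 1 / ε) →
      x 0 - c ∈ Submodule.span ℝ (Set.range (vec src tgt)) →
      (∀ t, 0 ≤ t → (∀ i, 0 < x t i) ∧
        HasDerivWithinAt x (∑ r, (k r t * ∏ i, x t i ^ src r i) • vec src tgt r) (Set.Ici 0) t) →
      ∃ T₁ : ℝ, 0 ≤ T₁ ∧ ∀ t, T₁ ≤ t → ∀ i, x t i ≤ M) (m : ℕ) :
    ∃ η : ℝ, 0 < η ∧ ∀ Z : Finset (Fin d), Z.Nonempty → Zᶜ.card = m →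
      ∀ (k : ι → ℝ → ℝ) (x : ℝ → Fin d → ℝ),
      (∀ r, ∀ t, 0 ≤ t → ε ≤ k r t ∧ k r t ≤ 1 / ε) →
      x 0 - c ∈ Submodule.span ℝ (Set.range (vec src tgt)) →
      (∀ t, 0 ≤ t → (∀ i, 0 < x t i) ∧
        HasDerivWithinAt x (∑ r, (k r t * ∏ i, x t i ^ src r i) • vec src tgt r) (Set.Ici 0) t) →
      ∃ T₀ : ℝ, 0 ≤ T₀ ∧ ∀ t, T₀ ≤ t → η ≤ ∑ i ∈ Z, x t i := by
  classical
  have hunif : ∀ (η' : ℝ), 0 < η' → ∀ m' : ℕ, (∀ Z : Finset (Fin d), Z.Nonempty → Zᶜ.card = m' →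
      ∀ (k : ι → ℝ → ℝ) (x : ℝ → Fin d → ℝ),
      (∀ r, ∀ t, 0 ≤ t → ε ≤ k r t ∧ k r t ≤ 1 / ε) →
      x 0 - c ∈ Submodule.span ℝ (Set.range (vec src tgt)) →
      (∀ t, 0 ≤ t → (∀ i, 0 < x t i) ∧
        HasDerivWithinAt x (∑ r, (k r t * ∏ i, x t i ^ src r i) • vec src tgt r) (Set.Ici 0) t) →
      ∃ T₁ : ℝ, 0 ≤ T₁ ∧ ∀ t, T₁ ≤ t → (∀ l, x t l ≤ M) ∧
        ∀ l, l ∉ Z → ∑ i ∈ Z, x t i < η' → η' ≤ x t l) →
      ∃ η : ℝ, 0 < η ∧ ∀ Z : Finset (Fin d), Z.Nonempty → Zᶜ.card = m' →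
      ∀ (k : ι → ℝ → ℝ) (x : ℝ → Fin d → ℝ),
      (∀ r, ∀ t, 0 ≤ t → ε ≤ k r t ∧ k r t ≤ 1 / ε) →
      x 0 - c ∈ Submodule.span ℝ (Set.range (vec src tgt)) →
      (∀ t, 0 ≤ t → (∀ i, 0 < x t i) ∧
        HasDerivWithinAt x (∑ r, (k r t * ∏ i, x t i ^ src r i) • vec src tgt r) (Set.Ici 0) t) →
      ∃ T₀ : ℝ, 0 ≤ T₀ ∧ ∀ t, T₀ ≤ t → η ≤ ∑ i ∈ Z, x t i := by
    intro η' hη' m' hcomp
    have hex : ∀ Z : Finset (Fin d), ∃ η : ℝ, 0 < η ∧ (Z.Nonempty → Zᶜ.card = m' →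
      ∀ (k : ι → ℝ → ℝ) (x : ℝ → Fin d → ℝ),
      (∀ r, ∀ t, 0 ≤ t → ε ≤ k r t ∧ k r t ≤ 1 / ε) →
      x 0 - c ∈ Submodule.span ℝ (Set.range (vec src tgt)) →
      (∀ t, 0 ≤ t → (∀ i, 0 < x t i) ∧
        HasDerivWithinAt x (∑ r, (k r t * ∏ i, x t i ^ src r i) • vec src tgt r) (Set.Ici 0) t) →
      ∃ T₀ : ℝ, 0 ≤ T₀ ∧ ∀ t, T₀ ≤ t → η ≤ ∑ i ∈ Z, x t i) := by
      intro Z
      by_cases hZ : Z.Nonempty
      · obtain ⟨η, hη, h⟩ := eventual_step WR hε hc M hZ hη'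
        exact ⟨η, hη, fun _ hc' k x h1 h2 h3 =>
          h k x h1 h2 h3 (hcomp Z hZ hc' k x h1 h2 h3)⟩
      · exact ⟨1, one_pos, fun h => absurd h hZ⟩
    choose ηf hηf0 hηf using hex
    obtain ⟨η, hη, hle⟩ := Vale.Agent.P072.Tilt.exists_pos_le ηf hηf0
    refine ⟨η, hη, fun Z hZ hc' k x h1 h2 h3 => ?_⟩
    obtain ⟨T₀, hT₀, h⟩ := hηf Z hZ hc' k x h1 h2 h3
    exact ⟨T₀, hT₀, fun t ht => (hle Z).trans (h t ht)⟩
  induction m with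
  | zero =>
    apply hunif 1 one_pos
    intro Z _ hc' k x h1 h2 h3
    obtain ⟨T₁, hT₁, h⟩ := hM k x h1 h2 h3
    refine ⟨T₁, hT₁, fun t ht => ⟨h t ht, fun l hl _ => ?_⟩⟩
    have : Zᶜ = ∅ := Finset.card_eq_zero.mp hc'
    exact absurd (Finset.mem_compl.mpr hl) (by simp [this])
  | succ m ih =>
    obtain ⟨η₀, hη₀, h₀⟩ := ih
    apply hunif (η₀ / 2) (by positivity)
    intro Z hZ hc' k x h1 h2 h3
    obtain ⟨T₁, hT₁, h⟩ := hM k x h1 h2 h3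
    have hcard : ∀ l, l ∉ Z → (insert l Z)ᶜ.card = m := by
      intro l hl
      have e : (insert l Z)ᶜ = Zᶜ.erase l := by
        ext j
        simp only [Finset.mem_compl, Finset.mem_insert, Finset.mem_erase, not_or]
      rw [e, Finset.card_erase_of_mem (Finset.mem_compl.mpr hl), hc']
      rfl
    have hTl : ∀ l, ∃ T : ℝ, 0 ≤ T ∧ (l ∉ Z → ∀ t, T ≤ t → η₀ ≤ ∑ i ∈ insert l Z, x t i) := by
      intro l
      by_cases hl : l ∈ Z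
      · exact ⟨0, le_rfl, fun h => absurd hl h⟩
      · obtain ⟨T, hT, h4⟩ := h₀ (insert l Z) (Finset.insert_nonempty l Z) (hcard l hl) k x h1 h2 h3
        exact ⟨T, hT, fun _ => h4⟩
    choose Tl hTl0 hTl' using hTl
    obtain ⟨Tm, hTm0, hTm⟩ := Vale.Agent.P072.Tilt.exists_ge_all Tl
    refine ⟨max T₁ Tm, le_max_of_le_left hT₁, fun t ht => ⟨h t ((le_max_left _ _).trans ht), ?_⟩⟩
    intro l hl hlt
    have h5 := hTl' l hl t ((hTm l).trans ((le_max_right _ _).trans ht))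
    rw [Finset.sum_insert hl] at h5
    linarith

/-- The eventual bounds. -/
theorem eventual_all [Fintype ι] {src tgt : ι → Fin d → ℕ} (WR : WeaklyRev src tgt) {ε : ℝ}
    (hε : 0 < ε) {c : Fin d → ℝ} (hc : ∀ i, 0 < c i) :
    ∃ δ Ms : ℝ, 0 < δ ∧ ∀ (k : ι → ℝ → ℝ) (x : ℝ → Fin d → ℝ),
      (∀ r, ∀ t, 0 ≤ t → ε ≤ k r t ∧ k r t ≤ 1 / ε) →
      x 0 - c ∈ Submodule.span ℝ (Set.range (vec src tgt)) →
      (∀ t, 0 ≤ t → (∀ i, 0 < x t i) ∧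
        HasDerivWithinAt x (∑ r, (k r t * ∏ i, x t i ^ src r i) • vec src tgt r) (Set.Ici 0) t) →
      ∃ T₀ : ℝ, 0 ≤ T₀ ∧ ∀ t, T₀ ≤ t → ∀ i, δ ≤ x t i ∧ x t i ≤ Ms := by
  classical
  obtain ⟨Ms, hMs⟩ := eventual_upper WR hε hc
  obtain ⟨η, hη, h⟩ := eventual_ind WR hε hc Ms hMs (d - 1)
  refine ⟨η, Ms, hη, ?_⟩
  intro k x hk hcl hsol
  obtain ⟨T₁, hT₁, hup⟩ := hMs k x hk hcl hsol
  have hc1 : ∀ i : Fin d, ({i} : Finset (Fin d))ᶜ.card = d - 1 := by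
    intro i
    rw [Finset.card_compl, Finset.card_singleton, Fintype.card_fin]
  have hTi : ∀ i : Fin d, ∃ T : ℝ, 0 ≤ T ∧ ∀ t, T ≤ t → η ≤ x t i := by
    intro i
    obtain ⟨T, hT, h2⟩ := h {i} (Finset.singleton_nonempty i) (hc1 i) k x hk hcl hsol
    exact ⟨T, hT, fun t ht => by simpa using h2 t ht⟩
  choose Ti hTi0 hTi' using hTi
  obtain ⟨Tm, hTm0, hTm⟩ := Vale.Agent.P072.Tilt.exists_ge_all Ti
  refine ⟨max T₁ Tm, le_max_of_le_left hT₁, fun t ht i => ⟨?_, hup t ((le_max_left _ _).trans ht) i⟩⟩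
  exact hTi' i t ((hTm i).trans ((le_max_right _ _).trans ht))

/-- **Permanence** for weakly reversible mass-action systems. -/
theorem permanence_all [Fintype ι] (src tgt : ι → Fin d → ℕ) (WR : WeaklyRev src tgt)
    (ε : ℝ) (hε : 0 < ε) (c : Fin d → ℝ) (hc : ∀ i, 0 < c i) :
    ∃ K : Set (Fin d → ℝ), IsCompact K ∧
      (∀ y ∈ K, (∀ i, 0 < y i) ∧ y - c ∈ Submodule.span ℝ (Set.range (vec src tgt))) ∧
      (∀ k : ι → ℝ, (∀ r, ε ≤ k r ∧ k r ≤ 1 / ε) →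
        ∀ x₀ : Fin d → ℝ, (∀ i, 0 < x₀ i) → x₀ - c ∈ Submodule.span ℝ (Set.range (vec src tgt)) →
        ∃ x : ℝ → Fin d → ℝ, x 0 = x₀ ∧
          (∀ t, 0 ≤ t → (∀ i, 0 < x t i) ∧
            HasDerivWithinAt x (∑ r, (k r * ∏ i, x t i ^ src r i) • vec src tgt r)
              (Set.Ici 0) t) ∧
          (∃ T₀ : ℝ, 0 ≤ T₀ ∧ ∀ t, T₀ ≤ t → x t ∈ K) ∧
          (∀ y : ℝ → Fin d → ℝ, y 0 = x₀ →
            (∀ t, 0 ≤ t → (∀ i, 0 < y t i) ∧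
              HasDerivWithinAt y (∑ r, (k r * ∏ i, y t i ^ src r i) • vec src tgt r)
                (Set.Ici 0) t) →
            ∀ t, 0 ≤ t → y t = x t)) ∧
      (∀ (k : ι → ℝ → ℝ) (x : ℝ → Fin d → ℝ),
        (∀ r, ∀ t, 0 ≤ t → ε ≤ k r t ∧ k r t ≤ 1 / ε) →
        x 0 - c ∈ Submodule.span ℝ (Set.range (vec src tgt)) →
        (∀ t, 0 ≤ t → (∀ i, 0 < x t i) ∧
          HasDerivWithinAt x (∑ r, (k r t * ∏ i, x t i ^ src r i) • vec src tgt r) (Set.Ici 0) t) →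
        ∃ T₀ : ℝ, 0 ≤ T₀ ∧ ∀ t, T₀ ≤ t → x t ∈ K) := by
  classical
  obtain ⟨δ, Ms, hδ, h⟩ := eventual_all WR hε hc
  set S := Submodule.span ℝ (Set.range (vec src tgt)) with hS
  set K : Set (Fin d → ℝ) := {y | y - c ∈ S} ∩ Set.pi Set.univ (fun _ => Set.Icc δ Ms) with hK
  have hKc : IsCompact K := by
    apply IsCompact.inter_left (isCompact_univ_pi fun _ => isCompact_Icc)
    have hcl : IsClosed (S : Set (Fin d → ℝ)) := Submodule.closed_of_finiteDimensional S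
    exact hcl.preimage (continuous_id.sub continuous_const)
  have hev : ∀ (k : ι → ℝ → ℝ) (x : ℝ → Fin d → ℝ),
      (∀ r, ∀ t, 0 ≤ t → ε ≤ k r t ∧ k r t ≤ 1 / ε) →
      x 0 - c ∈ S →
      (∀ t, 0 ≤ t → (∀ i, 0 < x t i) ∧
        HasDerivWithinAt x (∑ r, (k r t * ∏ i, x t i ^ src r i) • vec src tgt r) (Set.Ici 0) t) →
      ∃ T₀ : ℝ, 0 ≤ T₀ ∧ ∀ t, T₀ ≤ t → x t ∈ K := by
    intro k x hk hS0 hsol
    obtain ⟨T₀, hT₀, hb⟩ := h k x hk hS0 hsol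
    refine ⟨T₀, hT₀, fun t ht => ⟨?_, fun i _ => hb t ht i⟩⟩
    have hs : Vale.Agent.P072.Tilt.Sol src tgt k x (Set.Ico 0 (t + 1)) := by
      intro τ hτ
      exact ⟨(hsol τ hτ.1).1, (hsol τ hτ.1).2.mono (fun u hu => hu.1)⟩
    exact Vale.Agent.P072.Tilt.Sol.mem_class hs hS0 ⟨hT₀.trans ht, by linarith⟩
  refine ⟨K, hKc, ?_, ?_, hev⟩
  · rintro y ⟨h1, h2⟩
    exact ⟨fun i => lt_of_lt_of_le hδ (h2 i (Set.mem_univ i)).1, h1⟩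
  · intro k hk x₀ hx₀ hx₀c
    -- the a priori bounds
    obtain ⟨δ₀, hδ₀, hδ₀le⟩ := Vale.Agent.P072.Tilt.exists_pos_le x₀ hx₀
    obtain ⟨Λ₀, _, hΛ₀⟩ := Vale.Agent.P072.Tilt.exists_ge_all x₀
    obtain ⟨δ₁, M₁, hδ₁, hb⟩ := stage1 (src := src) (tgt := tgt) WR hε hδ₀ Λ₀
    have hap : ∀ (T' : ℝ) (x : ℝ → Fin d → ℝ), x 0 = x₀ →
        Vale.Agent.P072.Tilt.Sol src tgt (fun r _ => k r) x (Ico 0 T') →
        ∀ t ∈ Ico (0 : ℝ) T', x t ∈ Vale.Agent.P072.Tilt.boxB (min δ₁ δ₀) (max M₁ Λ₀) := by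
      intro T' x h0 hs t ht i
      have := hb (fun r _ => k r) T' x (fun r _ _ => hk r) (fun i => by
        rw [h0]
        exact ⟨hδ₀le i, hΛ₀ i⟩) hs t ht i
      exact ⟨le_trans (min_le_left _ _) this.1, le_trans this.2 (le_max_left _ _)⟩
    have hx₀box : x₀ ∈ Vale.Agent.P072.Tilt.boxB (min δ₁ δ₀) (max M₁ Λ₀) := fun i =>
      ⟨le_trans (min_le_right _ _) (hδ₀le i), le_trans (hΛ₀ i) (le_max_right _ _)⟩
    obtain ⟨x, hx0, hsol, huniq⟩ :=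
      Vale.Agent.P072.Tilt.global_of_apriori (lt_min hδ₁ hδ₀) hap hx₀box
    refine ⟨x, hx0, hsol, ?_, huniq⟩
    exact hev (fun r _ => k r) x (fun r _ _ => hk r) (by rw [hx0]; exact hx₀c) hsol

end

end Vale.Agent.P072G
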