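import Vale.Agent.P072G.Near
import Vale.Agent.P072G.CutS
import Vale.Agent.P072G.DescentG

/-!
The Lyapunov function along trajectories: monotonicity and strict decrease.
-/

namespace Vale.Agent.P072G

open Finset Vale.Agent.P072 Filter Topology

noncomputable section

variable {d : ℕ} {ι : Type} [Fintype ι]

/-- A scheme adapted to a network and a rate bound. -/
def Good (src : ι → Fin d → ℕ) (S : Scheme d) (ε : ℝ) : Prop :=
  ∃ mp m : ℝ, S.Sharp mp ∧ (∀ f : Fin d → Fin d, ∀ w ∈ ws src, Scheme.Tf f w ∈ S.F (d - 1)) ∧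
    m + Real.log 2 * wsum src ≤ mp ∧ (Fintype.card ι : ℝ) / ε ^ 2 ≤ Real.exp m

lemma exists_good (hd : 0 < d) (src : ι → Fin d → ℕ) {ε : ℝ} (hε : 0 < ε) :
    ∃ S : Scheme d, Good src S ε := by
  set m := Real.log ((Fintype.card ι : ℝ) / ε ^ 2 + 1) with hmdef
  have hm : (Fintype.card ι : ℝ) / ε ^ 2 ≤ Real.exp m := by
    rw [hmdef, Real.exp_log (by positivity)]
    linarith
  obtain ⟨S, mp, hS, hmp, hT⟩ := exists_scheme hd (ws src) (ws_neg src)
    (fun i j _ => ws_unit src i j) (m + Real.log 2 * wsum src)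
  exact ⟨S, mp, m, hS, hT, hmp, hm⟩

lemma Good.sharp {src : ι → Fin d → ℕ} {S : Scheme d} {ε : ℝ} (h : Good src S ε) :
    ∃ mp : ℝ, S.Sharp mp := by
  obtain ⟨mp, _, hS, _⟩ := h
  exact ⟨mp, hS⟩

/-- The flow is nonpositive against the subgradient. -/
lemma Good.flow {src tgt : ι → Fin d → ℕ} (WR : WeaklyRev src tgt) {S : Scheme d} {ε : ℝ}
    (h : Good src S ε) (hε : 0 < ε) {y : Fin d → ℝ} (hy : ∀ i, 0 < y i)
    {σ : Equiv.Perm (Fin d)} {K : ℕ → ℤ} (hM : S.IsMax y σ K) {κ : ι → ℝ}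
    (hκ : ∀ r, ε ≤ κ r ∧ κ r ≤ 1 / ε) :
    ∑ i, S.nn K (σ.symm i) * Fv src tgt κ y i ≤ 0 := by
  obtain ⟨mp, m, hS, hT, hmp, hm⟩ := h
  exact flow_nonpos WR hε hS hT hmp hm hy hM hκ

/-- The strict form: if some reaction moves the pairing, the flow is negative. -/
theorem Good.flow_strict {src tgt : ι → Fin d → ℕ} (WR : WeaklyRev src tgt) {S : Scheme d} {ε : ℝ}
    (h : Good src S ε) (hε : 0 < ε) {y : Fin d → ℝ} (hy : ∀ i, 0 < y i)
    {σ : Equiv.Perm (Fin d)} {K : ℕ → ℤ} (hM : S.IsMax y σ K) {κ : ι → ℝ}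
    (hκ : ∀ r, ε ≤ κ r ∧ κ r ≤ 1 / ε) {ρ₀ : ℝ} (hρ₀ : 0 ≤ ρ₀)
    (hmon : ∀ r, ρ₀ ≤ κ r * ∏ i, y i ^ src r i)
    (hmove : ∃ r, ∑ i, S.nn K (σ.symm i) * vec src tgt r i ≠ 0) :
    ∑ i, S.nn K (σ.symm i) * Fv src tgt κ y i ≤ -(ρ₀ * S.del (d - 1) / (Fintype.card ι : ℝ)) := by
  obtain ⟨mp, m, hS, hT, hmp, hm⟩ := h
  set q : Fin d → ℝ := fun i => S.nn K (σ.symm i) with hq
  set l : Fin d → ℝ := fun i => Real.log (y i) with hl
  have hstar : ∀ r r', ipN q (src r') < ipN q (src r) → ipN l (src r') + m ≤ ipN l (src r) := by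
    intro r r' hlt
    set w : Fin d → ℤ := fun i => (src r i : ℤ) - (src r' i : ℤ) with hw
    have hwm : w ∈ ws src := ws_src src r r'
    have hcast : ∀ i, (w i : ℝ) = (src r i : ℝ) - (src r' i : ℝ) := by
      intro i
      simp [hw]
    have hq' : 0 < ∑ i, (w i : ℝ) * S.nn K (σ.symm i) := by
      have : ∑ i, (w i : ℝ) * S.nn K (σ.symm i) = ipN q (src r) - ipN q (src r') := by
        unfold ipN
        rw [← Finset.sum_sub_distrib]
        apply Finset.sum_congr rfl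
        intro i _
        rw [hcast]
        simp only [hq]
        ring
      rw [this]
      linarith
    have h1 := Scheme.star hS hT hy hM hwm hq'
    have h2 : ∑ i, (w i : ℝ) * Real.log (y i) = ipN l (src r) - ipN l (src r') := by
      unfold ipN
      rw [← Finset.sum_sub_distrib]
      apply Finset.sum_congr rfl
      intro i _
      rw [hcast]
      simp only [hl]
      ring
    rw [h2] at h1
    have h3 := ws_le src hwm
    have hl2 : 0 < Real.log 2 := Real.log_pos (by norm_num)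
    have h4 : Real.log 2 * ∑ i, |(w i : ℝ)| ≤ Real.log 2 * wsum src :=
      mul_le_mul_of_nonneg_left h3 hl2.le
    linarith
  have hcut := cutS_net WR l q κ ε m hε hκ hm hstar
  have e : ∑ i, S.nn K (σ.symm i) * Fv src tgt κ y i
      = ∑ r, κ r * Real.exp (ipN l (src r)) * ip q (vec src tgt r) := by
    simp only [Fv_apply, Finset.mul_sum]
    rw [Finset.sum_comm]
    apply Finset.sum_congr rfl
    intro r _
    unfold ip
    rw [Finset.mul_sum]
    apply Finset.sum_congr rfl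
    intro i _
    rw [monomial_eq hy]
    ring
  rw [e]
  obtain ⟨r₀, hr₀⟩ := hmove
  obtain ⟨r'', hr''⟩ := exists_neg_of_ne WR q (r := r₀) hr₀
  -- the gap
  set w : Fin d → ℤ := fun i => (tgt r'' i : ℤ) - (src r'' i : ℤ) with hw
  have hcast : ∀ i, (w i : ℝ) = vec src tgt r'' i := by
    intro i
    simp [hw, vec]
  have hgap : S.del (d - 1) ≤ -ip q (vec src tgt r'') := by
    have e1 : ip q (vec src tgt r'') = ∑ i, (w i : ℝ) * S.nn K (σ.symm i) := by
      unfold ip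
      apply Finset.sum_congr rfl
      intro i _
      rw [hcast]
      simp only [hq]
      ring
    have h1 := Scheme.ip_gap (S := S) σ K w (by rw [← e1]; exact hr''.ne)
    rw [← e1, abs_of_neg hr''] at h1
    exact h1
  -- lower bound of the nonnegative sum
  set h : ι → ℝ := fun r => κ r * Real.exp (ipN l (src r)) with hh
  have hh0 : ∀ r, 0 ≤ h r := fun r => by
    have h0 : 0 < κ r := lt_of_lt_of_le hε (hκ r).1
    simp only [hh]
    positivity
  have hhr : ρ₀ ≤ h r'' := by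
    have := hmon r''
    rw [monomial_eq hy] at this
    exact this
  have hB : ρ₀ * S.del (d - 1) ≤ ∑ r, h r * max (-ip q (vec src tgt r)) 0 := by
    have h1 : h r'' * max (-ip q (vec src tgt r'')) 0 ≤ ∑ r, h r * max (-ip q (vec src tgt r)) 0 :=
      Finset.single_le_sum (f := fun r => h r * max (-ip q (vec src tgt r)) 0)
        (fun r _ => mul_nonneg (hh0 r) (le_max_right _ _)) (Finset.mem_univ r'')
    refine le_trans ?_ h1
    exact mul_le_mul hhr (hgap.trans (le_max_left _ _)) (S.del_pos _).le (hh0 _)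
  have hN : (0 : ℝ) < (Fintype.card ι : ℝ) := by
    have : Nonempty ι := ⟨r''⟩
    exact_mod_cast Fintype.card_pos
  rw [le_neg, div_le_iff₀ hN] 
  have e2 : ∑ r, κ r * Real.exp (ipN l (src r)) * ip q (vec src tgt r)
      = ∑ r, h r * ip q (vec src tgt r) := rfl
  rw [e2] at hcut ⊢
  have hcut' : (Fintype.card ι : ℝ) * ∑ r, h r * ip q (vec src tgt r)
      + ∑ r, h r * max (-ip q (vec src tgt r)) 0 ≤ 0 := hcut
  nlinarith

/-- The Lyapunov function decreases along a trajectory at a rate `γ`. -/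
theorem traj_descent {src tgt : ι → Fin d → ℕ} {S : Scheme d} {ε : ℝ} (hd : 0 < d)
    (hG : Good src S ε) {a T γ : ℝ} (y : ℝ → Fin d → ℝ) (κ : ι → ℝ → ℝ)
    (hy : ∀ t ∈ Set.Ico a T, (∀ i, 0 < y t i) ∧
      HasDerivWithinAt y (Fv src tgt (fun r => κ r t) (y t)) (Set.Ico a T) t)
    (hκ : ∀ t ∈ Set.Ico a T, ∀ r, ε ≤ κ r t ∧ κ r t ≤ 1 / ε)
    (hγ : ∀ z ∈ Set.Ico a T, ∀ κ' : ι → ℝ, (∀ r, ε ≤ κ' r ∧ κ' r ≤ 1 / ε) →
      ∀ σ K, S.IsMax (y z) σ K → ∑ i, S.nn K (σ.symm i) * Fv src tgt κ' (y z) i ≤ -γ) :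
    ∀ s ∈ Set.Ico a T, ∀ t ∈ Set.Ico a T, s ≤ t → S.WW (y t) + γ * t ≤ S.WW (y s) + γ * s := by
  classical
  obtain ⟨mp, hS⟩ := hG.sharp
  have hpos : ∀ t ∈ Set.Ico a T, ∀ i, 0 < y t i := fun t ht => (hy t ht).1
  have hex : ∀ t, ∃ (σ : Equiv.Perm (Fin d)) (K : ℕ → ℤ),
      t ∈ Set.Ico a T → S.IsMax (y t) σ K := by
    intro t
    by_cases ht : t ∈ Set.Ico a T
    · obtain ⟨σ, K, h⟩ := Scheme.exists_max (S := S) hd (hpos t ht)
      exact ⟨σ, K, fun _ => h⟩
    · exact ⟨1, fun _ => 0, fun h => absurd h ht⟩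
  choose σ K hM using hex
  set g : ℝ → ℝ := fun t => S.val (y t) (σ t) (K t) with hg
  set q : ℝ → Fin d → ℝ := fun t i => S.nn (K t) ((σ t).symm i) with hq
  have hgW : ∀ t ∈ Set.Ico a T, g t = S.WW (y t) := fun t ht => (Scheme.WW_of_max (hM t ht)).symm
  have hsub : ∀ s ∈ Set.Ico a T, ∀ t ∈ Set.Ico a T,
      g s - g t ≤ ∑ i, q s i * (y s i - y t i) := by
    intro s hs t ht
    have h1 := (hM t ht).max (σ s) (K s) (hM s hs).sorted (hM s hs).canon
    have h2 : ∑ i, q s i * (y s i - y t i)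
        = S.val (y s) (σ s) (K s) - S.val (y t) (σ s) (K s) := by
      unfold Scheme.val
      have e : ∑ i, q s i * (y s i - y t i)
          = ∑ a, q s (σ s a) * (y s (σ s a) - y t (σ s a)) :=
        (Equiv.sum_comp (σ s) (fun i => q s i * (y s i - y t i))).symm
      rw [e, sub_sub_sub_cancel_right, ← Finset.sum_sub_distrib]
      apply Finset.sum_congr rfl
      intro a _
      simp only [hq, Equiv.symm_apply_apply]
      ring
    rw [h2]
    simp only [hg]
    linarith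
  have hbdd : ∀ t ∈ Set.Ico a T, ∃ C : ℝ,
      ∀ᶠ z in 𝓝[Set.Ico a T] t, ∀ i, |q z i| ≤ C := by
    intro t ht
    set C₀ := Real.log 2 + 1 + ∑ r ∈ range d, S.Gam r with hC₀
    refine ⟨C₀ + ∑ i, (|Real.log (y t i)| + 1), ?_⟩
    have hlog : ∀ i, ∀ᶠ z in 𝓝[Set.Ico a T] t, |Real.log (y z i)| < |Real.log (y t i)| + 1 := by
      intro i
      have h1 : Filter.Tendsto (fun z => y z i) (𝓝[Set.Ico a T] t) (𝓝 (y t i)) :=
        (tendsto_pi_nhds.mp (hy t ht).2.continuousWithinAt) i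
      have h2 := (Real.continuousAt_log (hpos t ht i).ne').tendsto.comp h1
      have h3 := h2.abs
      exact h3.eventually (gt_mem_nhds (by linarith))
    have hmem : ∀ᶠ z in 𝓝[Set.Ico a T] t, z ∈ Set.Ico a T := self_mem_nhdsWithin
    filter_upwards [Filter.eventually_all.mpr hlog, hmem] with z hz hzI i
    have h1 := Scheme.max_near_log hS (hpos z hzI) (hM z hzI) i
    have h2 := hz i
    have h3 : |q z i| ≤ |S.nn (K z) ((σ z).symm i) - Real.log (y z i)| + |Real.log (y z i)| := by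
      have := abs_sub_abs_le_abs_sub (S.nn (K z) ((σ z).symm i)) (Real.log (y z i))
      simp only [hq]
      linarith
    have h4 : |Real.log (y t i)| + 1 ≤ ∑ i, (|Real.log (y t i)| + 1) :=
      Finset.single_le_sum (f := fun i => |Real.log (y t i)| + 1)
        (fun _ _ => by positivity) (Finset.mem_univ i)
    linarith
  have hanti := descent (a := a) (T := T) (γ := γ) y g q
    (fun t => Fv src tgt (fun r => κ r t) (y t))
    (fun t z => Fv src tgt (fun r => κ r t) (y z)) hsub hbdd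
    (fun t ht => (hy t ht).2) ?_ ?_
  · intro s hs t ht hst
    have := hanti s hs t ht hst
    rwa [hgW s hs, hgW t ht] at this
  · intro t ht i
    have h1 : Filter.Tendsto y (𝓝[Set.Ico a T] t) (𝓝 (y t)) := (hy t ht).2.continuousWithinAt
    exact ((Fv_cont src tgt (fun r => κ r t) i).tendsto (y t)).comp h1
  · intro t ht
    have hmem : ∀ᶠ z in 𝓝[Set.Ico a T] t, z ∈ Set.Ico a T := self_mem_nhdsWithin
    filter_upwards [hmem] with z hz
    exact hγ z hz _ (hκ t ht) _ _ (hM z hz)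

/-- The Lyapunov function does not increase along a trajectory. -/
theorem traj_mono {src tgt : ι → Fin d → ℕ} (WR : WeaklyRev src tgt) {S : Scheme d} {ε : ℝ}
    (hd : 0 < d) (hε : 0 < ε)
    (hG : Good src S ε) {a T : ℝ} (y : ℝ → Fin d → ℝ) (κ : ι → ℝ → ℝ)
    (hy : ∀ t ∈ Set.Ico a T, (∀ i, 0 < y t i) ∧
      HasDerivWithinAt y (Fv src tgt (fun r => κ r t) (y t)) (Set.Ico a T) t)
    (hκ : ∀ t ∈ Set.Ico a T, ∀ r, ε ≤ κ r t ∧ κ r t ≤ 1 / ε) :
    ∀ s ∈ Set.Ico a T, ∀ t ∈ Set.Ico a T, s ≤ t → S.WW (y t) ≤ S.WW (y s) := by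
  intro s hs t ht hst
  have := traj_descent (γ := 0) hd hG y κ hy hκ (fun z hz κ' hκ' σ K hM => by
    simpa using hG.flow WR hε (hy z hz).1 hM hκ') s hs t ht hst
  simpa using this

end

end Vale.Agent.P072G
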