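import Vale.Agent.P072G.Phi

/-!
The lower half of the box lemma, and the sign condition at a maximizer.
-/

namespace Vale.Agent.P072G

open Finset

noncomputable section

namespace Scheme

variable {d : ℕ} {S : Scheme d} {mp : ℝ}

/-- The lowered lattice point. -/
def lowered (S : Scheme d) (b : ℕ) (k : ℕ → ℤ) : ℕ → ℤ := fun r =>
  if r < b then k r else if r = b then k b - 1 else
    if r < d then min (k r) ((k b - 1) * (S.KK : ℤ) ^ (r - b)) else k r

theorem lower (hS : S.Sharp mp) {x : Fin d → ℝ} (hx : ∀ i, 0 < x i) {σ : Equiv.Perm (Fin d)}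
    {k : ℕ → ℤ} (hM : S.IsMax x σ k) (b : Fin d)
    (hb : (b : ℕ) + 1 = d ∨ S.nn k ((b : ℕ) + 1) < S.nn k b) :
    Real.exp (S.Um b k) / 2 ≤ x (σ b) := by
  set k' := S.lowered b k with hk'
  have hk := hM.sorted
  have hdb := S.del_pos b
  have e_lt : ∀ r, r < (b : ℕ) → k' r = k r := by
    intro r hr
    simp [hk', lowered, hr]
  have e_b : k' b = k b - 1 := by
    simp [hk', lowered]
  have e_gt : ∀ r, (b : ℕ) < r → r < d → k' r = min (k r) ((k b - 1) * (S.KK : ℤ) ^ (r - b)) := by
    intro r h1 h2
    have h3 : ¬ r < (b : ℕ) := by omega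
    have h4 : r ≠ (b : ℕ) := by omega
    simp [hk', lowered, h3, h4, h2]
  have e_ge : ∀ r, d ≤ r → k' r = k r := by
    intro r hr
    have := b.isLt
    have h3 : ¬ r < (b : ℕ) := by omega
    have h4 : r ≠ (b : ℕ) := by omega
    have h5 : ¬ r < d := by omega
    simp [hk', lowered, h3, h4, h5]
  have n_lt : ∀ r, r < (b : ℕ) → S.nn k' r = S.nn k r := by
    intro r hr
    unfold nn
    rw [e_lt r hr]
  have n_b : S.nn k' b = S.nn k b - S.del b := by
    unfold nn
    rw [e_b]
    push_cast
    ring
  have n_gt : ∀ r, (b : ℕ) < r → r < d → S.nn k' r = min (S.nn k r) (S.nn k b - S.del b) := by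
    intro r h1 h2
    unfold nn
    rw [e_gt r h1 h2, Int.cast_min, min_mul_of_nonneg _ _ (S.del_pos r).le]
    congr 1
    push_cast
    have := S.del_pow_rel (b := b) (r := r) h1.le
    rw [mul_assoc, this]
    ring
  have hsorted : S.Sorted k' := by
    intro s hs
    rcases lt_trichotomy (s + 1) (b : ℕ) with h | h | h
    · rw [n_lt _ h, n_lt s (by omega)]
      exact hk s hs
    · rw [h, n_b, n_lt s (by omega)]
      have := hk s hs
      rw [h] at this
      linarith
    · by_cases h2 : s = b
      · subst h2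
        rw [n_gt ((b : ℕ) + 1) (by omega) hs, n_b]
        exact min_le_right _ _
      · have h3 : (b : ℕ) < s := by omega
        rw [n_gt (s + 1) (by omega) hs, n_gt s h3 (by omega)]
        exact min_le_min_right _ (hk s hs)
  have hcanon : Canon d k' := by
    intro s hs
    rw [e_ge s hs]
    exact hM.canon s hs
  have hval := hM.max σ k' hsorted hcanon
  set U := S.Um b k with hU
  set E := Real.exp U with hE
  set ε := Real.exp (-mp) with hε
  have hE0 : 0 < E := Real.exp_pos _
  have hε0 : 0 < ε := Real.exp_pos _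
  have hexp : Real.exp (U - mp) = E * ε := by
    rw [hE, hε, ← Real.exp_add]
    ring_nf
  -- coordinates deeper than the block are small
  have hup : ∀ s : Fin d, (b : ℕ) < s → x (σ s) ≤ 2 * (E * ε) := by
    intro s hs
    obtain ⟨a, ha1, ha2, ha3⟩ := exists_top hk (s : ℕ) s.isLt
    have had : a < d := by have := s.isLt; omega
    have hab : (b : ℕ) < a := by
      by_contra hcon
      push Not at hcon
      have h1 := nn_sorted_le hk hcon b.isLt
      have h2 : S.nn k ((b : ℕ) + 1) < S.nn k b := by
        rcases hb with h | h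
        · have := s.isLt
          omega
        · exact h
      have h3 := nn_sorted_le hk (show (b : ℕ) + 1 ≤ s from hs) s.isLt
      linarith
    have ha4 : S.nn k a < S.nn k (a - 1) := by
      rcases ha3 with h | h
      · omega
      · exact h
    have h1 := box_upper hS hM s ⟨a, had⟩ ha2 (Or.inr ha4)
    have h2 : S.Up a k + mp ≤ S.Um (a - 1) k := by
      have e : a - 1 + 1 = a := by omega
      have h3 := Up_gap (S := S) hS (r := a - 1) (by omega) k (by rw [e]; exact ha4)
      rw [e] at h3
      exact h3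
    have h3 : S.Um (a - 1) k ≤ U := by
      rcases Nat.lt_or_ge (b : ℕ) (a - 1) with h | h
      · have := Um_chain hS hk (a - 1) h (by omega)
        have := hS.mp_nonneg
        linarith
      · have e : a - 1 = (b : ℕ) := by omega
        rw [e]
    have h4 : S.Up a k ≤ U - mp := by linarith
    have h5 := Real.exp_le_exp.mpr h4
    rw [hexp] at h5
    simp only at h1
    linarith
  -- the potential drops by at least this much
  have hL : S.del b * E - (d : ℝ) * (2 * (E * ε)) ≤ S.fS k - S.fS k' := by
    unfold fS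
    rw [← Finset.sum_sub_distrib]
    have hterm : ∀ r ∈ range d, (if r = (b : ℕ) then S.del b * E else 0) - 2 * (E * ε)
        ≤ S.PsiAt r k (k r) - S.PsiAt r k' (k' r) := by
      intro r hr
      have hr' := Finset.mem_range.mp hr
      have hpos : 0 < 2 * (E * ε) := by positivity
      rcases lt_trichotomy r (b : ℕ) with h | h | h
      · have e3 : k' r = k r := e_lt r h
        have e4 : S.PsiAt r k' (k' r) = S.PsiAt r k (k r) := by
          rw [e3]
          apply S.PsiAt_congr
          intro s hs
          exact e_lt s (by omega)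
        rw [e4, if_neg (by omega)]
        linarith
      · subst h
        rw [if_pos rfl, e_b]
        have e4 : S.PsiAt b k' (k b - 1) = S.PsiAt b k (k b - 1) := by
          apply S.PsiAt_congr
          intro s hs
          exact e_lt s hs
        have e5 := S.PsiAt_step b.isLt k (k b - 1)
        have e6 : k b - 1 + 1 = k b := by ring
        rw [e6] at e5
        rw [e4, e5]
        have : S.del b * Real.exp (S.th b k (k b - 1)) = S.del b * E := rfl
        linarith
      · rw [if_neg (by omega), zero_sub]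
        have h1 := S.PsiAt_le hr' k' (k' r)
        have h2 := S.PsiAt_nonneg (r := r) k (k r)
        have h3 : S.Um r k' + mp ≤ S.Um b k' := Um_chain hS hsorted r h hr'
        have e3 : S.Um b k' ≤ U := by
          have e4 : S.Um b k' = S.th b k (k b - 1 - 1) := by
            unfold Um
            rw [e_b]
            apply S.th_congr
            intro s hs
            exact e_lt s hs
          rw [e4]
          exact S.th_le_of_le b.isLt k (by omega)
        have h4 : S.th r k' (k' r - 1) ≤ U - mp := by
          have : S.Um r k' = S.th r k' (k' r - 1) := rfl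
          linarith
        have h5 := Real.exp_le_exp.mpr h4
        rw [hexp] at h5
        linarith
    refine le_trans ?_ (Finset.sum_le_sum hterm)
    rw [Finset.sum_sub_distrib, Finset.sum_ite_eq', Finset.sum_const, Finset.card_range,
      if_pos (Finset.mem_range.mpr b.isLt), nsmul_eq_mul]
  -- the pairing changes by at most this much
  have hR : ∑ s : Fin d, (S.nn k s - S.nn k' s) * x (σ s)
      ≤ S.del b * x (σ b) + (d : ℝ) * (S.del b * (2 * (E * ε))) := by
    have hterm : ∀ s : Fin d, (S.nn k s - S.nn k' s) * x (σ s)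
        ≤ (if s = b then S.del b * x (σ b) else 0) + S.del b * (2 * (E * ε)) := by
      intro s
      have hpos : 0 < S.del b * (2 * (E * ε)) := by positivity
      rcases lt_trichotomy (s : ℕ) (b : ℕ) with h | h | h
      · rw [n_lt s h, if_neg (fun e => by rw [e] at h; omega)]
        simp only [sub_self, zero_mul, zero_add]
        exact hpos.le
      · have h' : s = b := Fin.ext h
        subst h'
        rw [if_pos rfl, n_b]
        have : (S.nn k s - (S.nn k s - S.del s)) * x (σ s) = S.del s * x (σ s) := by ring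
        rw [this]
        linarith
      · rw [n_gt s h s.isLt, if_neg (fun e => by rw [e] at h; omega), zero_add]
        have h1 := hup s h
        have h2 := hx (σ s)
        have h3 := nn_sorted_le hk h.le s.isLt
        have h4 : S.nn k s - min (S.nn k s) (S.nn k b - S.del b) ≤ S.del b := by
          rcases le_total (S.nn k s) (S.nn k b - S.del b) with h5 | h5
          · rw [min_eq_left h5]
            linarith
          · rw [min_eq_right h5]
            linarith
        have h5 : 0 ≤ S.nn k s - min (S.nn k s) (S.nn k b - S.del b) := by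
          have := min_le_left (S.nn k s) (S.nn k b - S.del b)
          linarith
        calc (S.nn k s - min (S.nn k s) (S.nn k b - S.del b)) * x (σ s)
            ≤ S.del b * x (σ s) := mul_le_mul_of_nonneg_right h4 h2.le
          _ ≤ S.del b * (2 * (E * ε)) := mul_le_mul_of_nonneg_left h1 hdb.le
    refine (Finset.sum_le_sum (fun s _ => hterm s)).trans ?_
    rw [Finset.sum_add_distrib, Finset.sum_const, Finset.card_univ, Fintype.card_fin, nsmul_eq_mul]
    simp
  have hmain : S.fS k - S.fS k' ≤ ∑ s : Fin d, (S.nn k s - S.nn k' s) * x (σ s) := by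
    have e : ∑ s : Fin d, (S.nn k s - S.nn k' s) * x (σ s)
        = ∑ s : Fin d, S.nn k s * x (σ s) - ∑ s : Fin d, S.nn k' s * x (σ s) := by
      rw [← Finset.sum_sub_distrib]
      apply Finset.sum_congr rfl
      intro s _
      ring
    rw [e]
    unfold val at hval
    linarith
  have hsmall : 8 * (d : ℝ) * ε ≤ S.del b :=
    hS.small.trans (S.del_anti (by have := b.isLt; omega))
  have hd1 := S.del_le_one b
  have h1 : S.del b * (E / 2) ≤ S.del b * x (σ b) := by
    have h2 : E * (8 * (d : ℝ) * ε) ≤ E * S.del b := mul_le_mul_of_nonneg_left hsmall hE0.le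
    have h3 : 0 ≤ (d : ℝ) * (E * ε) := by positivity
    have h4 : (d : ℝ) * (S.del b * (2 * (E * ε))) ≤ (d : ℝ) * (2 * (E * ε)) := by
      have : S.del b * (2 * (E * ε)) ≤ 1 * (2 * (E * ε)) :=
        mul_le_mul_of_nonneg_right hd1 (by positivity)
      have hd0 : (0 : ℝ) ≤ (d : ℝ) := by positivity
      nlinarith
    nlinarith
  exact le_of_mul_le_mul_left h1 hdb

/-- Lower bound for any coordinate through the bottom of its block. -/
theorem box_lower (hS : S.Sharp mp) {x : Fin d → ℝ} (hx : ∀ i, 0 < x i) {σ : Equiv.Perm (Fin d)}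
    {k : ℕ → ℤ} (hM : S.IsMax x σ k) (s b : Fin d) (h : S.nn k b = S.nn k s)
    (hb : (b : ℕ) + 1 = d ∨ S.nn k ((b : ℕ) + 1) < S.nn k b) :
    Real.exp (S.Um b k) / 2 ≤ x (σ s) := by
  have h1 := lower hS hx (hM.swap h) b hb
  simpa using h1

/-- Images of a species vector under a map to positions. -/
def Tf (f : Fin d → Fin d) (w : Fin d → ℤ) : ℕ → ℤ :=
  fun s => ∑ i, if (f i : ℕ) = s then w i else 0

lemma Tf_cast (f : Fin d → Fin d) (w : Fin d → ℤ) (s : Fin d) :
    ((Tf f w (s : ℕ) : ℤ) : ℝ) = ∑ i ∈ Finset.univ.filter (fun i => f i = s), (w i : ℝ) := by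
  unfold Tf
  push_cast
  rw [Finset.sum_filter]
  apply Finset.sum_congr rfl
  intro i _
  by_cases h : f i = s
  · subst h
    simp
  · have h' : (f i : ℕ) ≠ s := fun e => h (Fin.ext e)
    simp [h, h']

/-- The pairing after the map. -/
lemma ipr_Tf (f : Fin d → Fin d) (w : Fin d → ℤ) (k : ℕ → ℤ) :
    S.ipr d (Tf f w) k = ∑ i, (w i : ℝ) * S.nn k (f i) := by
  unfold ipr
  rw [Finset.sum_range]
  have h1 : ∀ s : Fin d, ((Tf f w (s : ℕ) : ℤ) : ℝ) * S.nn k s
      = ∑ i ∈ Finset.univ.filter (fun i => f i = s), (w i : ℝ) * S.nn k (f i) := by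
    intro s
    rw [Tf_cast, Finset.sum_mul]
    apply Finset.sum_congr rfl
    intro i hi
    rw [(Finset.mem_filter.mp hi).2]
  rw [Finset.sum_congr rfl (fun s _ => h1 s)]
  exact Finset.sum_fiberwise Finset.univ f (fun i => (w i : ℝ) * S.nn k (f i))

/-- The sign condition at a maximizer. -/
theorem star (hS : S.Sharp mp) {Ws : Finset (Fin d → ℤ)}
    (hT : ∀ f : Fin d → Fin d, ∀ w ∈ Ws, Tf f w ∈ S.F (d - 1))
    {x : Fin d → ℝ} (hx : ∀ i, 0 < x i) {σ : Equiv.Perm (Fin d)} {k : ℕ → ℤ}
    (hM : S.IsMax x σ k) {w : Fin d → ℤ} (hw : w ∈ Ws)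
    (hq : 0 < ∑ i, (w i : ℝ) * S.nn k (σ.symm i)) :
    mp - Real.log 2 * ∑ i, |(w i : ℝ)| ≤ ∑ i, (w i : ℝ) * Real.log (x i) := by
  classical
  have hk := hM.sorted
  have hdpos : 0 < d := by
    by_contra h
    have h0 : d = 0 := by omega
    subst h0
    simp at hq
  -- tops and bottoms of blocks
  have htop : ∀ s : Fin d, ∃ a : Fin d, (a : ℕ) ≤ s ∧ S.nn k a = S.nn k s ∧
      ((a : ℕ) = 0 ∨ S.nn k a < S.nn k ((a : ℕ) - 1)) := by
    intro s
    obtain ⟨a, h1, h2, h3⟩ := exists_top hk (s : ℕ) s.isLt
    exact ⟨⟨a, by have := s.isLt; omega⟩, h1, h2, h3⟩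
  have hbot : ∀ s : Fin d, ∃ b : Fin d, (s : ℕ) ≤ b ∧ S.nn k b = S.nn k s ∧
      ((b : ℕ) + 1 = d ∨ S.nn k ((b : ℕ) + 1) < S.nn k b) := by
    intro s
    obtain ⟨b, h1, h2, h3, h4⟩ := exists_bot hk (d - 1 - s) (s : ℕ) (by have := s.isLt; omega)
    exact ⟨⟨b, h2⟩, h1, h3, h4⟩
  choose tp htp1 htp2 htp3 using htop
  choose bt hbt1 hbt2 hbt3 using hbot
  set pos : Fin d → Fin d := fun i => σ.symm i with hpos
  set f : Fin d → Fin d := fun i => if 0 < w i then bt (pos i) else tp (pos i) with hf
  have hfnn : ∀ i, S.nn k (f i) = S.nn k (pos i) := by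
    intro i
    simp only [hf]
    split_ifs
    · exact hbt2 _
    · exact htp2 _
  set v := Tf f w with hv
  have hvF : v ∈ S.F (d - 1) := hT f w hw
  have hip : 0 < S.ipr d v k := by
    rw [hv, ipr_Tf]
    have : ∀ i, (w i : ℝ) * S.nn k (f i) = (w i : ℝ) * S.nn k (σ.symm i) := by
      intro i
      rw [hfnn]
    rw [Finset.sum_congr rfl (fun i _ => this i)]
    exact hq
  have hd1 : d - 1 + 1 = d := by omega
  have hL := S.level_all d le_rfl
  have hI := hL.inv k (d - 1) hd1 v hvF hip
  have hW : 0 ≤ Wd d (S.bmf k) (S.bpf k) := Wd_nonneg hL k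
  have hmp : mp ≤ mb d v (S.bmf k) (S.bpf k) := by
    have h1 := hS.mp_le (d - 1) (by omega)
    have h2 := S.B_nonneg (d - 1)
    have : 0 ≤ S.B (d - 1) * Wd d (S.bmf k) (S.bpf k) := mul_nonneg h2 hW
    linarith
  -- the values attached to species
  set C : Fin d → ℝ := fun i => if 0 < w i then S.bmf k (f i) else S.bpf k (f i) with hC
  have hlog : ∀ i, (w i : ℝ) * (S.nn k (pos i) + C i) - |(w i : ℝ)| * Real.log 2
      ≤ (w i : ℝ) * Real.log (x i) := by
    intro i
    have hxi := hx i
    have hsp : σ (pos i) = i := by simp [hpos]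
    have hl2 : 0 < Real.log 2 := Real.log_pos (by norm_num)
    by_cases hwi : 0 < w i
    · have hw' : (0 : ℝ) < (w i : ℝ) := by exact_mod_cast hwi
      have hfi : f i = bt (pos i) := by simp [hf, hwi]
      have h1 := box_lower hS hx hM (pos i) (bt (pos i)) (hbt2 _) (hbt3 _)
      rw [hsp] at h1
      have h2 : S.Um (bt (pos i)) k - Real.log 2 ≤ Real.log (x i) := by
        have h3 : Real.log (Real.exp (S.Um (bt (pos i)) k) / 2) ≤ Real.log (x i) :=
          Real.log_le_log (by positivity) h1
        rw [Real.log_div (Real.exp_pos _).ne' (by norm_num), Real.log_exp] at h3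
        exact h3
      rw [S.Um_eq, hbt2] at h2
      have hCi : C i = S.bmf k (bt (pos i)) := by simp [hC, hwi, hfi]
      rw [hCi, abs_of_pos hw']
      nlinarith
    · have hw' : (w i : ℝ) ≤ 0 := by
        have : w i ≤ 0 := by omega
        exact_mod_cast this
      have hfi : f i = tp (pos i) := by simp [hf, hwi]
      have h1 := box_upper hS hM (pos i) (tp (pos i)) (htp2 _) (htp3 _)
      rw [hsp] at h1
      have h2 : Real.log (x i) ≤ Real.log 2 + S.Up (tp (pos i)) k := by
        have h3 : Real.log (x i) ≤ Real.log (2 * Real.exp (S.Up (tp (pos i)) k)) :=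
          Real.log_le_log hxi h1
        rw [Real.log_mul (by norm_num) (Real.exp_pos _).ne', Real.log_exp] at h3
        exact h3
      rw [S.Up_eq, htp2] at h2
      have hCi : C i = S.bpf k (tp (pos i)) := by simp [hC, hwi, hfi]
      rw [hCi, abs_of_nonpos hw']
      nlinarith
  -- non mixing in a fibre
  have hnomix : ∀ i j, f i = f j → 0 < w i → w j < 0 → False := by
    intro i j hij hi hj
    have hfi : f i = bt (pos i) := by simp [hf, hi]
    have hfj : f j = tp (pos j) := by
      have : ¬ 0 < w j := by omega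
      simp [hf, this]
    have h1 : (pos i : ℕ) ≤ (bt (pos i) : ℕ) := hbt1 _
    have h2 : (tp (pos j) : ℕ) ≤ (pos j : ℕ) := htp1 _
    set s := bt (pos i) with hs
    have hs2 : tp (pos j) = s := by rw [← hfj, ← hij, hfi]
    rw [hs2] at h2
    have h3 : S.nn k s = S.nn k (pos i) := hbt2 _
    have h4 : S.nn k s = S.nn k (pos j) := by
      have := htp2 (pos j)
      rw [hs2] at this
      exact this
    have h5 : (s : ℕ) + 1 = d ∨ S.nn k ((s : ℕ) + 1) < S.nn k s := hbt3 _
    have h6 : (s : ℕ) = 0 ∨ S.nn k s < S.nn k ((s : ℕ) - 1) := by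
      have := htp3 (pos j)
      rw [hs2] at this
      exact this
    have hposj : (pos j : ℕ) = s := by
      by_contra hne
      have hlt : (s : ℕ) + 1 ≤ pos j := by omega
      rcases h5 with h7 | h7
      · have := (pos j).isLt
        omega
      · have := nn_sorted_le hk hlt (pos j).isLt
        linarith
    have hposi : (pos i : ℕ) = s := by
      by_contra hne
      have hlt : (pos i : ℕ) ≤ (s : ℕ) - 1 := by omega
      rcases h6 with h7 | h7
      · omega
      · have := nn_sorted_le hk hlt (by have := s.isLt; omega)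
        linarith
    have hpp : pos i = pos j := Fin.ext (by rw [hposi, hposj])
    have hij' : i = j := by
      simpa [hpos] using hpp
    subst hij'
    omega
  -- the minimum over the box is below the sum
  have hbox : mb d v (S.bmf k) (S.bpf k) ≤ ∑ i, (w i : ℝ) * C i := by
    unfold mb
    rw [Finset.sum_range]
    have hfib : ∑ i, (w i : ℝ) * C i
        = ∑ s : Fin d, ∑ i ∈ Finset.univ.filter (fun i => f i = s), (w i : ℝ) * C i :=
      (Finset.sum_fiberwise Finset.univ f (fun i => (w i : ℝ) * C i)).symm
    rw [hfib]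
    apply Finset.sum_le_sum
    intro s _
    have hvs : ((v (s : ℕ) : ℤ) : ℝ) = ∑ i ∈ Finset.univ.filter (fun i => f i = s), (w i : ℝ) :=
      Tf_cast f w s
    by_cases hallpos : ∀ i ∈ Finset.univ.filter (fun i => f i = s), 0 ≤ w i
    · have h1 : ∑ i ∈ Finset.univ.filter (fun i => f i = s), (w i : ℝ) * C i
          = ((v (s : ℕ) : ℤ) : ℝ) * S.bmf k s := by
        rw [hvs, Finset.sum_mul]
        apply Finset.sum_congr rfl
        intro i hi
        have hfs := (Finset.mem_filter.mp hi).2
        have hw0 := hallpos i hi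
        rcases lt_or_eq_of_le hw0 with h | h
        · simp only [hC, h, if_true, hfs]
        · rw [← h]
          simp
      rw [h1]
      exact min_le_left _ _
    · push Not at hallpos
      obtain ⟨j, hj1, hj2⟩ := hallpos
      have hj3 := (Finset.mem_filter.mp hj1).2
      have h1 : ∑ i ∈ Finset.univ.filter (fun i => f i = s), (w i : ℝ) * C i
          = ((v (s : ℕ) : ℤ) : ℝ) * S.bpf k s := by
        rw [hvs, Finset.sum_mul]
        apply Finset.sum_congr rfl
        intro i hi
        have hfs := (Finset.mem_filter.mp hi).2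
        have hn : ¬ 0 < w i := fun h => hnomix i j (by rw [hfs, hj3]) h hj2
        simp only [hC, hn, if_false, hfs]
      rw [h1]
      exact min_le_right _ _
  -- sum up
  have hsum := Finset.sum_le_sum (fun i (_ : i ∈ Finset.univ) => hlog i)
  have e1 : ∑ i, ((w i : ℝ) * (S.nn k (pos i) + C i) - |(w i : ℝ)| * Real.log 2)
      = ∑ i, (w i : ℝ) * S.nn k (σ.symm i) + ∑ i, (w i : ℝ) * C i
        - Real.log 2 * ∑ i, |(w i : ℝ)| := by
    rw [Finset.mul_sum, ← Finset.sum_add_distrib, ← Finset.sum_sub_distrib]
    apply Finset.sum_congr rfl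
    intro i _
    ring
  rw [e1] at hsum
  linarith

end Scheme

end

end Vale.Agent.P072G
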