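import Vale.Agent.P072G.Exist
import Vale.Agent.P072G.Cut
import Vale.Agent.P072G.Descent

/-!
Uniform boundedness of weakly reversible mass-action systems.
-/

namespace Vale.Agent.P072G

open Finset Vale.Agent.P072 Filter Topology

noncomputable section

variable {d : ℕ} {ι : Type} [Fintype ι]

/-- The integer vectors to be controlled. -/
def wsBase (src : ι → Fin d → ℕ) : Finset (Fin d → ℤ) :=
  ((Finset.univ : Finset (ι × ι)).image
      (fun p => fun i => (src p.1 i : ℤ) - (src p.2 i : ℤ))) ∪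
    ((Finset.univ : Finset (Fin d × Fin d)).image
      (fun p => fun l => if l = p.1 then (1 : ℤ) else if l = p.2 then -1 else 0))

/-- Closure under negation. -/
def ws (src : ι → Fin d → ℕ) : Finset (Fin d → ℤ) :=
  wsBase src ∪ (wsBase src).image (fun w => -w)

lemma ws_neg (src : ι → Fin d → ℕ) : ∀ w ∈ ws src, -w ∈ ws src := by
  intro w hw
  unfold ws at hw ⊢
  rcases Finset.mem_union.mp hw with h | h
  · exact Finset.mem_union_right _ (Finset.mem_image_of_mem _ h)
  · obtain ⟨u, hu, rfl⟩ := Finset.mem_image.mp h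
    rw [neg_neg]
    exact Finset.mem_union_left _ hu

lemma ws_unit (src : ι → Fin d → ℕ) (i j : Fin d) :
    (fun l => if l = i then (1 : ℤ) else if l = j then -1 else 0) ∈ ws src := by
  unfold ws wsBase
  apply Finset.mem_union_left
  apply Finset.mem_union_right
  exact Finset.mem_image.mpr ⟨(i, j), Finset.mem_univ _, rfl⟩

lemma ws_src (src : ι → Fin d → ℕ) (r r' : ι) :
    (fun i => (src r i : ℤ) - (src r' i : ℤ)) ∈ ws src := by
  unfold ws wsBase
  apply Finset.mem_union_left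
  apply Finset.mem_union_left
  exact Finset.mem_image.mpr ⟨(r, r'), Finset.mem_univ _, rfl⟩

/-- The total size of the controlled vectors. -/
def wsum (src : ι → Fin d → ℕ) : ℝ := ∑ w ∈ ws src, ∑ i, |(w i : ℝ)|

lemma ws_le (src : ι → Fin d → ℕ) {w : Fin d → ℤ} (hw : w ∈ ws src) :
    ∑ i, |(w i : ℝ)| ≤ wsum src := by
  unfold wsum
  exact Finset.single_le_sum (f := fun w : Fin d → ℤ => ∑ i, |(w i : ℝ)|)
    (fun _ _ => Finset.sum_nonneg fun _ _ => abs_nonneg _) hw

/-- The vector field. -/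
def Fv (src tgt : ι → Fin d → ℕ) (κ : ι → ℝ) (y : Fin d → ℝ) : Fin d → ℝ :=
  ∑ r, (κ r * ∏ i, y i ^ src r i) • vec src tgt r

lemma Fv_apply (src tgt : ι → Fin d → ℕ) (κ : ι → ℝ) (y : Fin d → ℝ) (i : Fin d) :
    Fv src tgt κ y i = ∑ r, (κ r * ∏ j, y j ^ src r j) * vec src tgt r i := by
  unfold Fv
  rw [Finset.sum_apply]
  rfl

lemma Fv_cont (src tgt : ι → Fin d → ℕ) (κ : ι → ℝ) (i : Fin d) :
    Continuous (fun y => Fv src tgt κ y i) := by
  simp only [Fv_apply]
  fun_prop

lemma monomial_eq {y : Fin d → ℝ} (hy : ∀ i, 0 < y i) (a : Fin d → ℕ) :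
    ∏ i, y i ^ a i = Real.exp (ipN (fun i => Real.log (y i)) a) := by
  unfold ipN
  rw [Real.exp_sum]
  apply Finset.prod_congr rfl
  intro i _
  rw [mul_comm, Real.exp_nat_mul, Real.exp_log (hy i)]

/-- The flow is nonpositive against the subgradient at a maximizer. -/
theorem flow_nonpos {src tgt : ι → Fin d → ℕ} (WR : WeaklyRev src tgt) {S : Scheme d} {mp m ε : ℝ}
    (hε : 0 < ε) (hS : S.Sharp mp)
    (hT : ∀ f : Fin d → Fin d, ∀ w ∈ ws src, Scheme.Tf f w ∈ S.F (d - 1))
    (hmp : m + Real.log 2 * wsum src ≤ mp)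
    (hm : (Fintype.card ι : ℝ) / ε ^ 2 ≤ Real.exp m)
    {y : Fin d → ℝ} (hy : ∀ i, 0 < y i) {σ : Equiv.Perm (Fin d)} {K : ℕ → ℤ}
    (hM : S.IsMax y σ K) {κ : ι → ℝ} (hκ : ∀ r, ε ≤ κ r ∧ κ r ≤ 1 / ε) :
    ∑ i, S.nn K (σ.symm i) * Fv src tgt κ y i ≤ 0 := by
  set q : Fin d → ℝ := fun i => S.nn K (σ.symm i) with hq
  set l : Fin d → ℝ := fun i => Real.log (y i) with hl
  have hstar : ∀ r r', ipN q (src r') < ipN q (src r) → ipN l (src r') + m ≤ ipN l (src r) := by
    intro r r' hlt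
    set w : Fin d → ℤ := fun i => (src r i : ℤ) - (src r' i : ℤ) with hw
    have hwm : w ∈ ws src := ws_src src r r'
    have hcast : ∀ i, (w i : ℝ) = (src r i : ℝ) - (src r' i : ℝ) := by
      intro i
      simp [hw]
    have hq' : 0 < ∑ i, (w i : ℝ) * S.nn K (σ.symm i) := by
      have : ∑ i, (w i : ℝ) * S.nn K (σ.symm i) = ipN q (src r) - ipN q (src r') := by
        unfold ipN
        rw [← Finset.sum_sub_distrib]
        apply Finset.sum_congr rfl
        intro i _
        rw [hcast]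
        simp only [hq]
        ring
      rw [this]
      linarith
    have h1 := Scheme.star hS hT hy hM hwm hq'
    have h2 : ∑ i, (w i : ℝ) * Real.log (y i) = ipN l (src r) - ipN l (src r') := by
      unfold ipN
      rw [← Finset.sum_sub_distrib]
      apply Finset.sum_congr rfl
      intro i _
      rw [hcast]
      simp only [hl]
      ring
    rw [h2] at h1
    have h3 := ws_le src hwm
    have hl2 : 0 < Real.log 2 := Real.log_pos (by norm_num)
    have h4 : Real.log 2 * ∑ i, |(w i : ℝ)| ≤ Real.log 2 * wsum src :=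
      mul_le_mul_of_nonneg_left h3 hl2.le
    linarith
  have hcut := cut_net WR l q κ ε m hε hκ hm hstar
  have e : ∑ i, S.nn K (σ.symm i) * Fv src tgt κ y i
      = ∑ r, κ r * Real.exp (ipN l (src r)) * ip q (vec src tgt r) := by
    simp only [Fv_apply, Finset.mul_sum]
    rw [Finset.sum_comm]
    apply Finset.sum_congr rfl
    intro r _
    unfold ip
    rw [Finset.mul_sum]
    apply Finset.sum_congr rfl
    intro i _
    rw [monomial_eq hy]
    ring
  rw [e]
  exact hcut

/-- An upper bound for the value at a bounded point. -/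
lemma val_le (hd : 0 < d) (S : Scheme d) {y : Fin d → ℝ} (hy : ∀ i, 0 < y i) {Λ : ℝ}
    (hΛ : ∀ i, y i ≤ Λ) (σ : Equiv.Perm (Fin d)) {k : ℕ → ℤ} (hk : S.Sorted k) :
    S.val y σ k ≤ (1 + S.Gam 0) * ((d : ℝ) * |Λ|) + ((d : ℝ) * |Λ|) ^ 2 / 2 := by
  set D := (d : ℝ) * |Λ| with hD
  have hD0 : 0 ≤ D := by positivity
  set c := 1 + S.Gam 0 with hc
  have hc0 : 0 ≤ c := by
    have := S.Gam_nonneg 0
    linarith
  set n0 := S.nn k 0 with hn0
  have h1 := S.fS_ge hd k
  have h3 : ∑ s : Fin d, S.nn k s * y (σ s) ≤ max n0 0 * D := by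
    have h4 : ∀ s : Fin d, S.nn k s * y (σ s) ≤ max n0 0 * |Λ| := by
      intro s
      have h5 : S.nn k s ≤ n0 := Scheme.nn_sorted_le hk (Nat.zero_le _) s.isLt
      have h6 : S.nn k s ≤ max n0 0 := h5.trans (le_max_left _ _)
      have h7 : y (σ s) ≤ |Λ| := (hΛ _).trans (le_abs_self _)
      exact mul_le_mul h6 h7 (hy _).le (le_max_right _ _)
    calc ∑ s : Fin d, S.nn k s * y (σ s) ≤ ∑ _s : Fin d, max n0 0 * |Λ| :=
          Finset.sum_le_sum fun s _ => h4 s
      _ = max n0 0 * D := by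
          rw [Finset.sum_const, Finset.card_univ, Fintype.card_fin, nsmul_eq_mul, hD]
          ring
  have h2 : S.val y σ k ≤ max n0 0 * D - Real.exp (n0 - c) := by
    unfold Scheme.val
    have e : S.nn k 0 - 1 - S.Gam 0 = n0 - c := by rw [hc]; ring
    rw [e] at h1
    linarith
  have hexp := Real.exp_pos (n0 - c)
  refine h2.trans ?_
  by_cases hn : n0 ≤ 0
  · rw [max_eq_right hn]
    have : 0 ≤ c * D := mul_nonneg hc0 hD0
    nlinarith [sq_nonneg D]
  · push Not at hn
    rw [max_eq_left hn.le]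
    by_cases hy2 : n0 - c ≤ 0
    · have : n0 * D ≤ c * D := mul_le_mul_of_nonneg_right (by linarith) hD0
      nlinarith [sq_nonneg D]
    · push Not at hy2
      have h5 := Real.quadratic_le_exp_of_nonneg hy2.le
      nlinarith [sq_nonneg (n0 - c - D)]

/-- The lattice point for the competitor. -/
def kstar : ℕ → ℤ := fun s => if s = 0 then 1 else 0

lemma kstar_sorted (S : Scheme d) : S.Sorted kstar := by
  intro s _
  unfold Scheme.nn kstar
  have h1 : s + 1 ≠ 0 := by omega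
  simp only [h1, if_false]
  have := S.del_pos s
  by_cases h : s = 0 <;> simp [h, le_of_lt (S.del_pos _)]

lemma kstar_canon (hd : 0 < d) : Canon d kstar := by
  intro s hs
  have : s ≠ 0 := by omega
  simp [kstar, this]

/-- The competitor value gives a lower bound. -/
lemma val_kstar (hd : 0 < d) (S : Scheme d) (y : Fin d → ℝ) (i : Fin d) :
    S.val y (Equiv.swap ⟨0, hd⟩ i) kstar = y i - S.fS kstar := by
  unfold Scheme.val
  congr 1
  rw [Finset.sum_eq_single (⟨0, hd⟩ : Fin d)]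
  · have : S.nn kstar 0 = 1 := by
      rw [Scheme.nn_zero_eq]
      simp [kstar]
    simp only [this, one_mul, Equiv.swap_apply_left]
  · intro b _ hb
    have h1 : (b : ℕ) ≠ 0 := by
      intro h
      exact hb (Fin.ext h)
    have : S.nn kstar b = 0 := by
      unfold Scheme.nn kstar
      simp [h1]
    rw [this, zero_mul]
  · intro h
    exact absurd (Finset.mem_univ _) h

/-- Uniform boundedness of weakly reversible systems. -/
theorem bounded_all {src tgt : ι → Fin d → ℕ} (WR : WeaklyRev src tgt)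
    (ε : ℝ) (hε : 0 < ε) (Λ : ℝ) :
    ∃ M : ℝ, ∀ (k : ι → ℝ → ℝ) (T : ℝ) (x : ℝ → Fin d → ℝ),
      (∀ r, ∀ t ∈ Set.Ico (0 : ℝ) T, ε ≤ k r t ∧ k r t ≤ 1 / ε) →
      (∀ i, x 0 i ≤ Λ) →
      (∀ t ∈ Set.Ico (0 : ℝ) T, (∀ i, 0 < x t i) ∧
        HasDerivWithinAt x (∑ r, (k r t * ∏ i, x t i ^ src r i) • vec src tgt r)
          (Set.Ico 0 T) t) →
      ∀ t ∈ Set.Ico (0 : ℝ) T, ∀ i, x t i ≤ M := by
  classical
  by_cases hd : 0 < d
  swap
  · refine ⟨0, fun _ _ _ _ _ _ _ _ i => ?_⟩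
    have : d = 0 := by omega
    subst this
    exact i.elim0
  -- the scheme
  set m := Real.log ((Fintype.card ι : ℝ) / ε ^ 2 + 1) with hmdef
  have hm : (Fintype.card ι : ℝ) / ε ^ 2 ≤ Real.exp m := by
    rw [hmdef, Real.exp_log (by positivity)]
    linarith
  obtain ⟨S, mp, hS, hmp, hT⟩ := exists_scheme hd (ws src) (ws_neg src)
    (fun i j _ => ws_unit src i j) (m + Real.log 2 * wsum src)
  set D := (d : ℝ) * |Λ| with hD
  refine ⟨(1 + S.Gam 0) * D + D ^ 2 / 2 + S.fS kstar, ?_⟩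
  intro k T x hk hx0 hsol t ht i
  have hpos : ∀ t ∈ Set.Ico (0 : ℝ) T, ∀ i, 0 < x t i := fun t ht => (hsol t ht).1
  -- maximizers
  have hex : ∀ t, ∃ (σ : Equiv.Perm (Fin d)) (K : ℕ → ℤ),
      t ∈ Set.Ico (0 : ℝ) T → S.IsMax (x t) σ K := by
    intro t
    by_cases ht : t ∈ Set.Ico (0 : ℝ) T
    · obtain ⟨σ, K, h⟩ := Scheme.exists_max (S := S) hd (hpos t ht)
      exact ⟨σ, K, fun _ => h⟩
    · exact ⟨1, fun _ => 0, fun h => absurd h ht⟩
  choose σ K hM using hex
  set g : ℝ → ℝ := fun t => S.val (x t) (σ t) (K t) with hg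
  set q : ℝ → Fin d → ℝ := fun t i => S.nn (K t) ((σ t).symm i) with hq
  have hsub : ∀ s ∈ Set.Ico (0 : ℝ) T, ∀ t ∈ Set.Ico (0 : ℝ) T,
      g s - g t ≤ ∑ i, q s i * (x s i - x t i) := by
    intro s hs t ht
    have h1 := (hM t ht).max (σ s) (K s) (hM s hs).sorted (hM s hs).canon
    have h2 : ∑ i, q s i * (x s i - x t i)
        = S.val (x s) (σ s) (K s) - S.val (x t) (σ s) (K s) := by
      unfold Scheme.val
      have e : ∑ i, q s i * (x s i - x t i)
          = ∑ a, q s (σ s a) * (x s (σ s a) - x t (σ s a)) :=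
        (Equiv.sum_comp (σ s) (fun i => q s i * (x s i - x t i))).symm
      rw [e, sub_sub_sub_cancel_right, ← Finset.sum_sub_distrib]
      apply Finset.sum_congr rfl
      intro a _
      simp only [hq, Equiv.symm_apply_apply]
      ring
    rw [h2]
    simp only [hg]
    linarith
  have hbdd : ∀ t ∈ Set.Ico (0 : ℝ) T, ∃ C : ℝ,
      ∀ᶠ z in 𝓝[Set.Ico 0 T] t, ∀ i, |q z i| ≤ C := by
    intro t ht
    set C₀ := Real.log 2 + 1 + ∑ r ∈ range d, S.Gam r with hC₀
    refine ⟨C₀ + ∑ i, (|Real.log (x t i)| + 1), ?_⟩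
    have hlog : ∀ i, ∀ᶠ z in 𝓝[Set.Ico 0 T] t, |Real.log (x z i)| < |Real.log (x t i)| + 1 := by
      intro i
      have h1 : Filter.Tendsto (fun z => x z i) (𝓝[Set.Ico 0 T] t) (𝓝 (x t i)) :=
        (tendsto_pi_nhds.mp (hsol t ht).2.continuousWithinAt) i
      have h2 := (Real.continuousAt_log (hpos t ht i).ne').tendsto.comp h1
      have h3 := h2.abs
      exact h3.eventually (gt_mem_nhds (by linarith))
    have hmem : ∀ᶠ z in 𝓝[Set.Ico 0 T] t, z ∈ Set.Ico (0 : ℝ) T := self_mem_nhdsWithin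
    filter_upwards [Filter.eventually_all.mpr hlog, hmem] with z hz hzI i
    have h1 := Scheme.max_near_log hS (hpos z hzI) (hM z hzI) i
    have h2 := hz i
    have h3 : |q z i| ≤ |S.nn (K z) ((σ z).symm i) - Real.log (x z i)| + |Real.log (x z i)| := by
      have := abs_sub_abs_le_abs_sub (S.nn (K z) ((σ z).symm i)) (Real.log (x z i))
      simp only [hq]
      linarith
    have h4 : |Real.log (x t i)| + 1 ≤ ∑ i, (|Real.log (x t i)| + 1) :=
      Finset.single_le_sum (f := fun i => |Real.log (x t i)| + 1)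
        (fun _ _ => by positivity) (Finset.mem_univ i)
    linarith
  have hanti := antitone_of_sub x g q
    (fun t => ∑ r, (k r t * ∏ i, x t i ^ src r i) • vec src tgt r)
    (fun t z => Fv src tgt (fun r => k r t) (x z)) hsub hbdd
    (fun t ht => (hsol t ht).2) ?_ ?_
  · have ht0 : (0 : ℝ) ∈ Set.Ico (0 : ℝ) T := ⟨le_rfl, lt_of_le_of_lt ht.1 ht.2⟩
    have h1 := hanti 0 ht0 t ht ht.1
    have h2 : g 0 ≤ (1 + S.Gam 0) * D + D ^ 2 / 2 :=
      val_le hd S (hpos 0 ht0) hx0 (σ 0) (hM 0 ht0).sorted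
    have h3 := (hM t ht).max (Equiv.swap ⟨0, hd⟩ i) kstar (kstar_sorted S) (kstar_canon hd)
    rw [val_kstar] at h3
    simp only [hg] at h1 h2
    linarith
  · intro t ht i
    have h1 : Filter.Tendsto x (𝓝[Set.Ico 0 T] t) (𝓝 (x t)) := (hsol t ht).2.continuousWithinAt
    have h2 := ((Fv_cont src tgt (fun r => k r t) i).tendsto (x t)).comp h1
    have e : Fv src tgt (fun r => k r t) (x t) i
        = (∑ r, (k r t * ∏ i, x t i ^ src r i) • vec src tgt r) i := rfl
    rw [e] at h2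
    exact h2
  · intro t ht
    have hmem : ∀ᶠ z in 𝓝[Set.Ico 0 T] t, z ∈ Set.Ico (0 : ℝ) T := self_mem_nhdsWithin
    filter_upwards [hmem] with z hz
    exact flow_nonpos WR hε hS hT hmp hm (hpos z hz) (hM z hz) (fun r => hk r t ht)

end

end Vale.Agent.P072G
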