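import Vale.Agent.P072G.Main

/-!
The Lyapunov function near the origin: it is negative on the positive orthant, with explicit bounds,
and tends to zero at the origin; and the lattice gap of the pairings.
-/

namespace Vale.Agent.P072G

open Finset

noncomputable section

namespace Scheme

variable {d : ℕ} {S : Scheme d}

/-- The total size of the corrections. -/
def GamT (S : Scheme d) : ℝ := ∑ r ∈ range d, S.Gam r

lemma GamT_nonneg : 0 ≤ S.GamT := Finset.sum_nonneg fun r _ => S.Gam_nonneg r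

lemma Gam_le_GamT {r : ℕ} (hr : r < d) : S.Gam r ≤ S.GamT :=
  Finset.single_le_sum (f := S.Gam) (fun t _ => S.Gam_nonneg t) (Finset.mem_range.mpr hr)

/-- The potential controls every position. -/
lemma fS_ge_pos (s : Fin d) (k : ℕ → ℤ) :
    S.del (d - 1) * Real.exp (S.nn k s - 2 - S.GamT) ≤ S.fS k := by
  have h1 : S.PsiAt s k (k s) ≤ S.fS k := by
    unfold fS
    exact Finset.single_le_sum (f := fun r => S.PsiAt r k (k r))
      (fun r _ => S.PsiAt_nonneg k (k r)) (Finset.mem_range.mpr s.isLt)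
  have h2 := S.le_PsiAt s.isLt k (k s)
  have hL := S.level_all ((s : ℕ) + 1) s.isLt
  have h3 := hL.bd k s (Nat.lt_succ_self _) (k s - 1)
  have hG := Gam_le_GamT (S := S) s.isLt
  have hG0 := S.Gam_nonneg s
  have hdel := S.del_le_one s
  have h4 : S.nn k s - 2 - S.GamT ≤ S.th s k (k s - 1) := by
    unfold th nn
    push_cast
    have := (abs_le.mp h3).1
    nlinarith [S.del_pos s]
  have h5 : S.del (d - 1) ≤ S.del s := del_anti S (by have := s.isLt; omega)
  have h6 : S.del (d - 1) * Real.exp (S.nn k s - 2 - S.GamT)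
      ≤ S.del s * Real.exp (S.th s k (k s - 1)) :=
    mul_le_mul h5 (Real.exp_le_exp.mpr h4) (Real.exp_pos _).le (S.del_pos _).le
  linarith

/-- The value at a small point with a definite mass is negative. -/
theorem val_neg (hd : 0 < d) {u : Fin d → ℝ} (hu : ∀ i, 0 < u i) {ρ ρ₂ : ℝ}
    (hρ₂ : ρ₂ ≤ Real.exp (-(1 + S.Gam 0)) / 2) (h1 : ρ ≤ ∑ i, u i) (h2 : ∑ i, u i ≤ ρ₂)
    (σ : Equiv.Perm (Fin d)) {k : ℕ → ℤ} (hk : S.Sorted k) :
    S.val u σ k ≤ -min (ρ / d) (S.del (d - 1) * Real.exp (-(3 + S.GamT)) / 2) := by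
  classical
  haveI : Nonempty (Fin d) := ⟨⟨0, hd⟩⟩
  obtain ⟨i₀, hi₀⟩ := Finite.exists_max u
  set X := ∑ i, u i with hX
  have hdR : (0 : ℝ) < (d : ℝ) := by exact_mod_cast hd
  have hXle : X ≤ (d : ℝ) * u i₀ := by
    calc X ≤ ∑ _i : Fin d, u i₀ := Finset.sum_le_sum fun i _ => hi₀ i
      _ = _ := by simp
  have hui₀ : ρ / d ≤ u i₀ := by
    rw [div_le_iff₀ hdR]
    linarith
  set s₀ := σ.symm i₀ with hs₀
  have hσs₀ : σ s₀ = i₀ := by simp [hs₀]
  set n0 := S.nn k 0 with hn0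
  set Np := max n0 0 with hNp
  have hNp0 : 0 ≤ Np := le_max_right _ _
  have hnle : ∀ s : Fin d, S.nn k s ≤ Np := fun s =>
    (nn_sorted_le hk (Nat.zero_le _) s.isLt).trans (le_max_left _ _)
  have hsumσ : ∑ s : Fin d, u (σ s) = X := Equiv.sum_comp σ u
  set c := 1 + S.Gam 0 with hc
  set E := Real.exp (n0 - c) with hE
  have hE0 : 0 < E := Real.exp_pos _
  have hfE : E ≤ S.fS k := by
    have := S.fS_ge hd k
    have e : S.nn k 0 - 1 - S.Gam 0 = n0 - c := by rw [hc]; ring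
    rwa [e] at this
  have hρ₂E : Np * ρ₂ ≤ E / 2 := by
    by_cases hn : n0 ≤ 0
    · rw [hNp, max_eq_right hn]
      simp only [zero_mul]
      linarith
    · push Not at hn
      rw [hNp, max_eq_left hn.le, hE, sub_eq_add_neg, Real.exp_add]
      have h3 : n0 ≤ Real.exp n0 := by linarith [Real.add_one_le_exp n0]
      have h4 : n0 * ρ₂ ≤ n0 * (Real.exp (-c) / 2) := mul_le_mul_of_nonneg_left hρ₂ hn.le
      have h5 : n0 * (Real.exp (-c) / 2) ≤ Real.exp n0 * (Real.exp (-c) / 2) :=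
        mul_le_mul_of_nonneg_right h3 (by positivity)
      nlinarith
  have hNpX : Np * X ≤ Np * ρ₂ := mul_le_mul_of_nonneg_left h2 hNp0
  have hgoal : ∀ B : ℝ, B ≤ -min (ρ / d) (S.del (d - 1) * Real.exp (-(3 + S.GamT)) / 2) →
      S.val u σ k ≤ B → S.val u σ k ≤ -min (ρ / d) (S.del (d - 1) * Real.exp (-(3 + S.GamT)) / 2) :=
    fun B hB h => h.trans hB
  by_cases ha : S.nn k s₀ ≤ -1
  · -- the position of the largest coordinate is negative
    have hP : ∑ s : Fin d, S.nn k s * u (σ s) ≤ Np * X - u i₀ := by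
      have h3 : ∑ s : Fin d, S.nn k s * u (σ s)
          ≤ ∑ s : Fin d, (Np * u (σ s) - if s = s₀ then u i₀ else 0) := by
        apply Finset.sum_le_sum
        intro s _
        by_cases hs : s = s₀
        · subst hs
          rw [if_pos rfl, hσs₀]
          have := hu i₀
          nlinarith
        · rw [if_neg hs, sub_zero]
          exact mul_le_mul_of_nonneg_right (hnle s) (hu _).le
      refine h3.trans (le_of_eq ?_)
      rw [Finset.sum_sub_distrib, ← Finset.mul_sum, hsumσ, Finset.sum_ite_eq' Finset.univ s₀]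
      simp
    refine hgoal (-(ρ / d)) (neg_le_neg (min_le_left _ _)) ?_
    unfold val
    linarith
  · push Not at ha
    have hP : ∑ s : Fin d, S.nn k s * u (σ s) ≤ Np * X := by
      calc ∑ s : Fin d, S.nn k s * u (σ s) ≤ ∑ s : Fin d, Np * u (σ s) :=
            Finset.sum_le_sum fun s _ => mul_le_mul_of_nonneg_right (hnle s) (hu _).le
        _ = Np * X := by rw [← Finset.mul_sum, hsumσ]
    have hb : S.del (d - 1) * Real.exp (-(3 + S.GamT)) ≤ S.fS k := by
      refine le_trans ?_ (S.fS_ge_pos s₀ k)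
      apply mul_le_mul_of_nonneg_left _ (S.del_pos _).le
      apply Real.exp_le_exp.mpr
      linarith
    refine hgoal (-(S.del (d - 1) * Real.exp (-(3 + S.GamT)) / 2))
      (neg_le_neg (min_le_right _ _)) ?_
    unfold val
    linarith

/-- The lattice point with all positions equal to `-L`. -/
def kLow (S : Scheme d) (L : ℕ) : ℕ → ℤ :=
  fun s => if s < d then -(L : ℤ) * (S.KK : ℤ) ^ s else 0

lemma nn_kLow (L : ℕ) {s : ℕ} (hs : s < d) : S.nn (S.kLow L) s = -(L : ℝ) := by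
  unfold nn kLow del
  rw [if_pos hs]
  push_cast
  have := S.KK_cast_pos
  field_simp

lemma kLow_sorted (L : ℕ) : S.Sorted (S.kLow L) := by
  intro s hs
  rw [nn_kLow L hs, nn_kLow L (by omega)]

lemma kLow_canon (L : ℕ) : Canon d (S.kLow L) := by
  intro s hs
  have : ¬ s < d := by omega
  simp [kLow, this]

lemma fS_kLow_le (L : ℕ) :
    S.fS (S.kLow L) ≤ 2 * (d : ℝ) * Real.exp (S.GamT - L) := by
  unfold fS
  have h : ∀ r ∈ range d, S.PsiAt r (S.kLow L) (S.kLow L r)
      ≤ 2 * Real.exp (S.GamT - L) := by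
    intro r hr
    have hrd := Finset.mem_range.mp hr
    have h1 := S.PsiAt_le hrd (S.kLow L) (S.kLow L r)
    refine h1.trans ?_
    apply mul_le_mul_of_nonneg_left _ (by norm_num)
    apply Real.exp_le_exp.mpr
    have hL := S.level_all (r + 1) hrd
    have h3 := hL.bd (S.kLow L) r (Nat.lt_succ_self _) (S.kLow L r - 1)
    have hG := Gam_le_GamT (S := S) hrd
    have h4 := nn_kLow (S := S) L hrd
    unfold th
    unfold nn at h4
    push_cast
    have := (abs_le.mp h3).2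
    have hdp := S.del_pos r
    nlinarith
  refine (Finset.sum_le_sum h).trans (le_of_eq ?_)
  rw [Finset.sum_const, Finset.card_range, nsmul_eq_mul]
  ring

/-- The value at the low lattice points. -/
lemma val_kLow (L : ℕ) (u : Fin d → ℝ) :
    -(L : ℝ) * ∑ i, u i - 2 * (d : ℝ) * Real.exp (S.GamT - L) ≤ S.val u 1 (S.kLow L) := by
  unfold val
  have h := fS_kLow_le (S := S) L
  have e : ∑ s : Fin d, S.nn (S.kLow L) s * u ((1 : Equiv.Perm (Fin d)) s)
      = -(L : ℝ) * ∑ i, u i := by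
    rw [Finset.mul_sum]
    apply Finset.sum_congr rfl
    intro s _
    rw [nn_kLow L s.isLt]
    rfl
  rw [e]
  linarith

/-- The lattice structure of pairings. -/
lemma ip_lattice (σ : Equiv.Perm (Fin d)) (K : ℕ → ℤ) (w : Fin d → ℤ) :
    ∃ z : ℤ, ∑ i, (w i : ℝ) * S.nn K (σ.symm i) = (z : ℝ) * S.del (d - 1) := by
  refine ⟨∑ i, w i * (K (σ.symm i) * (S.KK : ℤ) ^ (d - 1 - (σ.symm i : ℕ))), ?_⟩
  push_cast
  rw [Finset.sum_mul]
  apply Finset.sum_congr rfl
  intro i _
  have h := del_pow_rel S (b := (σ.symm i : ℕ)) (r := d - 1) (by have := (σ.symm i).isLt; omega)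
  unfold nn
  rw [← h]
  ring

/-- Nonzero pairings are at least the finest mesh. -/
lemma ip_gap (σ : Equiv.Perm (Fin d)) (K : ℕ → ℤ) (w : Fin d → ℤ)
    (h : ∑ i, (w i : ℝ) * S.nn K (σ.symm i) ≠ 0) :
    S.del (d - 1) ≤ |∑ i, (w i : ℝ) * S.nn K (σ.symm i)| := by
  obtain ⟨z, hz⟩ := ip_lattice (S := S) σ K w
  rw [hz] at h ⊢
  have hz0 : z ≠ 0 := by
    intro h0
    apply h
    rw [h0]
    simp
  have h1 : (1 : ℝ) ≤ |(z : ℝ)| := by
    have : (1 : ℤ) ≤ |z| := Int.one_le_abs hz0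
    rw [← Int.cast_abs]
    exact_mod_cast this
  rw [abs_mul, abs_of_pos (S.del_pos _)]
  have := S.del_pos (d - 1)
  nlinarith

/-- The value of the Lyapunov function at a positive point. -/
def WW (S : Scheme d) (y : Fin d → ℝ) : ℝ :=
  open Classical in
  if h : ∃ p : Equiv.Perm (Fin d) × (ℕ → ℤ), S.IsMax y p.1 p.2
  then S.val y h.choose.1 h.choose.2 else 0

lemma WW_of_max {y : Fin d → ℝ} {σ : Equiv.Perm (Fin d)} {K : ℕ → ℤ} (hM : S.IsMax y σ K) :
    S.WW y = S.val y σ K := by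
  have h : ∃ p : Equiv.Perm (Fin d) × (ℕ → ℤ), S.IsMax y p.1 p.2 := ⟨(σ, K), hM⟩
  unfold WW
  rw [dif_pos h]
  have hs := h.choose_spec
  exact le_antisymm (hM.max _ _ hs.sorted hs.canon) (hs.max _ _ hM.sorted hM.canon)

lemma val_le_WW (hd : 0 < d) {y : Fin d → ℝ} (hy : ∀ i, 0 < y i) (σ' : Equiv.Perm (Fin d))
    {k' : ℕ → ℤ} (h1 : S.Sorted k') (h2 : Canon d k') : S.val y σ' k' ≤ S.WW y := by
  obtain ⟨σ, K, hM⟩ := S.exists_max hd hy
  rw [WW_of_max hM]
  exact hM.max _ _ h1 h2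

lemma WW_le (hd : 0 < d) {y : Fin d → ℝ} (hy : ∀ i, 0 < y i) {B : ℝ}
    (h : ∀ (σ : Equiv.Perm (Fin d)) (k : ℕ → ℤ), S.Sorted k → S.val y σ k ≤ B) : S.WW y ≤ B := by
  obtain ⟨σ, K, hM⟩ := S.exists_max hd hy
  rw [WW_of_max hM]
  exact h _ _ hM.sorted

/-- A lower bound valid on all the orthant. -/
lemma WW_ge_const (hd : 0 < d) {y : Fin d → ℝ} (hy : ∀ i, 0 < y i) :
    -S.fS (S.kLow 0) - 0 ≤ S.WW y := by
  have h1 := val_le_WW (S := S) hd hy 1 (kLow_sorted 0) (kLow_canon 0)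
  refine le_trans (le_of_eq ?_) h1
  unfold val
  have : ∀ s : Fin d, S.nn (S.kLow 0) s = 0 := fun s => by
    rw [nn_kLow 0 s.isLt]
    simp
  simp [this]

/-- Near the origin the maximizers have negative positions. -/
lemma q_neg {mp : ℝ} (hS : S.Sharp mp) {x : Fin d → ℝ} (hx : ∀ i, 0 < x i)
    {σ : Equiv.Perm (Fin d)} {k : ℕ → ℤ} (hM : S.IsMax x σ k) {i : Fin d}
    (hi : x i < Real.exp (-(Real.log 2 + 1 + S.GamT))) : S.nn k (σ.symm i) < 0 := by
  have h1 := max_near_log hS hx hM i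
  have h2 := (abs_le.mp h1).2
  have h3 : Real.log (x i) < -(Real.log 2 + 1 + S.GamT) := by
    have h4 := Real.log_lt_log (hx i) hi
    rwa [Real.log_exp] at h4
  unfold GamT at h3
  linarith

end Scheme

end

end Vale.Agent.P072G
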