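import Vale.Agent.P072G.Psi

/-!
The dual potential on sorted lattice points, and the box lemma for its maximizers.
-/

namespace Vale.Agent.P072G

open Finset

noncomputable section

/-- The unit difference vector between consecutive positions. -/
def evec (r : ℕ) : ℕ → ℤ := fun s => if s = r then 1 else if s = r + 1 then -1 else 0

/-- Normal form outside the first `d` positions. -/
def Canon (d : ℕ) (k : ℕ → ℤ) : Prop := ∀ s, d ≤ s → k s = 0

namespace Scheme

variable {d : ℕ} (S : Scheme d)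

/-- Extra requirements on the scheme: rank gaps and smallness. -/
structure Sharp (mp : ℝ) : Prop where
  mp_nonneg : 0 ≤ mp
  mp_le : ∀ r, r < d → mp ≤ S.A r
  ev_mem : ∀ r, r + 1 < d → evec r ∈ S.F (r + 1)
  small : 8 * (d : ℝ) * Real.exp (-mp) ≤ S.del (d - 1)

/-- Sorted lattice points. -/
def Sorted (k : ℕ → ℤ) : Prop := ∀ s, s + 1 < d → S.nn k (s + 1) ≤ S.nn k s

/-- The potential of a sorted point. -/
def fS (k : ℕ → ℤ) : ℝ := ∑ r ∈ range d, S.PsiAt r k (k r)

/-- The pairing minus the potential. -/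
def val (x : Fin d → ℝ) (σ : Equiv.Perm (Fin d)) (k : ℕ → ℤ) : ℝ :=
  ∑ s : Fin d, S.nn k s * x (σ s) - S.fS k

/-- A maximizer. -/
structure IsMax (x : Fin d → ℝ) (σ : Equiv.Perm (Fin d)) (k : ℕ → ℤ) : Prop where
  sorted : S.Sorted k
  canon : Canon d k
  max : ∀ σ' k', S.Sorted k' → Canon d k' → S.val x σ' k' ≤ S.val x σ k

/-- Upper end of the value of the logarithm. -/
def Up (r : ℕ) (k : ℕ → ℤ) : ℝ := S.th r k (k r)

/-- Lower end of the value of the logarithm. -/
def Um (r : ℕ) (k : ℕ → ℤ) : ℝ := S.th r k (k r - 1)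

lemma Up_eq (r : ℕ) (k : ℕ → ℤ) : S.Up r k = S.nn k r + S.bpf k r := rfl

lemma Um_eq (r : ℕ) (k : ℕ → ℤ) : S.Um r k = S.nn k r + S.bmf k r := by
  unfold Um th nn bmf
  push_cast
  ring

lemma del_anti {a b : ℕ} (h : a ≤ b) : S.del b ≤ S.del a := by
  unfold del
  have hK : (1 : ℝ) ≤ (S.KK : ℝ) := by exact_mod_cast S.KK_pos
  apply one_div_le_one_div_of_le (by positivity)
  exact pow_le_pow_right₀ hK h

lemma del_pow_rel {b r : ℕ} (h : b ≤ r) : (S.KK : ℝ) ^ (r - b) * S.del r = S.del b := by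
  unfold del
  have hK := S.KK_cast_pos
  have e : r = (r - b) + b := by omega
  have e2 : (S.KK : ℝ) ^ r = (S.KK : ℝ) ^ (r - b) * (S.KK : ℝ) ^ b := by
    rw [← pow_add, ← e]
  rw [e2]
  field_simp

lemma nn_gap {k : ℕ → ℤ} {a : ℕ} (hpos : 0 < a) (h : S.nn k a < S.nn k (a - 1)) :
    S.nn k a + S.del a ≤ S.nn k (a - 1) := by
  have e : S.del (a - 1) = (S.KK : ℝ) * S.del a := by
    have := S.del_rel (s := a - 1) (r := a) (by omega)
    have e2 : a - 1 - (a - 1) = 0 := by omega
    rw [e2, pow_zero, mul_one] at this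
    exact this.symm
  unfold nn at h ⊢
  rw [e] at h ⊢
  have hd := S.del_pos a
  have h1 : (k a : ℝ) < (k (a - 1) : ℝ) * (S.KK : ℝ) := by
    have : (k a : ℝ) * S.del a < ((k (a - 1) : ℝ) * (S.KK : ℝ)) * S.del a := by
      calc (k a : ℝ) * S.del a < (k (a - 1) : ℝ) * ((S.KK : ℝ) * S.del a) := h
        _ = _ := by ring
    exact lt_of_mul_lt_mul_right this hd.le
  have h2 : k a < k (a - 1) * (S.KK : ℤ) := by exact_mod_cast h1
  have h3 : k a + 1 ≤ k (a - 1) * (S.KK : ℤ) := h2
  have h4 : (k a : ℝ) + 1 ≤ (k (a - 1) : ℝ) * (S.KK : ℝ) := by exact_mod_cast h3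
  nlinarith

section gaps

variable {S} {mp : ℝ}

lemma ipr_evec (r : ℕ) (k : ℕ → ℤ) : S.ipr (r + 2) (evec r) k = S.nn k r - S.nn k (r + 1) := by
  rw [S.ipr_succ, S.ipr_succ]
  have h0 : S.ipr r (evec r) k = 0 := by
    unfold ipr
    apply Finset.sum_eq_zero
    intro s hs
    have hs' := Finset.mem_range.mp hs
    have h1 : s ≠ r := by omega
    have h2 : s ≠ r + 1 := by omega
    simp [evec, h1, h2]
  rw [h0]
  simp [evec]
  ring

lemma mb_evec (r : ℕ) (bm bp : ℕ → ℝ) (h1 : bm r ≤ bp r) (h2 : bm (r + 1) ≤ bp (r + 1)) :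
    mb (r + 2) (evec r) bm bp = bm r - bp (r + 1) := by
  rw [mb_succ, mb_succ]
  have h0 : mb r (evec r) bm bp = 0 := by
    unfold mb
    apply Finset.sum_eq_zero
    intro s hs
    have hs' := Finset.mem_range.mp hs
    have h1 : s ≠ r := by omega
    have h2 : s ≠ r + 1 := by omega
    simp [evec, h1, h2]
  rw [h0]
  have e1 : ((evec r r : ℤ) : ℝ) = 1 := by simp [evec]
  have e2 : ((evec r (r + 1) : ℤ) : ℝ) = -1 := by simp [evec]
  rw [e1, e2]
  simp only [one_mul, neg_mul, zero_add]
  rw [min_eq_left h1, min_eq_right (by linarith)]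
  ring

lemma box_le' {r : ℕ} (hr : r < d) (k : ℕ → ℤ) : S.bmf k r ≤ S.bpf k r := by
  have h := ((S.level_all (r + 1) hr).wid k r (Nat.lt_succ_self r)).1
  have := S.del_pos r
  linarith

lemma gap_pp (hS : S.Sharp mp) {r : ℕ} (hr : r + 1 < d) (k : ℕ → ℤ)
    (h : S.nn k (r + 1) < S.nn k r) : S.bpf k (r + 1) + mp ≤ S.bmf k r := by
  have hL := S.level_all (r + 2) hr
  have hip : 0 < S.ipr (r + 2) (evec r) k := by
    rw [ipr_evec]
    linarith
  have hI := hL.inv k (r + 1) rfl (evec r) (hS.ev_mem r hr) hip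
  rw [mb_evec r _ _ (box_le' (by omega) k) (box_le' hr k)] at hI
  have hW : 0 ≤ Wd (r + 2) (S.bmf k) (S.bpf k) := Wd_nonneg hL k
  have hB := S.B_nonneg (r + 1)
  have hm := hS.mp_le (r + 1) hr
  have : 0 ≤ S.B (r + 1) * Wd (r + 2) (S.bmf k) (S.bpf k) := mul_nonneg hB hW
  linarith

lemma Up_gap (hS : S.Sharp mp) {r : ℕ} (hr : r + 1 < d) (k : ℕ → ℤ)
    (h : S.nn k (r + 1) < S.nn k r) : S.Up (r + 1) k + mp ≤ S.Um r k := by
  rw [S.Up_eq, S.Um_eq]
  have := gap_pp hS hr k h
  linarith

lemma Um_gap (hS : S.Sharp mp) {r : ℕ} (hr : r + 1 < d) (k : ℕ → ℤ)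
    (h : S.nn k (r + 1) ≤ S.nn k r) : S.Um (r + 1) k + mp ≤ S.Um r k := by
  set k1 := Function.update k (r + 1) (k (r + 1) - 1) with hk1
  have e1 : k1 (r + 1) = k (r + 1) - 1 := by simp [hk1]
  have e2 : ∀ s, s ≠ r + 1 → k1 s = k s := by
    intro s hs
    simp [hk1, Function.update_of_ne hs]
  have h1 : S.nn k1 (r + 1) < S.nn k1 r := by
    unfold nn
    rw [e1, e2 r (by omega)]
    unfold nn at h
    push_cast
    have := S.del_pos (r + 1)
    nlinarith
  have h2 := Up_gap hS hr k1 h1
  have e3 : S.Up (r + 1) k1 = S.Um (r + 1) k := by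
    unfold Up Um
    rw [e1]
    apply S.th_congr
    intro s hs
    exact e2 s (by omega)
  have e4 : S.Um r k1 = S.Um r k := by
    unfold Um
    rw [e2 r (by omega)]
    apply S.th_congr
    intro s hs
    exact e2 s (by omega)
  rw [e3, e4] at h2
  exact h2

lemma Um_chain (hS : S.Sharp mp) {k : ℕ → ℤ} (hk : S.Sorted k) {b : ℕ} :
    ∀ r, b < r → r < d → S.Um r k + mp ≤ S.Um b k := by
  intro r
  induction r with
  | zero => intro h; omega
  | succ r ih =>
    intro h1 h2
    have h3 := Um_gap hS h2 k (hk r h2)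
    rcases Nat.lt_succ_iff_lt_or_eq.mp h1 with h | rfl
    · have h4 := ih h (by omega)
      have h5 := hS.mp_nonneg
      linarith
    · exact h3

lemma nn_sorted_le {k : ℕ → ℤ} (hk : S.Sorted k) {a b : ℕ} (hab : a ≤ b) (hb : b < d) :
    S.nn k b ≤ S.nn k a := by
  induction b, hab using Nat.le_induction with
  | base => exact le_rfl
  | succ b hab ih =>
    exact (hk b hb).trans (ih (by omega))

lemma exists_top {k : ℕ → ℤ} (hk : S.Sorted k) : ∀ s, s < d →
    ∃ a, a ≤ s ∧ S.nn k a = S.nn k s ∧ (a = 0 ∨ S.nn k a < S.nn k (a - 1)) := by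
  intro s
  induction s with
  | zero => exact fun _ => ⟨0, le_rfl, rfl, Or.inl rfl⟩
  | succ s ih =>
    intro hs
    rcases lt_or_eq_of_le (hk s hs) with h | h
    · exact ⟨s + 1, le_rfl, rfl, Or.inr (by simpa using h)⟩
    · obtain ⟨a, h1, h2, h3⟩ := ih (by omega)
      exact ⟨a, by omega, by rw [h2, h], h3⟩

lemma exists_bot {k : ℕ → ℤ} (hk : S.Sorted k) : ∀ n s, s + n + 1 = d →
    ∃ b, s ≤ b ∧ b < d ∧ S.nn k b = S.nn k s ∧ (b + 1 = d ∨ S.nn k (b + 1) < S.nn k b) := by
  intro n
  induction n with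
  | zero => exact fun s hs => ⟨s, le_rfl, by omega, rfl, Or.inl (by omega)⟩
  | succ n ih =>
    intro s hs
    have hs1 : s + 1 < d := by omega
    rcases lt_or_eq_of_le (hk s hs1) with h | h
    · exact ⟨s, le_rfl, by omega, rfl, Or.inr h⟩
    · obtain ⟨b, h1, h2, h3, h4⟩ := ih (s + 1) (by omega)
      exact ⟨b, by omega, h2, by rw [h3, h], h4⟩

end gaps

section raise

variable {S} {mp : ℝ}

theorem raise (hS : S.Sharp mp) {x : Fin d → ℝ} {σ : Equiv.Perm (Fin d)} {k : ℕ → ℤ}
    (hM : S.IsMax x σ k) (a : Fin d)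
    (ha : (a : ℕ) = 0 ∨ S.nn k a < S.nn k ((a : ℕ) - 1)) :
    x (σ a) ≤ 2 * Real.exp (S.Up a k) := by
  set k' := Function.update k (a : ℕ) (k a + 1) with hk'
  have e1 : k' a = k a + 1 := by simp [hk']
  have e2 : ∀ s : ℕ, s ≠ a → k' s = k s := by
    intro s hs
    simp [hk', Function.update_of_ne hs]
  have hda := S.del_pos a
  have n1 : S.nn k' a = S.nn k a + S.del a := by
    unfold nn
    rw [e1]
    push_cast
    ring
  have n2 : ∀ s : ℕ, s ≠ a → S.nn k' s = S.nn k s := by
    intro s hs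
    unfold nn
    rw [e2 s hs]
  have hsorted : S.Sorted k' := by
    intro s hs
    by_cases h1 : s + 1 = a
    · have h2 : s ≠ a := by omega
      rw [show s + 1 = (a : ℕ) from h1, n1, n2 s h2]
      rcases ha with h | h
      · omega
      · have h3 := S.nn_gap (a := a) (k := k) (by omega) h
        have e3 : (a : ℕ) - 1 = s := by omega
        rw [e3] at h3
        exact h3
    · by_cases h2 : s = a
      · rw [n2 (s + 1) h1, h2, n1]
        have h3 := hM.sorted s hs
        rw [h2] at h3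
        linarith
      · rw [n2 (s + 1) h1, n2 s h2]
        exact hM.sorted s hs
  have hcanon : Canon d k' := by
    intro s hs
    rw [e2 s (by have := a.isLt; omega)]
    exact hM.canon s hs
  have hval := hM.max σ k' hsorted hcanon
  have hsum : ∑ s : Fin d, S.nn k' s * x (σ s)
      = ∑ s : Fin d, S.nn k s * x (σ s) + S.del a * x (σ a) := by
    have h1 : ∀ s : Fin d, S.nn k' s * x (σ s) = S.nn k s * x (σ s)
        + (if s = a then S.del a * x (σ a) else 0) := by
      intro s
      by_cases h : s = a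
      · subst h
        simp only [if_true]
        rw [n1]
        ring
      · have h' : (s : ℕ) ≠ a := fun e => h (Fin.ext e)
        rw [n2 s h', if_neg h, add_zero]
    rw [Finset.sum_congr rfl (fun s _ => h1 s), Finset.sum_add_distrib]
    simp
  set E := Real.exp (S.Up a k) with hE
  have hE0 : 0 < E := Real.exp_pos _
  have hf : S.fS k' - S.fS k ≤ S.del a * E + (d : ℝ) * (2 * Real.exp (S.Up a k - mp)) := by
    unfold fS
    rw [← Finset.sum_sub_distrib]
    have hterm : ∀ r ∈ range d, S.PsiAt r k' (k' r) - S.PsiAt r k (k r)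
        ≤ (if r = (a : ℕ) then S.del a * E else 0) + 2 * Real.exp (S.Up a k - mp) := by
      intro r hr
      have hr' := Finset.mem_range.mp hr
      have hexp : 0 < 2 * Real.exp (S.Up a k - mp) := by positivity
      rcases lt_trichotomy r (a : ℕ) with h | h | h
      · have e3 : k' r = k r := e2 r (by omega)
        have e4 : S.PsiAt r k' (k' r) = S.PsiAt r k (k r) := by
          rw [e3]
          apply S.PsiAt_congr
          intro s hs
          exact e2 s (by omega)
        rw [e4, if_neg (by omega)]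
        linarith
      · subst h
        rw [if_pos rfl, e1]
        have e4 : S.PsiAt a k' (k a + 1) = S.PsiAt a k (k a + 1) := by
          apply S.PsiAt_congr
          intro s hs
          exact e2 s (by omega)
        rw [e4, S.PsiAt_step a.isLt]
        have : S.del a * Real.exp (S.th a k (k a)) = S.del a * E := rfl
        linarith
      · rw [if_neg (by omega), zero_add]
        have h1 := S.PsiAt_le hr' k' (k' r)
        have h2 := S.PsiAt_nonneg (r := r) k (k r)
        have h3 : S.Um r k' + mp ≤ S.Um a k' := Um_chain hS hsorted r h hr'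
        have e3 : S.Um a k' = S.Up a k := by
          unfold Um Up
          rw [e1]
          have : k a + 1 - 1 = k a := by ring
          rw [this]
          apply S.th_congr
          intro s hs
          exact e2 s (by omega)
        have h4 : S.th r k' (k' r - 1) ≤ S.Up a k - mp := by
          have : S.Um r k' = S.th r k' (k' r - 1) := rfl
          linarith
        have h5 := Real.exp_le_exp.mpr h4
        linarith
    refine (Finset.sum_le_sum hterm).trans ?_
    rw [Finset.sum_add_distrib, Finset.sum_ite_eq', Finset.sum_const, Finset.card_range,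
      if_pos (Finset.mem_range.mpr a.isLt), nsmul_eq_mul]
  have hmain : S.del a * x (σ a) ≤ S.fS k' - S.fS k := by
    unfold val at hval
    rw [hsum] at hval
    linarith
  have hsmall : 8 * (d : ℝ) * Real.exp (-mp) ≤ S.del a :=
    hS.small.trans (S.del_anti (by have := a.isLt; omega))
  have hexp : Real.exp (S.Up a k - mp) = E * Real.exp (-mp) := by
    rw [hE, ← Real.exp_add]
    ring_nf
  rw [hexp] at hf
  have h1 : S.del a * x (σ a) ≤ S.del a * (2 * E) := by
    have h2 : 0 ≤ E * (8 * (d : ℝ) * Real.exp (-mp)) / 8 := by positivity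
    have h3 : E * (8 * (d : ℝ) * Real.exp (-mp)) ≤ E * S.del a :=
      mul_le_mul_of_nonneg_left hsmall hE0.le
    nlinarith
  exact le_of_mul_le_mul_left h1 hda

/-- Exchange of two positions with equal values. -/
lemma val_swap (x : Fin d → ℝ) (σ : Equiv.Perm (Fin d)) (k : ℕ → ℤ) {a s : Fin d}
    (h : S.nn k a = S.nn k s) : S.val x (σ * Equiv.swap a s) k = S.val x σ k := by
  unfold val
  congr 1
  have e1 : ∑ t : Fin d, S.nn k t * x ((σ * Equiv.swap a s) t)
      = ∑ t : Fin d, S.nn k (Equiv.swap a s t) * x ((σ * Equiv.swap a s) (Equiv.swap a s t)) :=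
    (Equiv.sum_comp (Equiv.swap a s)
      (fun t : Fin d => S.nn k t * x ((σ * Equiv.swap a s) t))).symm
  rw [e1]
  apply Finset.sum_congr rfl
  intro t _
  have e2 : (σ * Equiv.swap a s) (Equiv.swap a s t) = σ t := by simp
  rw [e2]
  congr 1
  by_cases h1 : t = a
  · subst h1
    simp [h]
  · by_cases h2 : t = s
    · subst h2
      simp [h]
    · rw [Equiv.swap_apply_of_ne_of_ne h1 h2]

lemma IsMax.swap {x : Fin d → ℝ} {σ : Equiv.Perm (Fin d)} {k : ℕ → ℤ} (hM : S.IsMax x σ k)
    {a s : Fin d} (h : S.nn k a = S.nn k s) : S.IsMax x (σ * Equiv.swap a s) k :=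
  ⟨hM.sorted, hM.canon, fun σ' k' h1 h2 => by
    rw [val_swap x σ k h]
    exact hM.max σ' k' h1 h2⟩

/-- Upper bound for any coordinate through the top of its block. -/
theorem box_upper (hS : S.Sharp mp) {x : Fin d → ℝ} {σ : Equiv.Perm (Fin d)} {k : ℕ → ℤ}
    (hM : S.IsMax x σ k) (s a : Fin d) (h : S.nn k a = S.nn k s)
    (ha : (a : ℕ) = 0 ∨ S.nn k a < S.nn k ((a : ℕ) - 1)) :
    x (σ s) ≤ 2 * Real.exp (S.Up a k) := by
  have h1 := raise hS (hM.swap h) a ha
  simpa using h1

end raise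

end Scheme

end

end Vale.Agent.P072G
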