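import Vale.Agent.P072G.Flow

/-!
Projection of a network on a subset of the species; the other species act as bounded rates.
-/

namespace Vale.Agent.P072G

open Finset Vale.Agent.P072

noncomputable section

variable {d n : ℕ} {ι : Type}

/-- Restriction of the complexes to a subset of the species. -/
def pj (e : Fin n → Fin d) (a : ι → Fin d → ℕ) : ι → Fin n → ℕ := fun r b => a r (e b)

lemma reach_pj {src tgt : ι → Fin d → ℕ} (e : Fin n → Fin d) {y y' : Fin d → ℕ}
    (h : Reach src tgt y y') :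
    Reach (pj e src) (pj e tgt) (fun b => y (e b)) (fun b => y' (e b)) := by
  induction h with
  | refl => exact Relation.ReflTransGen.refl
  | tail _ hstep ih =>
    obtain ⟨r, h1, h2⟩ := hstep
    refine ih.tail ⟨r, ?_, ?_⟩
    · funext b
      simp only [pj, h1]
    · funext b
      simp only [pj, h2]

lemma wr_pj {src tgt : ι → Fin d → ℕ} (e : Fin n → Fin d) (WR : WeaklyRev src tgt) :
    WeaklyRev (pj e src) (pj e tgt) := fun r => reach_pj e (WR r)

lemma vec_pj (src tgt : ι → Fin d → ℕ) (e : Fin n → Fin d) (r : ι) (b : Fin n) :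
    vec (pj e src) (pj e tgt) r b = vec src tgt r (e b) := rfl

/-- The species outside the subset. -/
def cmp (e : Fin n → Fin d) : Finset (Fin d) := (Finset.univ.image e)ᶜ

lemma mem_cmp {e : Fin n → Fin d} {l : Fin d} : l ∈ cmp e ↔ l ∉ Set.range e := by
  simp [cmp]

/-- The factor coming from the species outside the subset. -/
def compF (e : Fin n → Fin d) (src : ι → Fin d → ℕ) (x : Fin d → ℝ) (r : ι) : ℝ :=
  ∏ l ∈ cmp e, x l ^ src r l

lemma prod_split {e : Fin n → Fin d} (he : Function.Injective e) (src : ι → Fin d → ℕ)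
    (x : Fin d → ℝ) (r : ι) :
    ∏ i, x i ^ src r i = compF e src x r * ∏ b, (fun b => x (e b)) b ^ pj e src r b := by
  have h1 := Finset.prod_mul_prod_compl (Finset.univ.image e) (fun i => x i ^ src r i)
  rw [← h1, Finset.prod_image (fun a _ b _ h => he h), mul_comm]
  rfl

/-- The total degree of the network. -/
def totDeg [Fintype ι] (src : ι → Fin d → ℕ) : ℕ := ∑ r, ∑ l, src r l

lemma deg_le [Fintype ι] (src : ι → Fin d → ℕ) (Z : Finset (Fin d)) (r : ι) :
    ∑ l ∈ Z, src r l ≤ totDeg src := by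
  calc ∑ l ∈ Z, src r l ≤ ∑ l, src r l :=
        Finset.sum_le_sum_of_subset (Finset.subset_univ _)
    _ ≤ totDeg src :=
        Finset.single_le_sum (f := fun r => ∑ l, src r l) (fun _ _ => Nat.zero_le _)
          (Finset.mem_univ r)

/-- Bounds for a product of powers. -/
lemma prod_bound {β : ℝ} (hβ : 0 < β) (hβ1 : β ≤ 1) (Z : Finset (Fin d)) (s : Fin d → ℕ)
    (x : Fin d → ℝ) (hx : ∀ l ∈ Z, β ≤ x l ∧ x l ≤ 1 / β) {A : ℕ} (hA : ∑ l ∈ Z, s l ≤ A) :
    β ^ A ≤ ∏ l ∈ Z, x l ^ s l ∧ ∏ l ∈ Z, x l ^ s l ≤ (1 / β) ^ A := by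
  constructor
  · calc β ^ A ≤ β ^ (∑ l ∈ Z, s l) := pow_le_pow_of_le_one hβ.le hβ1 hA
      _ = ∏ l ∈ Z, β ^ s l := (Finset.prod_pow_eq_pow_sum _ _ _).symm
      _ ≤ ∏ l ∈ Z, x l ^ s l := by
          apply Finset.prod_le_prod
          · intro l _
            positivity
          · intro l hl
            exact pow_le_pow_left₀ hβ.le (hx l hl).1 _
  · have h1 : (1 : ℝ) ≤ 1 / β := by
      rw [le_div_iff₀ hβ]
      linarith
    calc ∏ l ∈ Z, x l ^ s l ≤ ∏ l ∈ Z, (1 / β) ^ s l := by
          apply Finset.prod_le_prod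
          · intro l hl
            have : 0 < x l := lt_of_lt_of_le hβ (hx l hl).1
            positivity
          · intro l hl
            have : 0 < x l := lt_of_lt_of_le hβ (hx l hl).1
            exact pow_le_pow_left₀ this.le (hx l hl).2 _
      _ = (1 / β) ^ (∑ l ∈ Z, s l) := Finset.prod_pow_eq_pow_sum _ _ _
      _ ≤ (1 / β) ^ A := pow_le_pow_right₀ h1 hA

/-- The width of the box for the frozen species. -/
def betaP (M η' : ℝ) : ℝ := min (min η' 1) (1 / max M 1)

lemma betaP_pos {M η' : ℝ} (hη' : 0 < η') : 0 < betaP M η' := by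
  unfold betaP
  have : 0 < max M 1 := lt_of_lt_of_le one_pos (le_max_right _ _)
  exact lt_min (lt_min hη' one_pos) (by positivity)

lemma betaP_le_one {M η' : ℝ} : betaP M η' ≤ 1 :=
  (min_le_left _ _).trans (min_le_right _ _)

lemma betaP_low {M η' t : ℝ} (h : η' ≤ t) : betaP M η' ≤ t :=
  ((min_le_left _ _).trans (min_le_left _ _)).trans h

lemma betaP_high {M η' t : ℝ} (hη' : 0 < η') (h : t ≤ M) : t ≤ 1 / betaP M η' := by
  have h0 := betaP_pos (M := M) hη'
  have hm : 0 < max M 1 := lt_of_lt_of_le one_pos (le_max_right _ _)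
  have h1 : betaP M η' ≤ 1 / max M 1 := min_le_right _ _
  have h2 : max M 1 ≤ 1 / betaP M η' := by
    rw [le_div_iff₀ h0]
    rw [le_div_iff₀ hm] at h1
    linarith
  exact h.trans ((le_max_left _ _).trans h2)

/-- The rate bound for the projected system. -/
def epsP [Fintype ι] (src : ι → Fin d → ℕ) (ε M η' : ℝ) : ℝ := ε * betaP M η' ^ totDeg src

lemma epsP_pos [Fintype ι] (src : ι → Fin d → ℕ) {ε M η' : ℝ} (hε : 0 < ε) (hη' : 0 < η') :
    0 < epsP src ε M η' := by
  unfold epsP
  have := betaP_pos (M := M) hη'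
  positivity

/-- The time-dependent rates of the projected system. -/
def kP (e : Fin n → Fin d) (src : ι → Fin d → ℕ) (k : ι → ℝ → ℝ) (x : ℝ → Fin d → ℝ) :
    ι → ℝ → ℝ := fun r t => k r t * compF e src (x t) r

lemma kP_box [Fintype ι] {e : Fin n → Fin d} {src : ι → Fin d → ℕ} {k : ι → ℝ → ℝ}
    {x : ℝ → Fin d → ℝ} {ε M η' t : ℝ} (hε : 0 < ε) (hη' : 0 < η')
    (hk : ∀ r, ε ≤ k r t ∧ k r t ≤ 1 / ε)
    (hx : ∀ l, l ∉ Set.range e → η' ≤ x t l ∧ x t l ≤ M) (r : ι) :
    epsP src ε M η' ≤ kP e src k x r t ∧ kP e src k x r t ≤ 1 / epsP src ε M η' := by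
  have hβ := betaP_pos (M := M) hη'
  have hb := prod_bound hβ betaP_le_one (cmp e) (src r) (x t) (fun l hl => by
    have h1 := hx l (mem_cmp.mp hl)
    exact ⟨betaP_low h1.1, betaP_high hη' h1.2⟩) (deg_le src (cmp e) r)
  have hk1 := hk r
  have hk0 : 0 < k r t := lt_of_lt_of_le hε hk1.1
  have hβA : 0 < betaP M η' ^ totDeg src := by positivity
  unfold epsP kP compF
  constructor
  · exact mul_le_mul hk1.1 hb.1 hβA.le hk0.le
  · have e1 : 1 / (ε * betaP M η' ^ totDeg src) = (1 / ε) * (1 / betaP M η') ^ totDeg src := by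
      rw [one_div_pow]
      field_simp
    rw [e1]
    refine mul_le_mul hk1.2 hb.2 ?_ (by positivity)
    apply Finset.prod_nonneg
    intro l hl
    have h1 := hx l (mem_cmp.mp hl)
    have : 0 < x t l := lt_of_lt_of_le hη' h1.1
    positivity

/-- The projection of a solution is a solution of the projected system. -/
lemma proj_sol [Fintype ι] {e : Fin n → Fin d} (he : Function.Injective e)
    {src tgt : ι → Fin d → ℕ} {k : ι → ℝ → ℝ} {x : ℝ → Fin d → ℝ} {D : Set ℝ} {t : ℝ}
    (h : HasDerivWithinAt x (∑ r, (k r t * ∏ i, x t i ^ src r i) • vec src tgt r) D t) :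
    HasDerivWithinAt (fun τ b => x τ (e b))
      (Fv (pj e src) (pj e tgt) (fun r => kP e src k x r t) (fun b => x t (e b))) D t := by
  rw [hasDerivWithinAt_pi] at h ⊢
  intro b
  have h1 := h (e b)
  have e1 : (∑ r, (k r t * ∏ i, x t i ^ src r i) • vec src tgt r) (e b)
      = Fv (pj e src) (pj e tgt) (fun r => kP e src k x r t) (fun b => x t (e b)) b := by
    rw [Fv_apply, Finset.sum_apply]
    apply Finset.sum_congr rfl
    intro r _
    rw [Pi.smul_apply, smul_eq_mul, prod_split he src (x t) r, vec_pj]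
    unfold kP
    ring
  rw [e1] at h1
  exact h1

end

end Vale.Agent.P072G
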