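import Vale.Agent.P072G.Tower

/-!
The sums `PsiAt`: potentials whose increments are the exponentials of the designed functions.
-/

namespace Vale.Agent.P072G

open Finset

noncomputable section

namespace Scheme

variable {d : ℕ} (S : Scheme d)

/-- The designed function with the linear part. -/
def th (r : ℕ) (k : ℕ → ℤ) (i : ℤ) : ℝ := (i : ℝ) * S.del r + S.bet r k i

lemma th_congr {r : ℕ} {k k' : ℕ → ℤ} (h : ∀ s < r, k s = k' s) (i : ℤ) :
    S.th r k i = S.th r k' i := by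
  unfold th
  rw [S.bet_congr r h i]

/-- Partial sums in the variable at level `r`. -/
def PsiAt (r : ℕ) (k : ℕ → ℤ) (q : ℤ) : ℝ :=
  ∑' j : ℕ, S.del r * Real.exp (S.th r k (q - 1 - (j : ℤ)))

lemma PsiAt_congr {r : ℕ} {k k' : ℕ → ℤ} (h : ∀ s < r, k s = k' s) (q : ℤ) :
    S.PsiAt r k q = S.PsiAt r k' q := by
  unfold PsiAt
  congr 1
  funext j
  rw [S.th_congr h]

lemma bet_mono {r : ℕ} (hr : r < d) (k : ℕ → ℤ) (i : ℤ) : S.bet r k (i - 1) ≤ S.bet r k i :=
  (S.level_all (r + 1) hr).mono k r (Nat.lt_succ_self r) i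

lemma th_step {r : ℕ} (hr : r < d) (k : ℕ → ℤ) (i : ℤ) : S.th r k (i - 1) + S.del r ≤ S.th r k i := by
  unfold th
  have := S.bet_mono hr k i
  push_cast
  linarith

lemma th_sub {r : ℕ} (hr : r < d) (k : ℕ → ℤ) (i : ℤ) (j : ℕ) :
    S.th r k (i - (j : ℤ)) + (j : ℝ) * S.del r ≤ S.th r k i := by
  induction j with
  | zero => simp
  | succ j ih =>
    have h := S.th_step hr k (i - (j : ℤ))
    have e : i - ((j + 1 : ℕ) : ℤ) = i - (j : ℤ) - 1 := by
      push_cast
      ring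
    rw [e]
    push_cast
    nlinarith

lemma th_le_of_le {r : ℕ} (hr : r < d) (k : ℕ → ℤ) {i i' : ℤ} (h : i ≤ i') :
    S.th r k i ≤ S.th r k i' := by
  obtain ⟨j, hj⟩ := Int.eq_ofNat_of_zero_le (sub_nonneg.mpr h)
  have e : i = i' - (j : ℤ) := by omega
  have := S.th_sub hr k i' j
  have hd := S.del_pos r
  rw [e]
  have : 0 ≤ (j : ℝ) * S.del r := by positivity
  linarith

lemma term_le {r : ℕ} (hr : r < d) (k : ℕ → ℤ) (q : ℤ) (j : ℕ) :
    S.del r * Real.exp (S.th r k (q - 1 - (j : ℤ))) ≤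
      S.del r * Real.exp (S.th r k (q - 1)) * Real.exp (-S.del r) ^ j := by
  have h := S.th_sub hr k (q - 1) j
  rw [← Real.exp_nat_mul, mul_assoc, ← Real.exp_add]
  apply mul_le_mul_of_nonneg_left _ (S.del_pos r).le
  apply Real.exp_le_exp.mpr
  have : (j : ℝ) * -S.del r = - ((j : ℝ) * S.del r) := by ring
  rw [this]
  linarith

lemma ratio_lt (r : ℕ) : Real.exp (-S.del r) < 1 := by
  rw [Real.exp_lt_one_iff]
  linarith [S.del_pos r]

lemma summable_term {r : ℕ} (hr : r < d) (k : ℕ → ℤ) (q : ℤ) :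
    Summable (fun j : ℕ => S.del r * Real.exp (S.th r k (q - 1 - (j : ℤ)))) := by
  have hs : Summable (fun j : ℕ => S.del r * Real.exp (S.th r k (q - 1)) * Real.exp (-S.del r) ^ j) :=
    (summable_geometric_of_lt_one (Real.exp_pos _).le (S.ratio_lt r)).mul_left _
  refine Summable.of_nonneg_of_le (fun j => ?_) (fun j => S.term_le hr k q j) hs
  have := S.del_pos r
  positivity

lemma PsiAt_nonneg {r : ℕ} (k : ℕ → ℤ) (q : ℤ) : 0 ≤ S.PsiAt r k q := by
  unfold PsiAt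
  apply tsum_nonneg
  intro j
  have := S.del_pos r
  positivity

lemma PsiAt_step {r : ℕ} (hr : r < d) (k : ℕ → ℤ) (q : ℤ) :
    S.PsiAt r k (q + 1) = S.del r * Real.exp (S.th r k q) + S.PsiAt r k q := by
  unfold PsiAt
  have hsum := S.summable_term hr k (q + 1)
  rw [hsum.tsum_eq_zero_add]
  congr 1
  · simp
  · congr 1
    funext j
    congr 3
    push_cast
    ring

omit S in
lemma small_ratio {δ : ℝ} (h0 : 0 < δ) (h1 : δ ≤ 1) : δ * (1 - Real.exp (-δ))⁻¹ ≤ 2 := by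
  have h2 : Real.exp (-δ) ≤ 1 - δ / 2 := by
    have h3 : 1 + δ ≤ Real.exp δ := by linarith [Real.add_one_le_exp δ]
    have h4 : Real.exp (-δ) = (Real.exp δ)⁻¹ := Real.exp_neg δ
    rw [h4]
    have h5 : (0 : ℝ) < 1 + δ := by linarith
    have h6 : (Real.exp δ)⁻¹ ≤ (1 + δ)⁻¹ := inv_anti₀ h5 h3
    refine h6.trans ?_
    rw [inv_le_iff_one_le_mul₀ h5]
    nlinarith
  have h3 : 0 < 1 - Real.exp (-δ) := by linarith
  rw [← div_eq_mul_inv, div_le_iff₀ h3]
  linarith

lemma PsiAt_le {r : ℕ} (hr : r < d) (k : ℕ → ℤ) (q : ℤ) :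
    S.PsiAt r k q ≤ 2 * Real.exp (S.th r k (q - 1)) := by
  have hs : Summable (fun j : ℕ => S.del r * Real.exp (S.th r k (q - 1)) * Real.exp (-S.del r) ^ j) :=
    (summable_geometric_of_lt_one (Real.exp_pos _).le (S.ratio_lt r)).mul_left _
  have h1 : S.PsiAt r k q ≤ ∑' j : ℕ,
      S.del r * Real.exp (S.th r k (q - 1)) * Real.exp (-S.del r) ^ j :=
    (S.summable_term hr k q).tsum_le_tsum (fun j => S.term_le hr k q j) hs
  rw [tsum_mul_left, tsum_geometric_of_lt_one (Real.exp_pos _).le (S.ratio_lt r)] at h1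
  have h2 := small_ratio (S.del_pos r) (S.del_le_one r)
  have h3 := Real.exp_pos (S.th r k (q - 1))
  calc S.PsiAt r k q ≤ S.del r * Real.exp (S.th r k (q - 1)) * (1 - Real.exp (-S.del r))⁻¹ := h1
    _ = Real.exp (S.th r k (q - 1)) * (S.del r * (1 - Real.exp (-S.del r))⁻¹) := by ring
    _ ≤ Real.exp (S.th r k (q - 1)) * 2 := mul_le_mul_of_nonneg_left h2 h3.le
    _ = _ := by ring

lemma le_PsiAt {r : ℕ} (hr : r < d) (k : ℕ → ℤ) (q : ℤ) :
    S.del r * Real.exp (S.th r k (q - 1)) ≤ S.PsiAt r k q := by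
  have e : q = q - 1 + 1 := by ring
  have h := S.PsiAt_step hr k (q - 1)
  rw [← e] at h
  rw [h]
  have := S.PsiAt_nonneg (r := r) k (q - 1)
  linarith

end Scheme

end

end Vale.Agent.P072G
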