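import Vale.Agent.P072G.Barrier
import Vale.Agent.P072T.Global

/-!
The bounds on a finite interval of time: a solution starting in a compact subset of the positive
orthant stays in a compact subset of the positive orthant.
-/

namespace Vale.Agent.P072G

open Finset Vale.Agent.P072

noncomputable section

variable {d : ℕ} {ι : Type}

/-- An enumeration of a set of species. -/
def embZ (Z : Finset (Fin d)) : Fin Z.card → Fin d := fun a => (Z.equivFin.symm a).1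

lemma embZ_inj (Z : Finset (Fin d)) : Function.Injective (embZ Z) :=
  fun _ _ h => Z.equivFin.symm.injective (Subtype.ext h)

lemma embZ_mem (Z : Finset (Fin d)) (a : Fin Z.card) : embZ Z a ∈ Z := (Z.equivFin.symm a).2

lemma mem_range_embZ {Z : Finset (Fin d)} {l : Fin d} : l ∈ Set.range (embZ Z) ↔ l ∈ Z := by
  constructor
  · rintro ⟨a, rfl⟩
    exact embZ_mem Z a
  · intro hl
    exact ⟨Z.equivFin ⟨l, hl⟩, by simp [embZ]⟩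

lemma sum_embZ (Z : Finset (Fin d)) (f : Fin d → ℝ) : ∑ a, f (embZ Z a) = ∑ i ∈ Z, f i := by
  have h1 : ∑ a, f (embZ Z a) = ∑ i : Z, f i.1 :=
    Equiv.sum_comp Z.equivFin.symm (fun i : Z => f i.1)
  rw [h1]
  exact Finset.sum_coe_sort Z f

/-- One step of the descending induction on the sets of species. -/
lemma stage1_step [Fintype ι] {src tgt : ι → Fin d → ℕ} (WR : WeaklyRev src tgt) {ε δ₀ : ℝ}
    (hε : 0 < ε) (hδ₀ : 0 < δ₀) (M : ℝ) {Z : Finset (Fin d)} (hZ : Z.Nonempty) {η' : ℝ}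
    (hη' : 0 < η') :
    ∃ η : ℝ, 0 < η ∧ ∀ (k : ι → ℝ → ℝ) (T : ℝ) (x : ℝ → Fin d → ℝ),
      (∀ r, ∀ t ∈ Set.Ico (0 : ℝ) T, ε ≤ k r t ∧ k r t ≤ 1 / ε) →
      (∀ i, δ₀ ≤ x 0 i) →
      (∀ t ∈ Set.Ico (0 : ℝ) T, (∀ i, 0 < x t i) ∧
        HasDerivWithinAt x (∑ r, (k r t * ∏ i, x t i ^ src r i) • vec src tgt r)
          (Set.Ico 0 T) t) →
      (∀ t ∈ Set.Ico (0 : ℝ) T, ∀ l, x t l ≤ M) →
      (∀ t ∈ Set.Ico (0 : ℝ) T, ∀ l, l ∉ Z → ∑ i ∈ Z, x t i < η' → η' ≤ x t l) →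
      ∀ t ∈ Set.Ico (0 : ℝ) T, η ≤ ∑ i ∈ Z, x t i := by
  have hn : 0 < Z.card := Finset.card_pos.mpr hZ
  obtain ⟨S', hG⟩ := exists_good hn (pj (embZ Z) src) (epsP_pos src (M := M) hε hη')
  set ρ := min (min δ₀ (Real.exp (-(1 + S'.Gam 0)) / 2)) (η' / 2) with hρdef
  have hρ : 0 < ρ := lt_min (lt_min hδ₀ (by positivity)) (by positivity)
  have hρ1 : ρ ≤ δ₀ := (min_le_left _ _).trans (min_le_left _ _)
  have hρ2 : ρ ≤ Real.exp (-(1 + S'.Gam 0)) / 2 := (min_le_left _ _).trans (min_le_right _ _)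
  have hρ3 : ρ < η' := lt_of_le_of_lt (min_le_right _ _) (by linarith)
  obtain ⟨η, hη, _, hb⟩ := barrier hn (embZ_inj Z) WR hε hη' hG hρ hρ2 hρ3
  refine ⟨η, hη, ?_⟩
  intro k T x hk hx0 hsol hup hcomp t ht
  have h0T : (0 : ℝ) ∈ Set.Ico (0 : ℝ) T := ⟨le_rfl, lt_of_le_of_lt ht.1 ht.2⟩
  have hsum : ∀ τ, ∑ b, x τ (embZ Z b) = ∑ i ∈ Z, x τ i := fun τ => sum_embZ Z (x τ)
  have hstart : ρ ≤ ∑ b, x 0 (embZ Z b) := by
    rw [hsum]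
    obtain ⟨i₀, hi₀⟩ := hZ
    have h1 : x 0 i₀ ≤ ∑ i ∈ Z, x 0 i :=
      Finset.single_le_sum (f := x 0) (fun i _ => ((hsol 0 h0T).1 i).le) hi₀
    linarith [hx0 i₀]
  have := hb k x 0 T hk hsol hup (fun τ hτ l hl h1 => by
    rw [hsum] at h1
    exact hcomp τ hτ l (fun h => hl (mem_range_embZ.mpr h)) h1) hstart t ht
  rwa [hsum] at this

/-- The descending induction. -/
lemma stage1_ind [Fintype ι] {src tgt : ι → Fin d → ℕ} (WR : WeaklyRev src tgt) {ε δ₀ : ℝ}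
    (hε : 0 < ε) (hδ₀ : 0 < δ₀) (M : ℝ) (m : ℕ) :
    ∃ η : ℝ, 0 < η ∧ ∀ Z : Finset (Fin d), Z.Nonempty → Zᶜ.card = m →
      ∀ (k : ι → ℝ → ℝ) (T : ℝ) (x : ℝ → Fin d → ℝ),
      (∀ r, ∀ t ∈ Set.Ico (0 : ℝ) T, ε ≤ k r t ∧ k r t ≤ 1 / ε) →
      (∀ i, δ₀ ≤ x 0 i) →
      (∀ t ∈ Set.Ico (0 : ℝ) T, (∀ i, 0 < x t i) ∧
        HasDerivWithinAt x (∑ r, (k r t * ∏ i, x t i ^ src r i) • vec src tgt r)
          (Set.Ico 0 T) t) →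
      (∀ t ∈ Set.Ico (0 : ℝ) T, ∀ l, x t l ≤ M) →
      ∀ t ∈ Set.Ico (0 : ℝ) T, η ≤ ∑ i ∈ Z, x t i := by
  classical
  -- a uniform choice over the finitely many sets
  have hunif : ∀ (η' : ℝ), 0 < η' → ∀ m' : ℕ, (∀ Z : Finset (Fin d), Z.Nonempty → Zᶜ.card = m' →
      ∀ (k : ι → ℝ → ℝ) (T : ℝ) (x : ℝ → Fin d → ℝ),
      (∀ r, ∀ t ∈ Set.Ico (0 : ℝ) T, ε ≤ k r t ∧ k r t ≤ 1 / ε) →
      (∀ i, δ₀ ≤ x 0 i) →
      (∀ t ∈ Set.Ico (0 : ℝ) T, (∀ i, 0 < x t i) ∧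
        HasDerivWithinAt x (∑ r, (k r t * ∏ i, x t i ^ src r i) • vec src tgt r)
          (Set.Ico 0 T) t) →
      (∀ t ∈ Set.Ico (0 : ℝ) T, ∀ l, x t l ≤ M) →
      ∀ t ∈ Set.Ico (0 : ℝ) T, ∀ l, l ∉ Z → ∑ i ∈ Z, x t i < η' → η' ≤ x t l) →
      ∃ η : ℝ, 0 < η ∧ ∀ Z : Finset (Fin d), Z.Nonempty → Zᶜ.card = m' →
      ∀ (k : ι → ℝ → ℝ) (T : ℝ) (x : ℝ → Fin d → ℝ),
      (∀ r, ∀ t ∈ Set.Ico (0 : ℝ) T, ε ≤ k r t ∧ k r t ≤ 1 / ε) →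
      (∀ i, δ₀ ≤ x 0 i) →
      (∀ t ∈ Set.Ico (0 : ℝ) T, (∀ i, 0 < x t i) ∧
        HasDerivWithinAt x (∑ r, (k r t * ∏ i, x t i ^ src r i) • vec src tgt r)
          (Set.Ico 0 T) t) →
      (∀ t ∈ Set.Ico (0 : ℝ) T, ∀ l, x t l ≤ M) →
      ∀ t ∈ Set.Ico (0 : ℝ) T, η ≤ ∑ i ∈ Z, x t i := by
    intro η' hη' m' hcomp
    have hex : ∀ Z : Finset (Fin d), ∃ η : ℝ, 0 < η ∧ (Z.Nonempty → Zᶜ.card = m' →
      ∀ (k : ι → ℝ → ℝ) (T : ℝ) (x : ℝ → Fin d → ℝ),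
      (∀ r, ∀ t ∈ Set.Ico (0 : ℝ) T, ε ≤ k r t ∧ k r t ≤ 1 / ε) →
      (∀ i, δ₀ ≤ x 0 i) →
      (∀ t ∈ Set.Ico (0 : ℝ) T, (∀ i, 0 < x t i) ∧
        HasDerivWithinAt x (∑ r, (k r t * ∏ i, x t i ^ src r i) • vec src tgt r)
          (Set.Ico 0 T) t) →
      (∀ t ∈ Set.Ico (0 : ℝ) T, ∀ l, x t l ≤ M) →
      ∀ t ∈ Set.Ico (0 : ℝ) T, η ≤ ∑ i ∈ Z, x t i) := by
      intro Z
      by_cases hZ : Z.Nonempty
      · obtain ⟨η, hη, h⟩ := stage1_step WR hε hδ₀ M hZ hη'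
        exact ⟨η, hη, fun _ hc k T x h1 h2 h3 h4 =>
          h k T x h1 h2 h3 h4 (hcomp Z hZ hc k T x h1 h2 h3 h4)⟩
      · exact ⟨1, one_pos, fun h => absurd h hZ⟩
    choose ηf hηf0 hηf using hex
    obtain ⟨η, hη, hle⟩ := Vale.Agent.P072.Tilt.exists_pos_le ηf hηf0
    refine ⟨η, hη, fun Z hZ hc k T x h1 h2 h3 h4 t ht => ?_⟩
    exact (hle Z).trans (hηf Z hZ hc k T x h1 h2 h3 h4 t ht)
  induction m with
  | zero =>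
    apply hunif 1 one_pos
    intro Z _ hc _ _ _ _ _ _ _ _ _ l hl _
    have : Zᶜ = ∅ := Finset.card_eq_zero.mp hc
    exact absurd (Finset.mem_compl.mpr hl) (by simp [this])
  | succ m ih =>
    obtain ⟨η₀, hη₀, h₀⟩ := ih
    apply hunif (η₀ / 2) (by positivity)
    intro Z hZ hc k T x h1 h2 h3 h4 t ht l hl hlt
    have hcard : (insert l Z)ᶜ.card = m := by
      have e : (insert l Z)ᶜ = Zᶜ.erase l := by
        ext j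
        simp only [Finset.mem_compl, Finset.mem_insert, Finset.mem_erase, not_or]
      rw [e, Finset.card_erase_of_mem (Finset.mem_compl.mpr hl), hc]
      rfl
    have h5 := h₀ (insert l Z) (Finset.insert_nonempty l Z) hcard k T x h1 h2 h3 h4 t ht
    rw [Finset.sum_insert hl] at h5
    linarith

/-- The bounds for finite time. -/
theorem stage1 [Fintype ι] {src tgt : ι → Fin d → ℕ} (WR : WeaklyRev src tgt) {ε δ₀ : ℝ}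
    (hε : 0 < ε) (hδ₀ : 0 < δ₀) (Λ : ℝ) :
    ∃ δ₁ M₁ : ℝ, 0 < δ₁ ∧ ∀ (k : ι → ℝ → ℝ) (T : ℝ) (x : ℝ → Fin d → ℝ),
      (∀ r, ∀ t ∈ Set.Ico (0 : ℝ) T, ε ≤ k r t ∧ k r t ≤ 1 / ε) →
      (∀ i, δ₀ ≤ x 0 i ∧ x 0 i ≤ Λ) →
      (∀ t ∈ Set.Ico (0 : ℝ) T, (∀ i, 0 < x t i) ∧
        HasDerivWithinAt x (∑ r, (k r t * ∏ i, x t i ^ src r i) • vec src tgt r)
          (Set.Ico 0 T) t) →
      ∀ t ∈ Set.Ico (0 : ℝ) T, ∀ i, δ₁ ≤ x t i ∧ x t i ≤ M₁ := by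
  obtain ⟨M, hM⟩ := bounded_all WR ε hε Λ
  obtain ⟨η, hη, h⟩ := stage1_ind WR hε hδ₀ M (d - 1)
  refine ⟨η, M, hη, ?_⟩
  intro k T x hk hx0 hsol t ht i
  have hup := hM k T x hk (fun i => (hx0 i).2) hsol
  refine ⟨?_, hup t ht i⟩
  have hc : ({i} : Finset (Fin d))ᶜ.card = d - 1 := by
    rw [Finset.card_compl, Finset.card_singleton, Fintype.card_fin]
  have := h {i} (Finset.singleton_nonempty i) hc k T x hk (fun i => (hx0 i).1) hsol hup t ht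
  simpa using this

end

end Vale.Agent.P072G
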