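import Vale.Agent.P072G.Stage1

/-!
The eventual bounds: every solution in a stoichiometric class eventually enters a fixed compact
subset of the class.
-/

namespace Vale.Agent.P072G

open Finset Vale.Agent.P072

noncomputable section

variable {d : ℕ} {ι : Type}

/-- Lower bound of a product of powers. -/
lemma prod_lower {n : ℕ} {β : ℝ} (hβ : 0 < β) (hβ1 : β ≤ 1) (s : Fin n → ℕ)
    (x : Fin n → ℝ) (hx : ∀ l, β ≤ x l) {A : ℕ} (hA : ∑ l, s l ≤ A) :
    β ^ A ≤ ∏ l, x l ^ s l := by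
  calc β ^ A ≤ β ^ (∑ l, s l) := pow_le_pow_of_le_one hβ.le hβ1 hA
    _ = ∏ l, β ^ s l := (Finset.prod_pow_eq_pow_sum _ _ _).symm
    _ ≤ ∏ l, x l ^ s l := by
        apply Finset.prod_le_prod
        · intro l _
          positivity
        · intro l _
          exact pow_le_pow_left₀ hβ.le (hx l) _

/-- The strict decrease, abstractly: a quantity bounded below cannot decrease at a fixed rate for
all times. -/
lemma no_forever {W : ℝ → ℝ} {a γ B : ℝ} (hγ : 0 < γ) (hB : ∀ t, a ≤ t → B ≤ W t)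
    (hdec : ∀ t, a ≤ t → W t + γ * t ≤ W a + γ * a) : False := by
  set t := a + (|W a - B| + 1) / γ with ht
  have hta : a ≤ t := by
    have : 0 ≤ (|W a - B| + 1) / γ := by positivity
    rw [ht]
    linarith
  have h1 := hdec t hta
  have h2 := hB t hta
  have e : γ * t = γ * a + (|W a - B| + 1) := by
    rw [ht]
    field_simp
  have h3 := le_abs_self (W a - B)
  linarith

/-- The eventual upper bound. -/
theorem eventual_upper [Fintype ι] {src tgt : ι → Fin d → ℕ} (WR : WeaklyRev src tgt) {ε : ℝ}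
    (hε : 0 < ε) {c : Fin d → ℝ} (hc : ∀ i, 0 < c i) :
    ∃ Ms : ℝ, ∀ (k : ι → ℝ → ℝ) (x : ℝ → Fin d → ℝ),
      (∀ r, ∀ t, 0 ≤ t → ε ≤ k r t ∧ k r t ≤ 1 / ε) →
      x 0 - c ∈ Submodule.span ℝ (Set.range (vec src tgt)) →
      (∀ t, 0 ≤ t → (∀ i, 0 < x t i) ∧
        HasDerivWithinAt x (∑ r, (k r t * ∏ i, x t i ^ src r i) • vec src tgt r) (Set.Ici 0) t) →
      ∃ T₁ : ℝ, 0 ≤ T₁ ∧ ∀ t, T₁ ≤ t → ∀ i, x t i ≤ Ms := by
  classical
  by_cases hd : 0 < d
  swap
  · refine ⟨0, fun _ _ _ _ _ => ⟨0, le_rfl, fun _ _ i => ?_⟩⟩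
    have : d = 0 := by omega
    subst this
    exact i.elim0
  obtain ⟨S, hG⟩ := exists_good hd src hε
  obtain ⟨mp, hS⟩ := hG.sharp
  set C₁ := Real.log 2 + 1 + S.GamT with hC₁
  have hC₁0 : 0 ≤ C₁ := by
    have := Real.log_pos (by norm_num : (1 : ℝ) < 2)
    have := Scheme.GamT_nonneg (S := S)
    linarith
  set D := C₁ * ∑ r, ∑ i, |vec src tgt r i| with hD
  have hD0 : 0 ≤ D := by positivity
  obtain ⟨δc, R, hδc, hbox⟩ := Vale.Agent.P072.Tilt.compact_of_pairings (vec src tgt) hc 0 D hD0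
  set E := (d : ℝ) * |R| with hE
  set L₀ := (1 + S.Gam 0) * E + E ^ 2 / 2 with hL₀
  refine ⟨L₀ + S.fS kstar, ?_⟩
  intro k x hk hcl hsol
  have hsolT : ∀ T : ℝ, ∀ a, 0 ≤ a → ∀ t ∈ Set.Ico a T, (∀ i, 0 < x t i) ∧
      HasDerivWithinAt x (Fv src tgt (fun r => k r t) (x t)) (Set.Ico a T) t := by
    intro T a ha t ht
    exact ⟨(hsol t (ha.trans ht.1)).1, (hsol t (ha.trans ht.1)).2.mono
      (fun u hu => ha.trans hu.1)⟩
  have hkT : ∀ T : ℝ, ∀ a, 0 ≤ a → ∀ t ∈ Set.Ico a T, ∀ r, ε ≤ k r t ∧ k r t ≤ 1 / ε :=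
    fun T a ha t ht r => hk r t (ha.trans ht.1)
  have hpos : ∀ t, 0 ≤ t → ∀ i, 0 < x t i := fun t ht => (hsol t ht).1
  have hmono : ∀ s t, 0 ≤ s → s ≤ t → S.WW (x t) ≤ S.WW (x s) := by
    intro s t hs hst
    exact traj_mono WR hd hε hG (a := s) (T := t + 1) x k (hsolT _ s hs) (hkT _ s hs)
      s ⟨le_rfl, by linarith⟩ t ⟨hst, by linarith⟩ hst
  -- the bound for a time with small value
  by_cases hex : ∃ t₀, 0 ≤ t₀ ∧ S.WW (x t₀) ≤ L₀
  · obtain ⟨t₀, ht₀, hW⟩ := hex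
    refine ⟨t₀, ht₀, fun t ht i => ?_⟩
    have ht0 : 0 ≤ t := ht₀.trans ht
    have h1 := Scheme.val_le_WW (S := S) hd (hpos t ht0) (Equiv.swap ⟨0, hd⟩ i) (kstar_sorted S)
      (kstar_canon hd)
    rw [val_kstar] at h1
    have h2 := hmono t₀ t ht₀ ht
    linarith
  · exfalso
    push Not at hex
    -- the lower bound for this solution
    have hclT : ∀ t, 0 ≤ t → x t - c ∈ Submodule.span ℝ (Set.range (vec src tgt)) := by
      intro t ht
      have hs : Vale.Agent.P072.Tilt.Sol src tgt k x (Set.Ico 0 (t + 1)) := by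
        intro τ hτ
        exact hsolT _ 0 le_rfl τ hτ
      exact Vale.Agent.P072.Tilt.Sol.mem_class hs hcl ⟨ht, by linarith⟩
    obtain ⟨δ₀, hδ₀, hδ₀le⟩ := Vale.Agent.P072.Tilt.exists_pos_le (x 0) (hpos 0 le_rfl)
    obtain ⟨Λ₀, _, hΛ₀⟩ := Vale.Agent.P072.Tilt.exists_ge_all (x 0)
    obtain ⟨δ₁, M₁, hδ₁, h1⟩ := stage1 (src := src) (tgt := tgt) WR hε hδ₀ Λ₀
    have hlow : ∀ t, 0 ≤ t → ∀ i, δ₁ ≤ x t i := by
      intro t ht i
      exact (h1 k (t + 1) x (fun r τ hτ => hk r τ hτ.1) (fun i => ⟨hδ₀le i, hΛ₀ i⟩)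
        (hsolT _ 0 le_rfl) t ⟨ht, by linarith⟩ i).1
    set β := min δ₁ 1 with hβ
    have hβ0 : 0 < β := lt_min hδ₁ one_pos
    have hβ1 : β ≤ 1 := min_le_right _ _
    set ρ₀ := ε * β ^ totDeg src with hρ₀
    have hρ₀0 : 0 < ρ₀ := by positivity
    -- the moving reaction
    have hmove : ∀ t, 0 ≤ t → ∀ σ K, S.IsMax (x t) σ K →
        ∃ r, ∑ i, S.nn K (σ.symm i) * vec src tgt r i ≠ 0 := by
      intro t ht σ K hM
      by_contra hcon
      push Not at hcon
      have hR : ∀ i, x t i ≤ R := by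
        intro i
        refine (hbox (x t) (hpos t ht) (hclT t ht) (fun r => ?_) i).2
        have e1 : Vale.Agent.P072.ip (Vale.Agent.P072.Tilt.lg 0 (x t)) (vec src tgt r)
            = ∑ i, (Real.log (x t i) - S.nn K (σ.symm i)) * vec src tgt r i := by
          unfold Vale.Agent.P072.ip Vale.Agent.P072.Tilt.lg
          have e2 : ∑ i, (Real.log (x t i) - S.nn K (σ.symm i)) * vec src tgt r i
              = ∑ i, Real.log (x t i) * vec src tgt r i
                - ∑ i, S.nn K (σ.symm i) * vec src tgt r i := by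
            rw [← Finset.sum_sub_distrib]
            apply Finset.sum_congr rfl
            intro i _
            ring
          rw [e2, hcon r]
          simp
        rw [e1]
        refine (Finset.abs_sum_le_sum_abs _ _).trans ?_
        have h2 : ∑ i, |(Real.log (x t i) - S.nn K (σ.symm i)) * vec src tgt r i|
            ≤ ∑ i, C₁ * |vec src tgt r i| := by
          apply Finset.sum_le_sum
          intro i _
          rw [abs_mul]
          apply mul_le_mul_of_nonneg_right _ (abs_nonneg _)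
          rw [abs_sub_comm]
          exact Scheme.max_near_log hS (hpos t ht) hM i
        refine h2.trans ?_
        rw [← Finset.mul_sum, hD]
        apply mul_le_mul_of_nonneg_left _ hC₁0
        exact Finset.single_le_sum (f := fun r => ∑ i, |vec src tgt r i|)
          (fun _ _ => Finset.sum_nonneg fun _ _ => abs_nonneg _) (Finset.mem_univ r)
      have hW : S.WW (x t) ≤ L₀ := by
        apply Scheme.WW_le hd (hpos t ht)
        intro σ' K' hK'
        exact val_le hd S (hpos t ht) hR σ' hK'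
      exact absurd hW (not_le.mpr (hex t ht))
    -- the reaction set is not empty
    have hι : 0 < (Fintype.card ι : ℝ) := by
      obtain ⟨σ, K, hM⟩ := S.exists_max hd (hpos 0 le_rfl)
      obtain ⟨r, _⟩ := hmove 0 le_rfl σ K hM
      have : Nonempty ι := ⟨r⟩
      exact_mod_cast Fintype.card_pos
    set γ := ρ₀ * S.del (d - 1) / (Fintype.card ι : ℝ) with hγ
    have hγ0 : 0 < γ := by
      have := S.del_pos (d - 1)
      positivity
    have hstrict : ∀ T : ℝ, ∀ z ∈ Set.Ico 0 T, ∀ κ' : ι → ℝ, (∀ r, ε ≤ κ' r ∧ κ' r ≤ 1 / ε) →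
        ∀ σ K, S.IsMax (x z) σ K → ∑ i, S.nn K (σ.symm i) * Fv src tgt κ' (x z) i ≤ -γ := by
      intro T z hz κ' hκ' σ K hM
      refine hG.flow_strict WR hε (hpos z hz.1) hM hκ' hρ₀0.le (fun r => ?_) (hmove z hz.1 σ K hM)
      have h2 := prod_lower hβ0 hβ1 (src r) (x z)
        (fun l => (min_le_left _ _).trans (hlow z hz.1 l))
        (A := totDeg src) (by simpa using deg_le src Finset.univ r)
      exact mul_le_mul (hκ' r).1 h2 (by positivity) (lt_of_lt_of_le hε (hκ' r).1).le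
    refine no_forever (W := fun t => S.WW (x t)) (a := 0) hγ0
      (B := -S.fS (S.kLow 0) - 0)
      (fun t ht => Scheme.WW_ge_const hd (hpos t ht)) (fun t ht => ?_)
    exact traj_descent hd hG (a := 0) (T := t + 1) x k (hsolT _ 0 le_rfl) (hkT _ 0 le_rfl)
      (hstrict _) 0 ⟨le_rfl, by linarith⟩ t ⟨ht, by linarith⟩ ht

/-- One step of the descending induction for the eventual lower bounds. -/
theorem eventual_step [Fintype ι] {src tgt : ι → Fin d → ℕ} (WR : WeaklyRev src tgt) {ε : ℝ}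
    (hε : 0 < ε) {c : Fin d → ℝ} (hc : ∀ i, 0 < c i) (M : ℝ) {Z : Finset (Fin d)}
    (hZ : Z.Nonempty) {η' : ℝ} (hη' : 0 < η') :
    ∃ η : ℝ, 0 < η ∧ ∀ (k : ι → ℝ → ℝ) (x : ℝ → Fin d → ℝ),
      (∀ r, ∀ t, 0 ≤ t → ε ≤ k r t ∧ k r t ≤ 1 / ε) →
      x 0 - c ∈ Submodule.span ℝ (Set.range (vec src tgt)) →
      (∀ t, 0 ≤ t → (∀ i, 0 < x t i) ∧
        HasDerivWithinAt x (∑ r, (k r t * ∏ i, x t i ^ src r i) • vec src tgt r) (Set.Ici 0) t) →
      (∃ T₁ : ℝ, 0 ≤ T₁ ∧ ∀ t, T₁ ≤ t → (∀ l, x t l ≤ M) ∧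
        ∀ l, l ∉ Z → ∑ i ∈ Z, x t i < η' → η' ≤ x t l) →
      ∃ T₀ : ℝ, 0 ≤ T₀ ∧ ∀ t, T₀ ≤ t → η ≤ ∑ i ∈ Z, x t i := by
  classical
  have hn : 0 < Z.card := Finset.card_pos.mpr hZ
  set e := embZ Z with he
  set ε' := epsP src ε M η' with hε'
  have hε'0 : 0 < ε' := epsP_pos src hε hη'
  obtain ⟨S', hG⟩ := exists_good hn (pj e src) hε'0
  obtain ⟨mp, hS⟩ := hG.sharp
  obtain ⟨c₀, hc₀, hc₀le⟩ := Vale.Agent.P072.Tilt.exists_pos_le c hc
  set ρ := min (min (η' / 2) (Real.exp (-(1 + S'.Gam 0)) / 2))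
    (min c₀ (Real.exp (-(Real.log 2 + 1 + S'.GamT)))) with hρdef
  have hρ : 0 < ρ :=
    lt_min (lt_min (by positivity) (by positivity)) (lt_min hc₀ (Real.exp_pos _))
  have hρ1 : ρ < η' := lt_of_le_of_lt ((min_le_left _ _).trans (min_le_left _ _)) (by linarith)
  have hρ2 : ρ ≤ Real.exp (-(1 + S'.Gam 0)) / 2 := (min_le_left _ _).trans (min_le_right _ _)
  have hρ3 : ρ ≤ c₀ := (min_le_right _ _).trans (min_le_left _ _)
  have hρ4 : ρ ≤ Real.exp (-(Real.log 2 + 1 + S'.GamT)) :=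
    (min_le_right _ _).trans (min_le_right _ _)
  obtain ⟨η, hη, _, hb⟩ := barrier hn (embZ_inj Z) WR hε hη' hG hρ hρ2 hρ1
  refine ⟨η, hη, ?_⟩
  intro k x hk hcl hsol ⟨T₁, hT₁, hT₁'⟩
  have hsum : ∀ τ, ∑ b, x τ (e b) = ∑ i ∈ Z, x τ i := fun τ => sum_embZ Z (x τ)
  have hpos : ∀ t, 0 ≤ t → ∀ i, 0 < x t i := fun t ht => (hsol t ht).1
  have hsolT : ∀ T : ℝ, ∀ a, 0 ≤ a → ∀ t ∈ Set.Ico a T, (∀ i, 0 < x t i) ∧
      HasDerivWithinAt x (∑ r, (k r t * ∏ i, x t i ^ src r i) • vec src tgt r) (Set.Ico a T) t := by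
    intro T a ha t ht
    exact ⟨(hsol t (ha.trans ht.1)).1, (hsol t (ha.trans ht.1)).2.mono
      (fun u hu => ha.trans hu.1)⟩
  -- a time with definite mass
  have hex : ∃ t₃, T₁ ≤ t₃ ∧ ρ ≤ ∑ b, x t₃ (e b) := by
    by_contra hcon
    push Not at hcon
    -- the class
    have hclT : ∀ t, 0 ≤ t → x t - c ∈ Submodule.span ℝ (Set.range (vec src tgt)) := by
      intro t ht
      have hs : Vale.Agent.P072.Tilt.Sol src tgt k x (Set.Ico 0 (t + 1)) := by
        intro τ hτ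
        exact hsolT _ 0 le_rfl τ hτ
      exact Vale.Agent.P072.Tilt.Sol.mem_class hs hcl ⟨ht, by linarith⟩
    -- the lower bound for this solution
    obtain ⟨δ₀, hδ₀, hδ₀le⟩ := Vale.Agent.P072.Tilt.exists_pos_le (x 0) (hpos 0 le_rfl)
    obtain ⟨Λ₀, _, hΛ₀⟩ := Vale.Agent.P072.Tilt.exists_ge_all (x 0)
    obtain ⟨δ₁, M₁, hδ₁, h1⟩ := stage1 (src := src) (tgt := tgt) WR hε hδ₀ Λ₀
    have hlow : ∀ t, 0 ≤ t → ∀ i, δ₁ ≤ x t i := by
      intro t ht i
      exact (h1 k (t + 1) x (fun r τ hτ => hk r τ hτ.1) (fun i => ⟨hδ₀le i, hΛ₀ i⟩)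
        (hsolT _ 0 le_rfl) t ⟨ht, by linarith⟩ i).1
    set β := min δ₁ 1 with hβ
    have hβ0 : 0 < β := lt_min hδ₁ one_pos
    have hβ1 : β ≤ 1 := min_le_right _ _
    set ρ₀ := ε' * β ^ totDeg (pj e src) with hρ₀
    have hρ₀0 : 0 < ρ₀ := by positivity
    set y : ℝ → Fin Z.card → ℝ := fun τ b => x τ (e b) with hy
    have hypos : ∀ t, 0 ≤ t → ∀ b, 0 < y t b := fun t ht b => hpos t ht (e b)
    -- the moving reaction
    have hmove : ∀ t, T₁ ≤ t → ∀ σ K, S'.IsMax (y t) σ K →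
        ∃ r, ∑ b, S'.nn K (σ.symm b) * vec (pj e src) (pj e tgt) r b ≠ 0 := by
      intro t ht σ K hM
      by_contra hh
      push Not at hh
      have ht0 : 0 ≤ t := hT₁.trans ht
      have hsm := hcon t ht
      have hsm2 : ∀ b, y t b < ρ := by
        intro b
        refine lt_of_le_of_lt ?_ hsm
        exact Finset.single_le_sum (f := fun b => x t (e b))
          (fun b _ => (hpos t ht0 _).le) (Finset.mem_univ b)
      have hqneg : ∀ b, S'.nn K (σ.symm b) < 0 := fun b =>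
        Scheme.q_neg hS (hypos t ht0) hM (lt_of_lt_of_le (hsm2 b) hρ4)
      -- the linear functional
      let φ : (Fin d → ℝ) →ₗ[ℝ] ℝ :=
        ∑ b, S'.nn K (σ.symm b) • LinearMap.proj (R := ℝ) (φ := fun _ : Fin d => ℝ) (e b)
      have hφ : ∀ v : Fin d → ℝ, φ v = ∑ b, S'.nn K (σ.symm b) * v (e b) := by
        intro v
        simp [φ, LinearMap.sum_apply]
      have hφ0 : ∀ v ∈ Submodule.span ℝ (Set.range (vec src tgt)), φ v = 0 := by
        intro v hv
        have hle : Submodule.span ℝ (Set.range (vec src tgt)) ≤ LinearMap.ker φ := by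
          rw [Submodule.span_le]
          rintro _ ⟨r, rfl⟩
          simp only [SetLike.mem_coe, LinearMap.mem_ker]
          rw [hφ]
          exact hh r
        exact hle hv
      have h2 := hφ0 _ (hclT t ht0)
      rw [hφ] at h2
      have hne : (Finset.univ : Finset (Fin Z.card)).Nonempty := by
        haveI : Nonempty (Fin Z.card) := ⟨⟨0, hn⟩⟩
        exact Finset.univ_nonempty
      have h3 : 0 < ∑ b, S'.nn K (σ.symm b) * (x t - c) (e b) := by
        apply Finset.sum_pos _ hne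
        intro b _
        have h4 : (x t - c) (e b) < 0 := by
          simp only [Pi.sub_apply]
          have h5 := hsm2 b
          have h6 := hc₀le (e b)
          simp only [hy] at h5
          linarith
        exact mul_pos_of_neg_of_neg (hqneg b) h4
      linarith
    -- the bounds for the projected rates
    have hboxT : ∀ t, T₁ ≤ t → ∀ l, l ∉ Set.range e → η' ≤ x t l ∧ x t l ≤ M := by
      intro t ht l hl
      refine ⟨(hT₁' t ht).2 l (fun h => hl (mem_range_embZ.mpr h)) ?_, (hT₁' t ht).1 l⟩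
      rw [← hsum]
      exact (hcon t ht).trans hρ1
    have hι : 0 < (Fintype.card ι : ℝ) := by
      obtain ⟨σ, K, hM⟩ := S'.exists_max hn (hypos T₁ hT₁)
      obtain ⟨r, _⟩ := hmove T₁ le_rfl σ K hM
      have : Nonempty ι := ⟨r⟩
      exact_mod_cast Fintype.card_pos
    set γ := ρ₀ * S'.del (Z.card - 1) / (Fintype.card ι : ℝ) with hγ
    have hγ0 : 0 < γ := by
      have := S'.del_pos (Z.card - 1)
      positivity
    have hstrict : ∀ T : ℝ, ∀ z ∈ Set.Ico T₁ T, ∀ κ' : ι → ℝ, (∀ r, ε' ≤ κ' r ∧ κ' r ≤ 1 / ε') →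
        ∀ σ K, S'.IsMax (y z) σ K →
          ∑ b, S'.nn K (σ.symm b) * Fv (pj e src) (pj e tgt) κ' (y z) b ≤ -γ := by
      intro T z hz κ' hκ' σ K hM
      have hz0 : 0 ≤ z := hT₁.trans hz.1
      refine hG.flow_strict (wr_pj e WR) hε'0 (hypos z hz0) hM hκ' hρ₀0.le (fun r => ?_)
        (hmove z hz.1 σ K hM)
      have h2 := prod_lower hβ0 hβ1 (pj e src r) (y z)
        (fun l => (min_le_left _ _).trans (hlow z hz0 (e l)))
        (A := totDeg (pj e src)) (by simpa using deg_le (pj e src) Finset.univ r)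
      exact mul_le_mul (hκ' r).1 h2 (by positivity) (lt_of_lt_of_le hε'0 (hκ' r).1).le
    refine no_forever (W := fun t => S'.WW (y t)) (a := T₁) hγ0
      (B := -S'.fS (S'.kLow 0) - 0)
      (fun t ht => Scheme.WW_ge_const hn (hypos t (hT₁.trans ht))) (fun t ht => ?_)
    refine traj_descent hn hG (a := T₁) (T := t + 1) y (kP e src k x) (fun τ hτ => ?_)
      (fun τ hτ r => ?_) (hstrict _) T₁ ⟨le_rfl, by linarith⟩ t ⟨ht, by linarith⟩ ht
    · exact ⟨hypos τ (hT₁.trans hτ.1), proj_sol (embZ_inj Z) (hsolT _ T₁ hT₁ τ hτ).2⟩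
    · exact kP_box hε hη' (fun r => hk r τ (hT₁.trans hτ.1)) (hboxT τ hτ.1) r
  obtain ⟨t₃, ht₃, hstart⟩ := hex
  refine ⟨t₃, hT₁.trans ht₃, fun t ht => ?_⟩
  have ht₃0 : 0 ≤ t₃ := hT₁.trans ht₃
  have := hb k x t₃ (t + 1) (fun r τ hτ => hk r τ (ht₃0.trans hτ.1)) (hsolT _ t₃ ht₃0)
    (fun τ hτ l => (hT₁' τ (ht₃.trans hτ.1)).1 l)
    (fun τ hτ l hl h1 => (hT₁' τ (ht₃.trans hτ.1)).2 l (fun h => hl (mem_range_embZ.mpr h))
      (by rw [← hsum]; exact h1)) hstart t ⟨ht, by linarith⟩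
  rwa [hsum] at this

end

end Vale.Agent.P072G
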