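import Vale.Agent.P072G.Design

/-!
The scheme of families, the recursive definition of the offsets `bet`, and the level invariants.
-/

namespace Vale.Agent.P072G

open Finset

noncomputable section

/-- Elimination of the coordinate `r` between two vectors. -/
def elimv (r : ℕ) (v v' : ℕ → ℤ) : ℕ → ℤ := fun s => v' r * v s - v r * v' s

/-- Smallest pairing on the box. -/
def mb (r : ℕ) (v : ℕ → ℤ) (bm bp : ℕ → ℝ) : ℝ :=
  ∑ s ∈ range r, min ((v s : ℝ) * bm s) ((v s : ℝ) * bp s)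

/-- Total width of the box. -/
def Wd (r : ℕ) (bm bp : ℕ → ℝ) : ℝ := ∑ s ∈ range r, (bp s - bm s)

/-- Upper value of a kink. -/
def tpv (r : ℕ) (v : ℕ → ℤ) (bm bp : ℕ → ℝ) : ℝ := - mb r v bm bp / (v r : ℝ)

/-- Lower value of a kink. -/
def tmv (r : ℕ) (v : ℕ → ℤ) (bm bp : ℕ → ℝ) : ℝ := mb r (-v) bm bp / (v r : ℝ)

lemma mb_congr {r : ℕ} {v : ℕ → ℤ} {bm bp bm' bp' : ℕ → ℝ} (h : ∀ s < r, bm s = bm' s)
    (h' : ∀ s < r, bp s = bp' s) : mb r v bm bp = mb r v bm' bp' := by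
  unfold mb
  apply Finset.sum_congr rfl
  intro s hs
  have hs' := Finset.mem_range.mp hs
  rw [h s hs', h' s hs']

lemma Wd_congr {r : ℕ} {bm bp bm' bp' : ℕ → ℝ} (h : ∀ s < r, bm s = bm' s)
    (h' : ∀ s < r, bp s = bp' s) : Wd r bm bp = Wd r bm' bp' := by
  unfold Wd
  apply Finset.sum_congr rfl
  intro s hs
  have hs' := Finset.mem_range.mp hs
  rw [h s hs', h' s hs']

lemma mb_succ (r : ℕ) (v : ℕ → ℤ) (bm bp : ℕ → ℝ) :
    mb (r + 1) v bm bp = mb r v bm bp + min ((v r : ℝ) * bm r) ((v r : ℝ) * bp r) := by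
  unfold mb
  rw [Finset.sum_range_succ]

lemma Wd_succ (r : ℕ) (bm bp : ℕ → ℝ) : Wd (r + 1) bm bp = Wd r bm bp + (bp r - bm r) := by
  unfold Wd
  rw [Finset.sum_range_succ]

lemma sub1 (v y l h : ℝ) (hy : y = l ∨ y = h) (hlh : l ≤ h) :
    v * y - |v| * (h - l) ≤ min (v * l) (v * h) := by
  have hA : 0 ≤ |v| := abs_nonneg v
  have hB : 0 ≤ h - l := by linarith
  have h1 : v * h - v * l ≤ |v| * (h - l) := by
    have : v * (h - l) ≤ |v| * (h - l) := mul_le_mul_of_nonneg_right (le_abs_self v) hB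
    linarith
  have h2 : v * l - v * h ≤ |v| * (h - l) := by
    have : (-v) * (h - l) ≤ |v| * (h - l) := mul_le_mul_of_nonneg_right (neg_le_abs v) hB
    linarith
  have h3 : 0 ≤ |v| * (h - l) := mul_nonneg hA hB
  apply le_min
  · rcases hy with rfl | rfl
    · linarith
    · linarith
  · rcases hy with rfl | rfl
    · linarith
    · linarith

/-- The coordinate form of the overlap inequality. -/
lemma coord_overlap (v v' P Q l h : ℝ) (hP : 0 < P) (hQ : 0 < Q) (hlh : l ≤ h) :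
    min ((Q * v - P * v') * l) ((Q * v - P * v') * h) / (P * Q) - |v| / P * (h - l)
      ≤ min (-v' * l) (-v' * h) / Q + min (v * l) (v * h) / P := by
  obtain ⟨y, hy, hy'⟩ : ∃ y, (y = l ∨ y = h) ∧ min (-v' * l) (-v' * h) = -v' * y := by
    rcases le_total (-v' * l) (-v' * h) with h1 | h1
    · exact ⟨l, Or.inl rfl, min_eq_left h1⟩
    · exact ⟨h, Or.inr rfl, min_eq_right h1⟩
  have h1 : min ((Q * v - P * v') * l) ((Q * v - P * v') * h) ≤ (Q * v - P * v') * y := by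
    rcases hy with rfl | rfl
    · exact min_le_left _ _
    · exact min_le_right _ _
  have h2 := sub1 v y l h hy hlh
  rw [hy']
  have hPQ : 0 < P * Q := mul_pos hP hQ
  have h3 : min ((Q * v - P * v') * l) ((Q * v - P * v') * h) / (P * Q)
      ≤ (Q * v - P * v') * y / (P * Q) := div_le_div_of_nonneg_right h1 hPQ.le
  have h4 : (v * y - |v| * (h - l)) / P ≤ min (v * l) (v * h) / P :=
    div_le_div_of_nonneg_right h2 hP.le
  have e1 : (Q * v - P * v') * y / (P * Q) = v * y / P + -v' * y / Q := by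
    field_simp
    ring
  have e2 : (v * y - |v| * (h - l)) / P = v * y / P - |v| / P * (h - l) := by
    field_simp
  linarith

/-- The overlap inequality. -/
lemma overlap (r : ℕ) (v v' : ℕ → ℤ) (bm bp : ℕ → ℝ) (X : ℝ) (hP : 0 < v r) (hQ : 0 < v' r)
    (hlh : ∀ s < r, bm s ≤ bp s) (hX : ∀ s, |(v s : ℝ)| ≤ X) :
    mb r (elimv r v v') bm bp / ((v r : ℝ) * (v' r : ℝ)) - X * Wd r bm bp
      ≤ tmv r v' bm bp - tpv r v bm bp := by
  have hP' : (0 : ℝ) < (v r : ℝ) := by exact_mod_cast hP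
  have hQ' : (0 : ℝ) < (v' r : ℝ) := by exact_mod_cast hQ
  have hP1 : (1 : ℝ) ≤ (v r : ℝ) := by exact_mod_cast hP
  have e1 : tmv r v' bm bp - tpv r v bm bp = ∑ s ∈ range r,
      (min (((-v') s : ℤ) * bm s) (((-v') s : ℤ) * bp s) / (v' r : ℝ)
        + min ((v s : ℝ) * bm s) ((v s : ℝ) * bp s) / (v r : ℝ)) := by
    unfold tmv tpv mb
    rw [Finset.sum_add_distrib, ← Finset.sum_div, ← Finset.sum_div]
    ring
  have e2 : mb r (elimv r v v') bm bp / ((v r : ℝ) * (v' r : ℝ)) - X * Wd r bm bp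
      = ∑ s ∈ range r, (min ((elimv r v v' s : ℝ) * bm s) ((elimv r v v' s : ℝ) * bp s)
          / ((v r : ℝ) * (v' r : ℝ)) - X * (bp s - bm s)) := by
    unfold mb Wd
    rw [Finset.sum_div, Finset.mul_sum, Finset.sum_sub_distrib]
  rw [e1, e2]
  apply Finset.sum_le_sum
  intro s hs
  have hs' := Finset.mem_range.mp hs
  have hl := hlh s hs'
  have hw : 0 ≤ bp s - bm s := by linarith
  have h1 := coord_overlap (v s : ℝ) (v' s : ℝ) (v r : ℝ) (v' r : ℝ) (bm s) (bp s) hP' hQ' hl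
  have h2 : |(v s : ℝ)| / (v r : ℝ) * (bp s - bm s) ≤ X * (bp s - bm s) := by
    apply mul_le_mul_of_nonneg_right _ hw
    have h3 : |(v s : ℝ)| / (v r : ℝ) ≤ |(v s : ℝ)| := div_le_self (abs_nonneg _) hP1
    exact h3.trans (hX s)
  have e : ((elimv r v v' s : ℤ) : ℝ) = (v' r : ℝ) * (v s : ℝ) - (v r : ℝ) * (v' s : ℝ) := by
    simp [elimv]
  have e' : (((-v') s : ℤ) : ℝ) = -(v' s : ℝ) := by simp
  rw [e, e']
  linarith

lemma tm_le_tp (r : ℕ) (v : ℕ → ℤ) (bm bp : ℕ → ℝ) (hP : 0 < v r) :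
    tmv r v bm bp ≤ tpv r v bm bp := by
  have hP' : (0 : ℝ) < (v r : ℝ) := by exact_mod_cast hP
  unfold tmv tpv
  apply div_le_div_of_nonneg_right _ hP'.le
  unfold mb
  rw [← Finset.sum_neg_distrib]
  apply Finset.sum_le_sum
  intro s _
  have e' : (((-v) s : ℤ) : ℝ) = -(v s : ℝ) := by simp
  rw [e']
  rcases le_total ((v s : ℝ) * bm s) ((v s : ℝ) * bp s) with h | h
  · rw [min_eq_left h]
    have := min_le_left (-(v s : ℝ) * bm s) (-(v s : ℝ) * bp s)
    linarith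
  · rw [min_eq_right h]
    have := min_le_right (-(v s : ℝ) * bm s) (-(v s : ℝ) * bp s)
    linarith

lemma abs_mb_le (r : ℕ) (v : ℕ → ℤ) (bm bp : ℕ → ℝ) (X : ℝ) (G : ℕ → ℝ)
    (hX : ∀ s, |(v s : ℝ)| ≤ X) (hm : ∀ s < r, |bm s| ≤ G s) (hp : ∀ s < r, |bp s| ≤ G s) :
    |mb r v bm bp| ≤ X * ∑ s ∈ range r, G s := by
  unfold mb
  rw [Finset.mul_sum]
  refine (Finset.abs_sum_le_sum_abs _ _).trans ?_
  apply Finset.sum_le_sum
  intro s hs
  have hs' := Finset.mem_range.mp hs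
  have hG0 : 0 ≤ G s := (abs_nonneg _).trans (hm s hs')
  have hX0 : 0 ≤ X := (abs_nonneg _).trans (hX s)
  have key : ∀ y : ℝ, |y| ≤ G s → |(v s : ℝ) * y| ≤ X * G s := by
    intro y hy
    rw [abs_mul]
    exact mul_le_mul (hX s) hy (abs_nonneg _) hX0
  rcases le_total ((v s : ℝ) * bm s) ((v s : ℝ) * bp s) with h | h
  · rw [min_eq_left h]
    exact key _ (hm s hs')
  · rw [min_eq_right h]
    exact key _ (hp s hs')

/-- The scheme: families of vectors and all constants. -/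
structure Scheme (d : ℕ) where
  F : ℕ → Finset (ℕ → ℤ)
  neg_mem : ∀ r, ∀ v ∈ F r, -v ∈ F r
  down : ∀ r, r + 1 < d → ∀ v ∈ F (r + 1), v (r + 1) = 0 → v ∈ F r
  elim : ∀ r, r + 1 < d → ∀ v ∈ F (r + 1), ∀ v' ∈ F (r + 1), 0 < v (r + 1) → 0 < v' (r + 1) →
    elimv (r + 1) v v' ∈ F r
  Xi : ℝ
  Xi_one : 1 ≤ Xi
  Xi_bd : ∀ r, r < d → ∀ v ∈ F r, ∀ s, |(v s : ℝ)| ≤ Xi
  ell : ℕ
  ell_pos : 1 ≤ ell
  D : ℕ
  D_pos : 1 ≤ D
  D_dvd : ∀ r, r < d → ∀ v ∈ F r, 0 < v r → v r ∣ (D : ℤ)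
  eta : ℝ
  eta_one : 1 ≤ eta
  A : ℕ → ℝ
  B : ℕ → ℝ
  Om : ℕ → ℝ
  Gam : ℕ → ℝ
  A_nonneg : ∀ r, 0 ≤ A r
  B_nonneg : ∀ r, 0 ≤ B r
  Om_nonneg : ∀ r, 0 ≤ Om r
  Gam_nonneg : ∀ r, 0 ≤ Gam r
  hrec : ∀ r, r + 1 < d → ∀ W : ℝ, 0 ≤ W →
    Xi ^ 2 * (Xi * W + eta + (A (r + 1) + B (r + 1) * W + B (r + 1) * (2 * eta))
      + (A (r + 1) + B (r + 1) * W)
      + B (r + 1) * (2 * eta + 2 * Xi * W + 2 * (A (r + 1) + B (r + 1) * W + B (r + 1) * (2 * eta))))
      ≤ A r + B r * W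
  hOm : ∀ r, r < d →
    2 * eta + 2 * Xi * (∑ s ∈ range r, Om s)
      + 2 * (A r + B r * (∑ s ∈ range r, Om s) + B r * (2 * eta)) ≤ Om r
  hGam : ∀ r, r < d →
    Xi * (∑ s ∈ range r, (Gam s + 1)) + 1
      + (A r + B r * (∑ s ∈ range r, Om s) + B r * (2 * eta)) ≤ Gam r
  hclimb : ∀ r, r < d → 2 * Gam r ≤ ((ell : ℝ) - 1) * eta

namespace Scheme

variable {d : ℕ} (S : Scheme d)

/-- The mesh ratio. -/
def KK : ℕ := S.D * S.ell

lemma KK_pos : 1 ≤ S.KK := Nat.mul_pos S.D_pos S.ell_pos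

lemma KK_cast_pos : (0 : ℝ) < (S.KK : ℝ) := by
  exact_mod_cast S.KK_pos

/-- The mesh at level `s`. -/
def del (s : ℕ) : ℝ := 1 / (S.KK : ℝ) ^ s

lemma del_pos (s : ℕ) : 0 < S.del s := by
  unfold del
  have := S.KK_cast_pos
  positivity

lemma del_le_one (s : ℕ) : S.del s ≤ 1 := by
  unfold del
  have h : (1 : ℝ) ≤ (S.KK : ℝ) := by exact_mod_cast S.KK_pos
  rw [div_le_one (by positivity)]
  exact one_le_pow₀ h

lemma del_rel {s r : ℕ} (h : s < r) : (S.KK : ℝ) * (S.KK : ℝ) ^ (r - 1 - s) * S.del r = S.del s := by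
  unfold del
  have hK := S.KK_cast_pos
  have e : r = (r - 1 - s) + 1 + s := by omega
  have e2 : (S.KK : ℝ) ^ r = (S.KK : ℝ) ^ (r - 1 - s) * (S.KK : ℝ) * (S.KK : ℝ) ^ s := by
    conv_lhs => rw [e]
    rw [pow_add, pow_succ]
  rw [e2]
  field_simp

/-- The real position at level `s`. -/
def nn (k : ℕ → ℤ) (s : ℕ) : ℝ := (k s : ℝ) * S.del s

/-- Pairing of the first `r` positions. -/
def ipr (r : ℕ) (v : ℕ → ℤ) (k : ℕ → ℤ) : ℝ := ∑ s ∈ range r, (v s : ℝ) * S.nn k s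

/-- The kink position of a vector at level `r`. -/
def pk (r : ℕ) (v : ℕ → ℤ) (k : ℕ → ℤ) : ℤ :=
  -((S.ell : ℤ) * ((S.D : ℤ) / v r)) * ∑ s ∈ range r, v s * k s * (S.KK : ℤ) ^ (r - 1 - s)

lemma ell_dvd_pk (r : ℕ) (v : ℕ → ℤ) (k : ℕ → ℤ) : (S.ell : ℤ) ∣ S.pk r v k := by
  unfold pk
  exact ⟨-((S.D : ℤ) / v r) * ∑ s ∈ range r, v s * k s * (S.KK : ℤ) ^ (r - 1 - s), by ring⟩

lemma pk_congr {r : ℕ} {v : ℕ → ℤ} {k k' : ℕ → ℤ} (h : ∀ s < r, k s = k' s) :
    S.pk r v k = S.pk r v k' := by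
  unfold pk
  congr 1
  apply Finset.sum_congr rfl
  intro s hs
  rw [h s (Finset.mem_range.mp hs)]

/-- The kink identity. -/
lemma pk_identity {r : ℕ} (hr : r < d) {v : ℕ → ℤ} (hv : v ∈ S.F r) (hpos : 0 < v r) (k : ℕ → ℤ) :
    (S.pk r v k : ℝ) * S.del r * (v r : ℝ) = - S.ipr r v k := by
  have hdvd := S.D_dvd r hr v hv hpos
  have e0 : (v r : ℤ) * ((S.D : ℤ) / v r) = (S.D : ℤ) := Int.mul_ediv_cancel' hdvd
  have e1 : (v r : ℝ) * (((S.D : ℤ) / v r : ℤ) : ℝ) = (S.D : ℝ) := by exact_mod_cast e0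
  have e2 : ((S.KK : ℕ) : ℝ) = (S.D : ℝ) * (S.ell : ℝ) := by
    unfold KK
    push_cast
    ring
  unfold pk ipr nn
  push_cast
  have e3 : -((S.ell : ℝ) * (((S.D : ℤ) / v r : ℤ) : ℝ)) *
        (∑ s ∈ range r, (v s : ℝ) * (k s : ℝ) * (S.KK : ℝ) ^ (r - 1 - s)) * S.del r * (v r : ℝ)
      = -(∑ s ∈ range r, (v s : ℝ) * (k s : ℝ) * (S.KK : ℝ) ^ (r - 1 - s)) *
          ((S.ell : ℝ) * ((v r : ℝ) * (((S.D : ℤ) / v r : ℤ) : ℝ))) * S.del r := by ring
  rw [e3, e1, mul_comm (S.ell : ℝ) (S.D : ℝ), ← e2]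
  rw [neg_mul, neg_mul, neg_inj, Finset.sum_mul, Finset.sum_mul]
  apply Finset.sum_congr rfl
  intro s hs
  have := S.del_rel (Finset.mem_range.mp hs)
  rw [← this]
  ring

lemma ipr_succ (r : ℕ) (v k : ℕ → ℤ) :
    S.ipr (r + 1) v k = S.ipr r v k + (v r : ℝ) * S.nn k r := by
  unfold ipr
  rw [Finset.sum_range_succ]

/-- Pairing at level `r` through the kink. -/
lemma ipr_kink {r : ℕ} (hr : r < d) {v : ℕ → ℤ} (hv : v ∈ S.F r) (hpos : 0 < v r) (k : ℕ → ℤ) :
    S.ipr (r + 1) v k = (v r : ℝ) * S.del r * ((k r : ℝ) - (S.pk r v k : ℝ)) := by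
  rw [ipr_succ]
  have := S.pk_identity hr hv hpos k
  unfold nn
  linear_combination this

lemma ipr_neg (r : ℕ) (v k : ℕ → ℤ) : S.ipr r (-v) k = - S.ipr r v k := by
  unfold ipr
  rw [← Finset.sum_neg_distrib]
  apply Finset.sum_congr rfl
  intro s _
  simp

/-- Pairing of the eliminated vector. -/
lemma ipr_elim {r : ℕ} (hr : r < d) {v v' : ℕ → ℤ} (hv : v ∈ S.F r) (hv' : v' ∈ S.F r)
    (hpos : 0 < v r) (hpos' : 0 < v' r) (k : ℕ → ℤ) :
    S.ipr r (elimv r v v') k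
      = (v r : ℝ) * (v' r : ℝ) * S.del r * ((S.pk r v' k : ℝ) - (S.pk r v k : ℝ)) := by
  have h1 := S.pk_identity hr hv hpos k
  have h2 := S.pk_identity hr hv' hpos' k
  have e : S.ipr r (elimv r v v') k = (v' r : ℝ) * S.ipr r v k - (v r : ℝ) * S.ipr r v' k := by
    unfold ipr elimv
    rw [Finset.mul_sum, Finset.mul_sum, ← Finset.sum_sub_distrib]
    apply Finset.sum_congr rfl
    intro s _
    push_cast
    ring
  rw [e]
  linear_combination ((v' r : ℝ)) * h1 - (v r : ℝ) * h2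

/-- Kinks of the level. -/
def Kk (r : ℕ) : Finset (ℕ → ℤ) := (S.F r).filter (fun v => 0 < v r)

/-- One level of the recursion. -/
def beta (r : ℕ) (bm bp : ℕ → ℝ) (k : ℕ → ℤ) : ℤ → ℝ :=
  dzz (S.Kk r) (fun v => S.pk r v k) (fun v => tmv r v bm bp) (fun v => tpv r v bm bp) S.ell
    (S.del r) S.eta (S.A r + S.B r * Wd r bm bp) (S.B r) (S.Gam r)

/-- The offsets, by recursion on the level. -/
def bet (r : ℕ) (k : ℕ → ℤ) (i : ℤ) : ℝ :=
  S.beta r (fun s => if h : s < r then bet s k (k s - 1) - S.del s else 0)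
    (fun s => if h : s < r then bet s k (k s) else 0) k i
termination_by r
decreasing_by all_goals exact h

/-- Lower end of the box. -/
def bmf (k : ℕ → ℤ) (s : ℕ) : ℝ := S.bet s k (k s - 1) - S.del s

/-- Upper end of the box. -/
def bpf (k : ℕ → ℤ) (s : ℕ) : ℝ := S.bet s k (k s)

lemma beta_congr {r : ℕ} {bm bp bm' bp' : ℕ → ℝ} {k k' : ℕ → ℤ} (h : ∀ s < r, bm s = bm' s)
    (h' : ∀ s < r, bp s = bp' s) (hk : ∀ s < r, k s = k' s) :
    S.beta r bm bp k = S.beta r bm' bp' k' := by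
  unfold beta
  have e1 : (fun v => S.pk r v k) = (fun v => S.pk r v k') := by
    funext v
    exact S.pk_congr hk
  have e2 : (fun v => tmv r v bm bp) = (fun v => tmv r v bm' bp') := by
    funext v
    unfold tmv
    rw [mb_congr h h']
  have e3 : (fun v => tpv r v bm bp) = (fun v => tpv r v bm' bp') := by
    funext v
    unfold tpv
    rw [mb_congr h h']
  rw [e1, e2, e3, Wd_congr h h']

lemma bet_eq (r : ℕ) (k : ℕ → ℤ) (i : ℤ) : S.bet r k i = S.beta r (S.bmf k) (S.bpf k) k i := by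
  rw [bet]
  have := S.beta_congr (r := r) (k := k) (k' := k)
    (bm := fun s => if h : s < r then S.bet s k (k s - 1) - S.del s else 0) (bm' := S.bmf k)
    (bp := fun s => if h : s < r then S.bet s k (k s) else 0) (bp' := S.bpf k)
    (fun s hs => by simp [hs, bmf]) (fun s hs => by simp [hs, bpf]) (fun _ _ => rfl)
  rw [this]

/-- The offsets depend only on the prefix. -/
lemma bet_congr (r : ℕ) : ∀ {k k' : ℕ → ℤ}, (∀ s < r, k s = k' s) → ∀ i, S.bet r k i = S.bet r k' i := by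
  induction r using Nat.strong_induction_on with
  | _ r ih =>
    intro k k' hk i
    rw [S.bet_eq r k i, S.bet_eq r k' i]
    have h1 : ∀ s < r, S.bmf k s = S.bmf k' s := by
      intro s hs
      unfold bmf
      rw [ih s hs (fun t ht => hk t (ht.trans hs)), hk s hs]
    have h2 : ∀ s < r, S.bpf k s = S.bpf k' s := by
      intro s hs
      unfold bpf
      rw [ih s hs (fun t ht => hk t (ht.trans hs)), hk s hs]
    rw [S.beta_congr h1 h2 hk]

/-- Facts established level by level. -/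
structure Level (r : ℕ) : Prop where
  wid : ∀ k, ∀ s < r, S.del s ≤ S.bpf k s - S.bmf k s ∧ S.bpf k s - S.bmf k s ≤ S.Om s
  bd : ∀ k, ∀ s < r, ∀ i, |S.bet s k i| ≤ S.Gam s
  mono : ∀ k, ∀ s < r, ∀ i, S.bet s k (i - 1) ≤ S.bet s k i
  inv : ∀ k, ∀ t, t + 1 = r → ∀ v ∈ S.F t, 0 < S.ipr r v k →
    S.A t + S.B t * Wd r (S.bmf k) (S.bpf k) ≤ mb r v (S.bmf k) (S.bpf k)
  inv0 : ∀ k, ∀ t, t + 1 = r → ∀ v ∈ S.F t, S.ipr r v k = 0 →
    - S.Xi * Wd r (S.bmf k) (S.bpf k) ≤ mb r v (S.bmf k) (S.bpf k)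

lemma level_zero : S.Level 0 where
  wid := fun _ s hs => absurd hs (Nat.not_lt_zero s)
  bd := fun _ s hs => absurd hs (Nat.not_lt_zero s)
  mono := fun _ s hs => absurd hs (Nat.not_lt_zero s)
  inv := fun _ t ht => absurd ht (Nat.succ_ne_zero t)
  inv0 := fun _ t ht => absurd ht (Nat.succ_ne_zero t)

section step

variable {S} {r : ℕ}

lemma Wd_nonneg (hL : S.Level r) (k : ℕ → ℤ) : 0 ≤ Wd r (S.bmf k) (S.bpf k) := by
  unfold Wd
  apply Finset.sum_nonneg
  intro s hs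
  have := (hL.wid k s (Finset.mem_range.mp hs)).1
  have := S.del_pos s
  linarith

lemma Wd_le (hL : S.Level r) (k : ℕ → ℤ) : Wd r (S.bmf k) (S.bpf k) ≤ ∑ s ∈ range r, S.Om s := by
  unfold Wd
  apply Finset.sum_le_sum
  intro s hs
  exact (hL.wid k s (Finset.mem_range.mp hs)).2

lemma box_le (hL : S.Level r) (k : ℕ → ℤ) {s : ℕ} (hs : s < r) : S.bmf k s ≤ S.bpf k s := by
  have := (hL.wid k s hs).1
  have := S.del_pos s
  linarith

lemma abs_bmf (hL : S.Level r) (k : ℕ → ℤ) {s : ℕ} (hs : s < r) : |S.bmf k s| ≤ S.Gam s + 1 := by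
  unfold bmf
  have h1 := hL.bd k s hs (k s - 1)
  have h2 := S.del_pos s
  have h3 := S.del_le_one s
  refine (abs_sub _ _).trans ?_
  rw [abs_of_pos h2]
  linarith

lemma abs_bpf (hL : S.Level r) (k : ℕ → ℤ) {s : ℕ} (hs : s < r) : |S.bpf k s| ≤ S.Gam s + 1 := by
  unfold bpf
  have h1 := hL.bd k s hs (k s)
  linarith

lemma abs_mb_level (hL : S.Level r) (k : ℕ → ℤ) {t : ℕ} (ht : t < d) {v : ℕ → ℤ} (hv : v ∈ S.F t) :
    |mb r v (S.bmf k) (S.bpf k)| ≤ S.Xi * ∑ s ∈ range r, (S.Gam s + 1) :=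
  abs_mb_le r v _ _ S.Xi _ (S.Xi_bd t ht v hv) (fun _ hs => abs_bmf hL k hs)
    (fun _ hs => abs_bpf hL k hs)

/-- The hypotheses of the design at level `r`. -/
lemma design_hyp (hL : S.Level r) (hr : r < d) (k : ℕ → ℤ) :
    DesignHyp (S.Kk r) (fun v => S.pk r v k) (fun v => tmv r v (S.bmf k) (S.bpf k))
      (fun v => tpv r v (S.bmf k) (S.bpf k)) S.ell (S.del r) S.eta
      (S.A r + S.B r * Wd r (S.bmf k) (S.bpf k)) (S.B r)
      (2 * S.Xi * Wd r (S.bmf k) (S.bpf k)) (S.Gam r) := by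
  set W := Wd r (S.bmf k) (S.bpf k) with hW
  have hW0 : 0 ≤ W := Wd_nonneg hL k
  have hWle : W ≤ ∑ s ∈ range r, S.Om s := Wd_le hL k
  have hXi := S.Xi_one
  have hXi0 : 0 < S.Xi := by linarith
  have hA0 := S.A_nonneg r
  have hB0 := S.B_nonneg r
  have heta := S.eta_one
  have hdel := S.del_pos r
  have hdel1 := S.del_le_one r
  have hmem : ∀ {v}, v ∈ S.Kk r → v ∈ S.F r ∧ 0 < v r := by
    intro v hv
    exact Finset.mem_filter.mp hv
  have hRgle : S.A r + S.B r * W + S.B r * (2 * S.eta)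
      ≤ S.A r + S.B r * (∑ s ∈ range r, S.Om s) + S.B r * (2 * S.eta) := by
    have := mul_le_mul_of_nonneg_left hWle hB0
    linarith
  have hG := S.hGam r hr
  have hpos1 : ∀ {v : ℕ → ℤ}, 0 < v r → (1 : ℝ) ≤ (v r : ℝ) := by
    intro v h
    exact_mod_cast h
  have hmbabs : ∀ {v : ℕ → ℤ}, v ∈ S.F r → |mb r v (S.bmf k) (S.bpf k)|
      ≤ S.Xi * ∑ s ∈ range r, (S.Gam s + 1) := fun hv => abs_mb_level hL k hr hv
  have htpabs : ∀ {v : ℕ → ℤ}, v ∈ S.F r → 0 < v r → |tpv r v (S.bmf k) (S.bpf k)|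
      ≤ S.Xi * ∑ s ∈ range r, (S.Gam s + 1) := by
    intro v hv hp
    unfold tpv
    rw [abs_div, abs_neg]
    have h1 := hpos1 hp
    rw [abs_of_pos (by linarith : (0 : ℝ) < (v r : ℝ))]
    exact (div_le_self (abs_nonneg _) h1).trans (hmbabs hv)
  have htmabs : ∀ {v : ℕ → ℤ}, v ∈ S.F r → 0 < v r → |tmv r v (S.bmf k) (S.bpf k)|
      ≤ S.Xi * ∑ s ∈ range r, (S.Gam s + 1) := by
    intro v hv hp
    unfold tmv
    rw [abs_div]
    have h1 := hpos1 hp
    rw [abs_of_pos (by linarith : (0 : ℝ) < (v r : ℝ))]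
    exact (div_le_self (abs_nonneg _) h1).trans (hmbabs (S.neg_mem r v hv))
  have hsum0 : 0 ≤ ∑ s ∈ range r, (S.Gam s + 1) := by
    apply Finset.sum_nonneg
    intro s _
    have := S.Gam_nonneg s
    linarith
  have hBB : 0 ≤ S.B r * W := mul_nonneg hB0 hW0
  have hBeta : 0 ≤ S.B r * (2 * S.eta) := mul_nonneg hB0 (by linarith)
  refine
    { hℓ := S.ell_pos
      hp := fun a _ => S.ell_dvd_pk r a k
      hδ := hdel
      hδη := by linarith
      hAt := by positivity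
      hBt := hB0
      hσ := by positivity
      htm := fun a ha => tm_le_tp r a _ _ (hmem ha).2
      hgap := ?_
      hspread := ?_
      hcap0 := S.Gam_nonneg r
      hcap := ?_
      hcap' := ?_
      hclimb := S.hclimb r hr }
  · -- gap
    intro a ha c hc hac
    obtain ⟨ha1, ha2⟩ := hmem ha
    obtain ⟨hc1, hc2⟩ := hmem hc
    rcases r with _ | t
    · exfalso
      simp [pk] at hac
    · have htd : t + 1 < d := hr
      have hz := S.elim t htd a ha1 c hc1 ha2 hc2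
      have hip : 0 < S.ipr (t + 1) (elimv (t + 1) a c) k := by
        rw [S.ipr_elim hr ha1 hc1 ha2 hc2]
        have h1 : (0 : ℝ) < (a (t + 1) : ℝ) := by exact_mod_cast ha2
        have h2 : (0 : ℝ) < (c (t + 1) : ℝ) := by exact_mod_cast hc2
        have h3 : (0 : ℝ) < (S.pk (t + 1) c k : ℝ) - (S.pk (t + 1) a k : ℝ) := by
          have : (S.pk (t + 1) a k : ℝ) < (S.pk (t + 1) c k : ℝ) := by exact_mod_cast hac
          linarith
        positivity
      have hI := hL.inv k t rfl _ hz hip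
      have hov := overlap (t + 1) a c (S.bmf k) (S.bpf k) S.Xi ha2 hc2
        (fun s hs => box_le hL k hs) (S.Xi_bd _ hr a ha1)
      have hrec := S.hrec t htd W hW0
      have hAt0 := S.A_nonneg t
      have hBt0 := S.B_nonneg t
      have hPQ : (a (t + 1) : ℝ) * (c (t + 1) : ℝ) ≤ S.Xi ^ 2 := by
        have h1 := S.Xi_bd _ hr a ha1 (t + 1)
        have h2 := S.Xi_bd _ hr c hc1 (t + 1)
        have h3 : (0 : ℝ) < (a (t + 1) : ℝ) := by exact_mod_cast ha2
        have h4 : (0 : ℝ) < (c (t + 1) : ℝ) := by exact_mod_cast hc2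
        rw [abs_of_pos h3] at h1
        rw [abs_of_pos h4] at h2
        rw [sq]
        exact mul_le_mul h1 h2 h4.le hXi0.le
      have hPQ0 : (0 : ℝ) < (a (t + 1) : ℝ) * (c (t + 1) : ℝ) := by
        have h3 : (0 : ℝ) < (a (t + 1) : ℝ) := by exact_mod_cast ha2
        have h4 : (0 : ℝ) < (c (t + 1) : ℝ) := by exact_mod_cast hc2
        positivity
      set mz := mb (t + 1) (elimv (t + 1) a c) (S.bmf k) (S.bpf k) with hmz
      have hmz0 : 0 ≤ mz := le_trans (by positivity) hI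
      have h5 : mz / S.Xi ^ 2 ≤ mz / ((a (t + 1) : ℝ) * (c (t + 1) : ℝ)) :=
        div_le_div_of_nonneg_left hmz0 hPQ0 hPQ
      have h6 : (S.A t + S.B t * W) / S.Xi ^ 2 ≤ mz / S.Xi ^ 2 :=
        div_le_div_of_nonneg_right hI (by positivity)
      have h7 : S.Xi * W + S.eta + (S.A (t + 1) + S.B (t + 1) * W + S.B (t + 1) * (2 * S.eta))
          + (S.A (t + 1) + S.B (t + 1) * W)
          + S.B (t + 1) * (2 * S.eta + 2 * S.Xi * W
            + 2 * (S.A (t + 1) + S.B (t + 1) * W + S.B (t + 1) * (2 * S.eta)))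
          ≤ (S.A t + S.B t * W) / S.Xi ^ 2 := by
        rw [le_div_iff₀ (by positivity)]
        linarith
      have hdel2 : S.del (t + 1) ≤ S.eta := by linarith
      nlinarith [hov, h5, h6, h7, hdel2]
  · -- spread
    intro a ha c hc hac
    obtain ⟨ha1, ha2⟩ := hmem ha
    obtain ⟨hc1, hc2⟩ := hmem hc
    rcases r with _ | t
    · simp [tpv, tmv, mb]
      positivity
    · have htd : t + 1 < d := hr
      have hz := S.elim t htd a ha1 c hc1 ha2 hc2
      have hac' : S.pk (t + 1) a k = S.pk (t + 1) c k := hac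
      have hip : S.ipr (t + 1) (elimv (t + 1) a c) k = 0 := by
        rw [S.ipr_elim hr ha1 hc1 ha2 hc2, hac']
        ring
      have hI := hL.inv0 k t rfl _ hz hip
      have hov := overlap (t + 1) a c (S.bmf k) (S.bpf k) S.Xi ha2 hc2
        (fun s hs => box_le hL k hs) (S.Xi_bd _ hr a ha1)
      have h1 : (1 : ℝ) ≤ (a (t + 1) : ℝ) := by exact_mod_cast ha2
      have h2 : (1 : ℝ) ≤ (c (t + 1) : ℝ) := by exact_mod_cast hc2
      have hPQ : (1 : ℝ) ≤ (a (t + 1) : ℝ) * (c (t + 1) : ℝ) := by nlinarith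
      have hPQ0 : (0 : ℝ) < (a (t + 1) : ℝ) * (c (t + 1) : ℝ) := by linarith
      set mz := mb (t + 1) (elimv (t + 1) a c) (S.bmf k) (S.bpf k) with hmz
      have h3 : - S.Xi * W / ((a (t + 1) : ℝ) * (c (t + 1) : ℝ))
          ≤ mz / ((a (t + 1) : ℝ) * (c (t + 1) : ℝ)) :=
        div_le_div_of_nonneg_right hI hPQ0.le
      have h4 : S.Xi * W / ((a (t + 1) : ℝ) * (c (t + 1) : ℝ)) ≤ S.Xi * W :=
        div_le_self (by positivity) hPQ
      have h5 : - S.Xi * W / ((a (t + 1) : ℝ) * (c (t + 1) : ℝ))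
          = -(S.Xi * W / ((a (t + 1) : ℝ) * (c (t + 1) : ℝ))) := by ring
      linarith
  · -- cap
    intro a ha
    obtain ⟨ha1, ha2⟩ := hmem ha
    have h1 := htpabs ha1 ha2
    have h2 := le_abs_self (tpv r a (S.bmf k) (S.bpf k))
    linarith
  · -- cap'
    intro a ha
    obtain ⟨ha1, ha2⟩ := hmem ha
    have h1 := htmabs ha1 ha2
    have h2 := neg_abs_le (tmv r a (S.bmf k) (S.bpf k))
    linarith

lemma bet_dzz (r : ℕ) (k : ℕ → ℤ) (i : ℤ) : S.bet r k i =
    dzz (S.Kk r) (fun v => S.pk r v k) (fun v => tmv r v (S.bmf k) (S.bpf k))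
      (fun v => tpv r v (S.bmf k) (S.bpf k)) S.ell (S.del r) S.eta
      (S.A r + S.B r * Wd r (S.bmf k) (S.bpf k)) (S.B r) (S.Gam r) i := by
  rw [S.bet_eq]
  rfl

lemma width_eq (k : ℕ → ℤ) (r : ℕ) :
    S.bpf k r - S.bmf k r = S.del r + S.bet r k (k r) - S.bet r k (k r - 1) := by
  unfold bpf bmf
  ring

/-- Positive leading coefficient. -/
lemma inv_pos (hL : S.Level r) (hr : r < d) (k : ℕ → ℤ) {v : ℕ → ℤ} (hv : v ∈ S.F r)
    (hp : 0 < v r) (hip : 0 < S.ipr (r + 1) v k) :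
    S.A r + S.B r * Wd (r + 1) (S.bmf k) (S.bpf k) ≤ mb (r + 1) v (S.bmf k) (S.bpf k) := by
  have H := design_hyp hL hr k
  have hvK : v ∈ S.Kk r := Finset.mem_filter.mpr ⟨hv, hp⟩
  have hv0 : (0 : ℝ) < (v r : ℝ) := by exact_mod_cast hp
  have hv1 : (1 : ℝ) ≤ (v r : ℝ) := by exact_mod_cast hp
  have hlt : S.pk r v k < k r := by
    rw [S.ipr_kink hr hv hp] at hip
    have hd := S.del_pos r
    have h1 : 0 < (k r : ℝ) - (S.pk r v k : ℝ) := by
      by_contra hcon
      push Not at hcon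
      have : (v r : ℝ) * S.del r * ((k r : ℝ) - (S.pk r v k : ℝ)) ≤ 0 :=
        mul_nonpos_of_nonneg_of_nonpos (by positivity) hcon
      linarith
    have h2 : (S.pk r v k : ℝ) < (k r : ℝ) := by linarith
    exact_mod_cast h2
  have hlow := D_lower H hvK hlt
  simp only [← S.bet_dzz] at hlow
  rw [mb_succ, Wd_succ]
  have hmono := D_mono H (k r)
  simp only [← S.bet_dzz] at hmono
  have hwid := S.width_eq k r
  have hle : S.bmf k r ≤ S.bpf k r := by
    have := S.del_pos r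
    unfold bmf bpf
    linarith
  have hmin : min ((v r : ℝ) * S.bmf k r) ((v r : ℝ) * S.bpf k r) = (v r : ℝ) * S.bmf k r :=
    min_eq_left (mul_le_mul_of_nonneg_left hle hv0.le)
  rw [hmin]
  have e : mb r v (S.bmf k) (S.bpf k) = - (v r : ℝ) * tpv r v (S.bmf k) (S.bpf k) := by
    unfold tpv
    field_simp
  rw [e]
  have hbm : S.bmf k r = S.bet r k (k r - 1) - S.del r := rfl
  set T := tpv r v (S.bmf k) (S.bpf k)
  set W := Wd r (S.bmf k) (S.bpf k)
  have hω : S.bpf k r - S.bmf k r = S.del r + S.bet r k (k r) - S.bet r k (k r - 1) := hwid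
  rw [← hω] at hlow
  rw [← hbm] at hlow
  have hW0 : 0 ≤ W := Wd_nonneg hL k
  have hB0 := S.B_nonneg r
  have hA0 := S.A_nonneg r
  have hω0 : 0 ≤ S.bpf k r - S.bmf k r := by linarith
  have hX : 0 ≤ S.A r + S.B r * (W + (S.bpf k r - S.bmf k r)) := by positivity
  have h2 : S.A r + S.B r * (W + (S.bpf k r - S.bmf k r)) ≤ S.bmf k r - T := by
    have : S.B r * (W + (S.bpf k r - S.bmf k r)) = S.B r * W + S.B r * (S.bpf k r - S.bmf k r) := by
      ring
    linarith
  have h3 : S.bmf k r - T ≤ (v r : ℝ) * (S.bmf k r - T) := by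
    have : 0 ≤ S.bmf k r - T := hX.trans h2
    nlinarith
  linarith

/-- Negative leading coefficient. -/
lemma inv_neg (hL : S.Level r) (hr : r < d) (k : ℕ → ℤ) {v : ℕ → ℤ} (hv : v ∈ S.F r)
    (hn : v r < 0) (hip : 0 < S.ipr (r + 1) v k) :
    S.A r + S.B r * Wd (r + 1) (S.bmf k) (S.bpf k) ≤ mb (r + 1) v (S.bmf k) (S.bpf k) := by
  have H := design_hyp hL hr k
  have hu : -v ∈ S.F r := S.neg_mem r v hv
  have hup : 0 < (-v) r := by simpa using hn
  have huK : -v ∈ S.Kk r := Finset.mem_filter.mpr ⟨hu, hup⟩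
  have hv0 : (0 : ℝ) < ((-v) r : ℝ) := by exact_mod_cast hup
  have hv1 : (1 : ℝ) ≤ ((-v) r : ℝ) := by exact_mod_cast hup
  have hlt : k r < S.pk r (-v) k := by
    have h0 := S.ipr_kink hr hu hup k
    rw [ipr_neg] at h0
    have hd := S.del_pos r
    have h1 : (k r : ℝ) - (S.pk r (-v) k : ℝ) < 0 := by
      by_contra hcon
      push Not at hcon
      have : 0 ≤ ((-v) r : ℝ) * S.del r * ((k r : ℝ) - (S.pk r (-v) k : ℝ)) :=
        mul_nonneg (by positivity) hcon
      linarith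
    have h2 : (k r : ℝ) < (S.pk r (-v) k : ℝ) := by linarith
    exact_mod_cast h2
  have hup' := D_upper H huK hlt
  simp only [← S.bet_dzz] at hup'
  rw [mb_succ, Wd_succ]
  have hmono := D_mono H (k r)
  simp only [← S.bet_dzz] at hmono
  have hwid := S.width_eq k r
  have hle : S.bmf k r ≤ S.bpf k r := by
    have := S.del_pos r
    unfold bmf bpf
    linarith
  have ecast : (v r : ℝ) = -(((-v) r : ℤ) : ℝ) := by simp
  have hmin : min ((v r : ℝ) * S.bmf k r) ((v r : ℝ) * S.bpf k r) = (v r : ℝ) * S.bpf k r := by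
    apply min_eq_right
    rw [ecast]
    nlinarith
  rw [hmin]
  have e : mb r v (S.bmf k) (S.bpf k) = ((-v) r : ℝ) * tmv r (-v) (S.bmf k) (S.bpf k) := by
    unfold tmv
    rw [neg_neg]
    field_simp
  rw [e, ecast]
  set T := tmv r (-v) (S.bmf k) (S.bpf k)
  set W := Wd r (S.bmf k) (S.bpf k)
  have hbp : S.bpf k r = S.bet r k (k r) := rfl
  have hω : S.bpf k r - S.bmf k r = S.del r + S.bet r k (k r) - S.bet r k (k r - 1) := hwid
  rw [← hω, ← hbp] at hup'
  have hW0 : 0 ≤ W := Wd_nonneg hL k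
  have hB0 := S.B_nonneg r
  have hA0 := S.A_nonneg r
  have hω0 : 0 ≤ S.bpf k r - S.bmf k r := by linarith
  have hX : 0 ≤ S.A r + S.B r * (W + (S.bpf k r - S.bmf k r)) := by positivity
  have h2 : S.A r + S.B r * (W + (S.bpf k r - S.bmf k r)) ≤ T - S.bpf k r := by
    have : S.B r * (W + (S.bpf k r - S.bmf k r)) = S.B r * W + S.B r * (S.bpf k r - S.bmf k r) := by
      ring
    linarith
  have h3 : T - S.bpf k r ≤ ((-v) r : ℝ) * (T - S.bpf k r) := by
    have : 0 ≤ T - S.bpf k r := hX.trans h2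
    nlinarith
  nlinarith

/-- Zero leading coefficient: the margin of the soft vectors dominates. -/
lemma margin_down {t : ℕ} (ht : t + 1 < d) {W ω : ℝ} (hW : 0 ≤ W) (hω : ω ≤
      2 * S.eta + 2 * S.Xi * W + 2 * (S.A (t + 1) + S.B (t + 1) * W + S.B (t + 1) * (2 * S.eta))) :
    S.A (t + 1) + S.B (t + 1) * (W + ω) ≤ S.A t + S.B t * W := by
  have hrec := S.hrec t ht W hW
  have hX1 := S.Xi_one
  have hX2 : (1 : ℝ) ≤ S.Xi ^ 2 := by nlinarith
  have hB0 := S.B_nonneg (t + 1)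
  have hA0 := S.A_nonneg (t + 1)
  have heta := S.eta_one
  set J := 2 * S.eta + 2 * S.Xi * W + 2 * (S.A (t + 1) + S.B (t + 1) * W + S.B (t + 1) * (2 * S.eta))
  have h1 : S.B (t + 1) * ω ≤ S.B (t + 1) * J := mul_le_mul_of_nonneg_left hω hB0
  have hBW : 0 ≤ S.B (t + 1) * W := mul_nonneg hB0 hW
  have hBe : 0 ≤ S.B (t + 1) * (2 * S.eta) := mul_nonneg hB0 (by linarith)
  have hJ0 : 0 ≤ J := by positivity
  have hBJ : 0 ≤ S.B (t + 1) * J := mul_nonneg hB0 hJ0
  have hXW : 0 ≤ S.Xi * W := by positivity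
  set Y := S.Xi * W + S.eta + (S.A (t + 1) + S.B (t + 1) * W + S.B (t + 1) * (2 * S.eta))
      + (S.A (t + 1) + S.B (t + 1) * W) + S.B (t + 1) * J with hY
  have hY0 : 0 ≤ Y := by positivity
  have h2 : Y ≤ S.Xi ^ 2 * Y := by nlinarith
  have h3 : S.A (t + 1) + S.B (t + 1) * W + S.B (t + 1) * J ≤ Y := by
    rw [hY]
    linarith
  have e : S.A (t + 1) + S.B (t + 1) * (W + ω) = S.A (t + 1) + S.B (t + 1) * W + S.B (t + 1) * ω := by
    ring
  linarith

/-- The step of the induction. -/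
theorem level_succ (hL : S.Level r) (hr : r < d) : S.Level (r + 1) := by
  have hW : ∀ k, 0 ≤ Wd r (S.bmf k) (S.bpf k) := fun k => Wd_nonneg hL k
  have hwidr : ∀ k, S.bpf k r - S.bmf k r ≤ 2 * S.eta + 2 * S.Xi * Wd r (S.bmf k) (S.bpf k)
      + 2 * (S.A r + S.B r * Wd r (S.bmf k) (S.bpf k) + S.B r * (2 * S.eta)) := by
    intro k
    have H := design_hyp hL hr k
    have h1 := D_wid H (k r)
    simp only [← S.bet_dzz] at h1
    rw [S.width_eq k r]
    exact h1
  have hmonor : ∀ k i, S.bet r k (i - 1) ≤ S.bet r k i := by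
    intro k i
    have H := design_hyp hL hr k
    have h1 := D_mono H i
    simp only [← S.bet_dzz] at h1
    exact h1
  refine ⟨?_, ?_, ?_, ?_, ?_⟩
  · intro k s hs
    rcases Nat.lt_succ_iff_lt_or_eq.mp hs with h | rfl
    · exact hL.wid k s h
    · constructor
      · rw [S.width_eq k s]
        have := hmonor k (k s)
        linarith
      · refine (hwidr k).trans ?_
        refine le_trans ?_ (S.hOm s hr)
        have h1 := Wd_le hL k
        have hB0 := S.B_nonneg s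
        have h2 := mul_le_mul_of_nonneg_left h1 hB0
        have hX0 : 0 ≤ S.Xi := by linarith [S.Xi_one]
        have h3 := mul_le_mul_of_nonneg_left h1 hX0
        nlinarith
  · intro k s hs i
    rcases Nat.lt_succ_iff_lt_or_eq.mp hs with h | rfl
    · exact hL.bd k s h i
    · have H := design_hyp hL hr k
      have h1 := D_bound H i
      simp only [← S.bet_dzz] at h1
      exact abs_le.mpr h1
  · intro k s hs i
    rcases Nat.lt_succ_iff_lt_or_eq.mp hs with h | rfl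
    · exact hL.mono k s h i
    · exact hmonor k i
  · intro k t ht v hv hip
    obtain rfl : t = r := by omega
    rcases lt_trichotomy (v t) 0 with h | h | h
    · exact inv_neg hL hr k hv h hip
    · -- zero coefficient
      rw [mb_succ, Wd_succ]
      rw [S.ipr_succ] at hip
      simp only [h, Int.cast_zero, zero_mul, min_self, add_zero, zero_add] at hip ⊢
      rcases t with _ | t
      · simp [ipr] at hip
      · have ht' : t + 1 < d := hr
        have hv' := S.down t ht' v hv h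
        have hI := hL.inv k t rfl v hv' hip
        exact (margin_down ht' (hW k) (hwidr k)).trans hI
    · exact inv_pos hL hr k hv h hip
  · intro k t ht v hv hip
    obtain rfl : t = r := by omega
    have H := design_hyp hL hr k
    have hWk := hW k
    have hXi := S.Xi_one
    have hXi0 : 0 ≤ S.Xi := by linarith
    have hle : S.bmf k t ≤ S.bpf k t := by
      have := S.del_pos t
      have := hmonor k (k t)
      unfold bmf bpf
      linarith
    have hω0 : 0 ≤ S.bpf k t - S.bmf k t := by linarith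
    rcases lt_trichotomy (v t) 0 with h | h | h
    · -- negative
      have hu : -v ∈ S.F t := S.neg_mem t v hv
      have hup : 0 < (-v) t := by simpa using h
      have huK : -v ∈ S.Kk t := Finset.mem_filter.mpr ⟨hu, hup⟩
      have hv0 : (0 : ℝ) < ((-v) t : ℝ) := by exact_mod_cast hup
      have heq : k t = S.pk t (-v) k := by
        have h0 := S.ipr_kink hr hu hup k
        rw [ipr_neg, hip, neg_zero] at h0
        have hd := S.del_pos t
        have h1 : (k t : ℝ) - (S.pk t (-v) k : ℝ) = 0 := by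
          have h2 : ((-v) t : ℝ) * S.del t ≠ 0 := by positivity
          exact (mul_eq_zero.mp h0.symm).resolve_left h2
        have h2 : (k t : ℝ) = (S.pk t (-v) k : ℝ) := by linarith
        exact_mod_cast h2
      have hbox := D_box_down H huK
      simp only [← S.bet_dzz] at hbox
      rw [← heq] at hbox
      have hbm : S.bmf k t ≤ tmv t (-v) (S.bmf k) (S.bpf k) := hbox
      rw [mb_succ, Wd_succ]
      have ecast : (v t : ℝ) = -(((-v) t : ℤ) : ℝ) := by simp
      have hmin : min ((v t : ℝ) * S.bmf k t) ((v t : ℝ) * S.bpf k t) = (v t : ℝ) * S.bpf k t := by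
        apply min_eq_right
        rw [ecast]
        nlinarith
      rw [hmin]
      have e : mb t v (S.bmf k) (S.bpf k) = ((-v) t : ℝ) * tmv t (-v) (S.bmf k) (S.bpf k) := by
        unfold tmv
        rw [neg_neg]
        field_simp
      rw [e, ecast]
      have hX := S.Xi_bd t hr (-v) hu t
      rw [abs_of_pos hv0] at hX
      set T := tmv t (-v) (S.bmf k) (S.bpf k)
      have h1 : (((-v) t : ℤ) : ℝ) * (S.bmf k t - S.bpf k t) ≤ (((-v) t : ℤ) : ℝ) * (T - S.bpf k t) :=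
        mul_le_mul_of_nonneg_left (by linarith) hv0.le
      have h2 : (((-v) t : ℤ) : ℝ) * (S.bpf k t - S.bmf k t) ≤ S.Xi * (S.bpf k t - S.bmf k t) :=
        mul_le_mul_of_nonneg_right hX hω0
      have h3 : 0 ≤ S.Xi * Wd t (S.bmf k) (S.bpf k) := mul_nonneg hXi0 hWk
      nlinarith
    · -- zero coefficient
      rw [mb_succ, Wd_succ]
      rw [S.ipr_succ] at hip
      simp only [h, Int.cast_zero, zero_mul, min_self, add_zero] at hip ⊢
      have h3 : 0 ≤ S.Xi * (S.bpf k t - S.bmf k t) := mul_nonneg hXi0 hω0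
      rcases t with _ | t
      · simp only [Wd, mb, Finset.range_zero, Finset.sum_empty, zero_add]
        linarith
      · have ht' : t + 1 < d := hr
        have hv' := S.down t ht' v hv h
        have hI := hL.inv0 k t rfl v hv' hip
        have : -S.Xi * (Wd (t + 1) (S.bmf k) (S.bpf k) + (S.bpf k (t + 1) - S.bmf k (t + 1)))
            = -S.Xi * Wd (t + 1) (S.bmf k) (S.bpf k) - S.Xi * (S.bpf k (t + 1) - S.bmf k (t + 1)) := by
          ring
        linarith
    · -- positive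
      have hvK : v ∈ S.Kk t := Finset.mem_filter.mpr ⟨hv, h⟩
      have hv0 : (0 : ℝ) < (v t : ℝ) := by exact_mod_cast h
      have heq : k t = S.pk t v k := by
        have h0 := S.ipr_kink hr hv h k
        rw [hip] at h0
        have hd := S.del_pos t
        have h1 : (k t : ℝ) - (S.pk t v k : ℝ) = 0 := by
          have h2 : (v t : ℝ) * S.del t ≠ 0 := by positivity
          exact (mul_eq_zero.mp h0.symm).resolve_left h2
        have h2 : (k t : ℝ) = (S.pk t v k : ℝ) := by linarith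
        exact_mod_cast h2
      have hbox := D_box_up H hvK
      simp only [← S.bet_dzz] at hbox
      rw [← heq] at hbox
      have hbp : tpv t v (S.bmf k) (S.bpf k) ≤ S.bpf k t := hbox
      rw [mb_succ, Wd_succ]
      have hmin : min ((v t : ℝ) * S.bmf k t) ((v t : ℝ) * S.bpf k t) = (v t : ℝ) * S.bmf k t :=
        min_eq_left (mul_le_mul_of_nonneg_left hle hv0.le)
      rw [hmin]
      have e : mb t v (S.bmf k) (S.bpf k) = - (v t : ℝ) * tpv t v (S.bmf k) (S.bpf k) := by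
        unfold tpv
        field_simp
      rw [e]
      have hX := S.Xi_bd t hr v hv t
      rw [abs_of_pos hv0] at hX
      set T := tpv t v (S.bmf k) (S.bpf k)
      have h1 : (v t : ℝ) * (S.bmf k t - S.bpf k t) ≤ (v t : ℝ) * (S.bmf k t - T) :=
        mul_le_mul_of_nonneg_left (by linarith) hv0.le
      have h2 : (v t : ℝ) * (S.bpf k t - S.bmf k t) ≤ S.Xi * (S.bpf k t - S.bmf k t) :=
        mul_le_mul_of_nonneg_right hX hω0
      have h3 : 0 ≤ S.Xi * Wd t (S.bmf k) (S.bpf k) := mul_nonneg hXi0 hWk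
      nlinarith

end step

/-- All levels. -/
theorem level_all : ∀ r, r ≤ d → S.Level r := by
  intro r
  induction r with
  | zero => exact fun _ => S.level_zero
  | succ r ih => exact fun h => level_succ (ih (by omega)) (by omega)

end Scheme

end

end Vale.Agent.P072G
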